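import Vale.Agent.Lib.P154.Chain.Prog

/-!
The checks of the trees of a segment of the chain: computations on natural numbers, evaluated by the
kernel. Their meaning is proved in `CheckSound`. The functions are written with raw recursors and raw
operations of natural numbers, which the kernel evaluates with few steps; the hints stored at the
leaves are literals, so the values that depend only on them are shared between the leaves.
-/

namespace Vale.Agent.Lib.P154.Chain

/-- conjunction, with the second argument evaluated only when needed -/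
noncomputable def band (a b : Bool) : Bool := Bool.rec false b a

/-- `(ra/rb)^(ep - em) * (ra*rb)^K` as a natural number, when `em <= K + ep` and `ep <= K + em` -/
def pw (ra rb K ep em : Nat) : Nat :=
  Nat.mul (Nat.pow ra (Nat.sub (Nat.add K ep) em)) (Nat.pow rb (Nat.sub (Nat.add K em) ep))

/-- the common denominator of a lattice -/
def dlt (l : LP) : Nat := Nat.pow (Nat.mul l.ra l.rb) l.K

/-- orbit size of a sorted triple `a >= b >= c` -/
noncomputable def orbN (a b c : Nat) : Nat :=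
  Bool.rec (Bool.rec (Bool.rec 6 3 (Nat.beq b c)) 3 (Nat.beq a b)) 1 (Nat.beq a c)

/-- the table of permutations: `p6 q i` -/
def p6 (q i : Nat) : Nat :=
  Nat.mod (Nat.shiftRight 6746936868 (Nat.mul 2 (Nat.add (Nat.mul 3 q) i))) 4

/-- the orbit size of representative `t` -/
noncomputable def orbT (l : LP) (t : Nat) : Nat := orbN (repCo l t 0) (repCo l t 1) (repCo l t 2)

/-- a representative is a sorted triple with coordinates at most `2 O` and total `3 O` -/
noncomputable def repOK1 (l : LP) (t : Nat) : Bool :=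
  band (Nat.ble (repCo l t 1) (repCo l t 0))
    (band (Nat.ble (repCo l t 2) (repCo l t 1))
      (band (Nat.beq (Nat.add (Nat.add (repCo l t 0) (repCo l t 1)) (repCo l t 2)) (Nat.mul 3 l.O))
        (Nat.ble (repCo l t 0) (Nat.mul 2 l.O))))

/-- all representatives of a lattice -/
noncomputable def repsOK (l : LP) (T : Nat) : Bool :=
  Nat.rec true (fun t ih => band (repOK1 l (Nat.succ t)) ih) T

/-- the lattice is well formed: all exponents are covered by `K` -/
noncomputable def latOK (g : GP) (l : LP) : Bool :=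
  band (Nat.ble 1 l.ra) (band (Nat.ble l.rb l.ra) (band (Nat.ble 1 l.rb)
    (band (Nat.ble (Nat.mul g.d l.O) l.K) (band (Nat.ble (Nat.mul 2 (Nat.mul g.d l.O)) 65535)
      (repsOK l l.T)))))

/-- the global parameters are well formed -/
noncomputable def gpOK (g : GP) : Bool :=
  band (Nat.ble 1 g.d) (band (Nat.ble (Nat.mul 2 g.ln) g.ld) (band (Nat.ble 1 g.ld)
    (band (Nat.ble (Nat.add (Nat.mul 2 g.bw) 2) g.B) (band (Nat.ble (Nat.add (Nat.add g.bw g.u) 8) g.wd)
      (band (Nat.ble 1 g.u) (Nat.ble g.bw (Nat.mul g.d (Nat.add g.bw g.H))))))))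

/-- the two denominators have the given ratio -/
noncomputable def pairOK (li lo : LP) (D1 D2 : Nat) : Bool :=
  band (Nat.ble 1 D1) (band (Nat.ble 1 D2) (Nat.beq (Nat.mul D1 (dlt li)) (Nat.mul D2 (dlt lo))))

/-! ### The assembly tree -/

/-- a leaf of the assembly tree: its position is the index of the image of its representative by
the permutation `q`, and it reads the field of its representative with the right orbit size -/
noncomputable def pLeafK (g : GP) (l : LP) (pos p o t q y0 y1 y2 : Nat) : Bool :=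
  band (Nat.beq pos (Nat.mul g.B (Nat.add y0 (Nat.mul (LP.L g l) y1))))
    (band (Nat.beq p (Nat.mul g.wd t)) (band (Nat.ble 1 t) (band (Nat.ble t l.T) (band (Nat.ble q 5)
      (band (Nat.beq y0 (repCo l t (p6 q 0))) (band (Nat.beq y1 (repCo l t (p6 q 1)))
        (band (Nat.beq y2 (repCo l t (p6 q 2))) (Nat.beq o (orbT l t)))))))))

/-- the check of an assembly tree: leaves in strictly increasing positions in `[pos, hi)` -/
noncomputable def chkP (g : GP) (l : LP) (T : PT) : Nat → Nat → Bool :=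
  PT.rec (motive := fun _ => Nat → Nat → Bool) (fun pos hi => Nat.ble pos hi)
    (fun p o t q y0 y1 y2 pos hi =>
      band (Nat.ble (Nat.succ pos) hi) (pLeafK g l pos p o t q y0 y1 y2))
    (fun k _ _ il ir pos hi => band (il pos (Nat.add pos k)) (ir (Nat.add pos k) hi)) T

/-- the leaves of an assembly tree counted field by field, three bits per field -/
noncomputable def PT.cntK (T : PT) : Nat :=
  PT.rec (motive := fun _ => Nat) 0 (fun _ _ t _ _ _ _ => Nat.shiftLeft 1 (Nat.mul 3 t))
    (fun _ _ _ il ir => Nat.add il ir) T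

/-- the orbit sizes of a mass list, field by field, three bits per field -/
noncomputable def ZL.cntK (wd : Nat) (T : ZL) : Nat :=
  ZL.rec (motive := fun _ => Nat) 0
    (fun p o _ _ ih => Nat.add (Nat.shiftLeft o (Nat.mul 3 (Nat.div p wd))) ih) T

/-- an entry of the mass list for representative `t`, above the bound `lb`: `Z` bounds the mass of a
coordinate over the orbit, and the total number of images -/
noncomputable def zOK (g : GP) (l : LP) (p o Z lb t : Nat) : Bool :=
  band (Nat.beq p (Nat.mul g.wd t)) (band (Nat.ble lb t) (band (Nat.ble t l.T)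
    (band (Nat.beq o (orbT l t))
    (band (Nat.ble (Nat.mul o (Nat.pow 2 g.H)) Z)
      (Nat.ble
        (Nat.mul (Nat.mul (Nat.pow 2 g.H) o)
          (Nat.add (Nat.add (pw l.ra l.rb l.K (repCo l t 0) l.O) (pw l.ra l.rb l.K (repCo l t 1) l.O))
            (pw l.ra l.rb l.K (repCo l t 2) l.O)))
        (Nat.mul (Nat.mul 3 Z) (dlt l)))))))

/-- the mass list enumerates representatives in increasing order, from `lb` on -/
noncomputable def chkZ (g : GP) (l : LP) (T : ZL) : Nat → Bool :=
  ZL.rec (motive := fun _ => Nat → Bool) (fun _ => true)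
    (fun p o Z _ ih lb =>
      band (zOK g l p o Z lb (Nat.div p g.wd)) (ih (Nat.succ (Nat.div p g.wd)))) T

/-- the assembly tree lists exactly the images of the representatives of the mass list, each once,
and the mass list is right -/
noncomputable def ptOK (g : GP) (l : LP) (Tp : PT) (Tz : ZL) : Bool :=
  band (chkP g l Tp 0 (Nat.mul g.B (LP.N g l)))
    (band (chkZ g l Tz 1) (Nat.beq (PT.cntK Tp) (ZL.cntK g.wd Tz)))

/-! ### A leaf of the traversal tree -/

/-- the first multiplier of the channel -/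
noncomputable def c1K (g : GP) : Nat := Nat.add g.ld g.ln

/-- the second multiplier of the channel -/
noncomputable def c3K (g : GP) : Nat := Nat.mul 3 g.ln

/-- coordinate `i` of the ray of representative `t` under the permutation `q`, as a numerator over
`dlt l` -/
noncomputable def rayK (l : LP) (t q i : Nat) : Nat := pw l.ra l.rb l.K (repCo l t (p6 q i)) l.O

/-- the `i`-th coordinate of the combination of a leaf, as a numerator over `dlt lo` -/
noncomputable def cnK (lo : LP) (M1 t1 q1 M2 t2 q2 M3 t3 q3 i : Nat) : Nat :=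
  Nat.add (Nat.add (Nat.mul M1 (rayK lo t1 q1 i)) (Nat.mul M2 (rayK lo t2 q2 i)))
    (Nat.mul M3 (rayK lo t3 q3 i))

/-- a target of a leaf with a nonzero mass is the field of a representative of the output lattice -/
noncomputable def tgtK (wd T P M t q : Nat) : Bool :=
  Bool.rec (band (Nat.beq P (Nat.mul wd t)) (band (Nat.ble 1 t) (band (Nat.ble t T) (Nat.ble q 5))))
    true (Nat.beq M 0)

/-- the inequality on one coordinate -/
noncomputable def cmpK (g : GP) (D1 D2 o S vi cn : Nat) : Bool :=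
  Nat.ble (Nat.mul (Nat.mul (Nat.mul 3 g.ld) D2) cn)
    (Nat.mul (Nat.mul (Nat.mul o (Nat.pow 2 g.u)) D1)
      (Nat.sub (Nat.mul (c1K g) S) (Nat.mul (c3K g) vi)))

/-- The inequality of a leaf for a vector with numerators `v0 v1 v2` and sum `S` over `dlt li`:
`o * chan(v) >= sum_j (M_j / 2^u) rho_j`, coordinate by coordinate, and the bound for the sum of the
`M_j`. -/
noncomputable def combK (g : GP) (li lo : LP) (D1 D2 M1 t1 q1 M2 t2 q2 M3 t3 q3 o v0 v1 v2 S : Nat) : Bool :=
  band (cmpK g D1 D2 o S v0 (cnK lo M1 t1 q1 M2 t2 q2 M3 t3 q3 0))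
    (band (cmpK g D1 D2 o S v1 (cnK lo M1 t1 q1 M2 t2 q2 M3 t3 q3 1))
      (band (cmpK g D1 D2 o S v2 (cnK lo M1 t1 q1 M2 t2 q2 M3 t3 q3 2))
        (Nat.ble (Nat.mul (Nat.mul 3 (Nat.add (Nat.add M1 M2) M3)) (dlt li))
          (Nat.mul (Nat.mul o (Nat.pow 2 g.u)) S))))

/-- The inequality for a leaf sent to the special field (eigenvalue `-1/2` only): the whole mass goes
to the images of a vertex. -/
noncomputable def spK (g : GP) (li : LP) (P1 M1 M2 M3 o S : Nat) : Bool :=
  band (Nat.beq (Nat.mul 2 g.ln) g.ld) (band (Nat.beq P1 0) (band (Nat.beq M2 0) (band (Nat.beq M3 0)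
    (Nat.ble (Nat.mul (Nat.mul 6 M1) (dlt li)) (Nat.mul (Nat.mul o (Nat.pow 2 g.u)) S)))))

/-- a leaf for a plain cell -/
noncomputable def xLeafK (g : GP) (li lo : LP) (D1 D2 pos P1 M1 P2 M2 P3 M3 t1 q1 t2 q2 t3 q3 n0 n1 n2 : Nat) :
    Bool :=
  band (Nat.beq pos (Nat.mul g.B (Nat.add n0 (Nat.mul (LP.L g li) n1))))
    (band (Nat.beq (Nat.add (Nat.add n0 n1) n2) (Nat.mul 3 (Nat.mul g.d li.O)))
      (band (Nat.ble n1 n0) (band (Nat.ble n2 n1) (band (Nat.ble n0 (Nat.mul 2 (Nat.mul g.d li.O)))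
        (Bool.rec
          (band (tgtK g.wd lo.T P1 M1 t1 q1) (band (tgtK g.wd lo.T P2 M2 t2 q2) (band (tgtK g.wd lo.T P3 M3 t3 q3)
            (combK g li lo D1 D2 M1 t1 q1 M2 t2 q2 M3 t3 q3 (orbN n0 n1 n2)
              (pw li.ra li.rb li.K n0 (Nat.mul g.d li.O)) (pw li.ra li.rb li.K n1 (Nat.mul g.d li.O))
              (pw li.ra li.rb li.K n2 (Nat.mul g.d li.O))
              (Nat.add (Nat.add (pw li.ra li.rb li.K n0 (Nat.mul g.d li.O))
                (pw li.ra li.rb li.K n1 (Nat.mul g.d li.O)))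
                (pw li.ra li.rb li.K n2 (Nat.mul g.d li.O)))))))
          (spK g li P1 M1 M2 M3 (orbN n0 n1 n2)
            (Nat.add (Nat.add (pw li.ra li.rb li.K n0 (Nat.mul g.d li.O))
              (pw li.ra li.rb li.K n1 (Nat.mul g.d li.O)))
              (pw li.ra li.rb li.K n2 (Nat.mul g.d li.O))))
          (Nat.beq t1 0))))))

/-- the orbit size of a special cell -/
noncomputable def orbE (n1 n2 : Nat) : Nat := Bool.rec 6 3 (Nat.beq n1 n2)

/-- a leaf for a cell with coordinate `0` zeroed -/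
noncomputable def eLeafK (g : GP) (li lo : LP) (D1 D2 pos P1 M1 P2 M2 P3 M3 t1 q1 t2 q2 t3 q3 n0 n1 n2 : Nat) :
    Bool :=
  band (Nat.beq pos (Nat.mul g.B (Nat.add n0 (Nat.mul (LP.L g li) n1))))
    (band (Nat.beq (Nat.add (Nat.add n0 n1) n2) (Nat.mul 3 (Nat.mul g.d li.O)))
      (band (Nat.ble n2 n1) (band (Nat.ble n1 (Nat.mul 2 (Nat.mul g.d li.O)))
        (band (Nat.ble n0 (Nat.mul 2 (Nat.mul g.d li.O)))
        (Bool.rec
          (band (tgtK g.wd lo.T P1 M1 t1 q1) (band (tgtK g.wd lo.T P2 M2 t2 q2) (band (tgtK g.wd lo.T P3 M3 t3 q3)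
            (combK g li lo D1 D2 M1 t1 q1 M2 t2 q2 M3 t3 q3 (orbE n1 n2) 0
              (pw li.ra li.rb li.K n1 (Nat.mul g.d li.O)) (pw li.ra li.rb li.K n2 (Nat.mul g.d li.O))
              (Nat.add (pw li.ra li.rb li.K n1 (Nat.mul g.d li.O))
                (pw li.ra li.rb li.K n2 (Nat.mul g.d li.O)))))))
          (spK g li P1 M1 M2 M3 (orbE n1 n2)
            (Nat.add (pw li.ra li.rb li.K n1 (Nat.mul g.d li.O))
              (pw li.ra li.rb li.K n2 (Nat.mul g.d li.O))))
          (Nat.beq t1 0))))))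

/-- the check of a traversal tree of plain cells: leaves in strictly increasing positions in
`[pos, hi)`, with `b` the offset of the fields -/
noncomputable def chkX (g : GP) (li lo : LP) (D1 D2 : Nat) (T : XT) : Nat → Nat → Nat → Bool :=
  XT.rec (motive := fun _ => Nat → Nat → Nat → Bool) (fun pos _ hi => Nat.ble pos hi)
    (fun p1 M1 p2 M2 p3 M3 t1 q1 t2 q2 t3 q3 n0 n1 n2 pos b hi =>
      band (Nat.ble (Nat.succ pos) hi)
        (xLeafK g li lo D1 D2 pos (Nat.add b p1) M1 (Nat.add b p2) M2 (Nat.add b p3) M3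
          t1 q1 t2 q2 t3 q3 n0 n1 n2))
    (fun k q1 q2 _ _ il ir pos b hi =>
      band (il pos (Nat.add b q1) (Nat.add pos k)) (ir (Nat.add pos k) (Nat.add b q2) hi)) T

/-- the check of a traversal tree of special cells -/
noncomputable def chkE (g : GP) (li lo : LP) (D1 D2 : Nat) (T : XT) : Nat → Nat → Nat → Bool :=
  XT.rec (motive := fun _ => Nat → Nat → Nat → Bool) (fun pos _ hi => Nat.ble pos hi)
    (fun p1 M1 p2 M2 p3 M3 t1 q1 t2 q2 t3 q3 n0 n1 n2 pos b hi =>
      band (Nat.ble (Nat.succ pos) hi)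
        (eLeafK g li lo D1 D2 pos (Nat.add b p1) M1 (Nat.add b p2) M2 (Nat.add b p3) M3
          t1 q1 t2 q2 t3 q3 n0 n1 n2))
    (fun k q1 q2 _ _ il ir pos b hi =>
      band (il pos (Nat.add b q1) (Nat.add pos k)) (ir (Nat.add pos k) (Nat.add b q2) hi)) T

/-- a leaf of a traversal tree with its absolute data -/
structure XL where
  pos : Nat
  P1 : Nat
  M1 : Nat
  P2 : Nat
  M2 : Nat
  P3 : Nat
  M3 : Nat
  t1 : Nat
  q1 : Nat
  t2 : Nat
  q2 : Nat
  t3 : Nat
  q3 : Nat
  n0 : Nat
  n1 : Nat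
  n2 : Nat

/-- the check of a leaf of plain cells, on a record -/
noncomputable def xLeafOK (g : GP) (li lo : LP) (D1 D2 : Nat) (a : XL) : Bool :=
  xLeafK g li lo D1 D2 a.pos a.P1 a.M1 a.P2 a.M2 a.P3 a.M3 a.t1 a.q1 a.t2 a.q2 a.t3 a.q3 a.n0 a.n1 a.n2

/-- the check of a leaf of special cells, on a record -/
noncomputable def eLeafOK (g : GP) (li lo : LP) (D1 D2 : Nat) (a : XL) : Bool :=
  eLeafK g li lo D1 D2 a.pos a.P1 a.M1 a.P2 a.M2 a.P3 a.M3 a.t1 a.q1 a.t2 a.q2 a.t3 a.q3 a.n0 a.n1 a.n2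

/-- the packed image of a leaf -/
def vPacked (a : XL) : Nat :=
  Nat.add (Nat.add (Nat.shiftLeft a.M1 a.P1) (Nat.shiftLeft a.M2 a.P2)) (Nat.shiftLeft a.M3 a.P3)

/-- the leaf of a vertex: `3 chan(e_0) >= sum_j (M_j/2^u) rho_j`, or the special field with `M = 2^(u-1)`
at eigenvalue `-1/2`. The sum of the `M_j` is at most `3 * 2^u`. -/
noncomputable def vLeafOK (g : GP) (li lo : LP) (D1 D2 : Nat) (a : XL) : Bool :=
  Bool.rec
    (band (tgtK g.wd lo.T a.P1 a.M1 a.t1 a.q1) (band (tgtK g.wd lo.T a.P2 a.M2 a.t2 a.q2) (band (tgtK g.wd lo.T a.P3 a.M3 a.t3 a.q3)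
      (combK g li lo D1 D2 a.M1 a.t1 a.q1 a.M2 a.t2 a.q2 a.M3 a.t3 a.q3 3 (dlt li) 0 0 (dlt li)))))
    (band (Nat.beq (Nat.mul 2 g.ln) g.ld) (band (Nat.beq a.P1 0)
      (band (Nat.beq a.M1 (Nat.pow 2 (Nat.sub g.u 1))) (band (Nat.beq a.M2 0) (Nat.beq a.M3 0)))))
    (Nat.beq a.t1 0)

/-- all the checks of a segment, for the lattice `li` of the message and `lo` of the next message,
with `D1 * dlt li = D2 * dlt lo` -/
noncomputable def checkSeg (g : GP) (li lo : LP) (D1 D2 : Nat) (vl : XL) (Tp : PT) (Tx Te : XT) (Tz : ZL) : Bool :=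
  band (gpOK g) (band (latOK g li) (band (latOK g lo) (band (pairOK li lo D1 D2)
    (band (ptOK g li Tp Tz)
      (band (chkX g li lo D1 D2 Tx 0 0 (Nat.mul g.B (LP.N g li)))
        (band (chkE g li lo D1 D2 Te 0 0 (Nat.mul g.B (LP.N g li)))
          (vLeafOK g li lo D1 D2 vl)))))))

/-- the operations of the power compute the exponent `k` from exponent `1` -/
def Ops.expo : Ops → Nat → Nat
  | .nil, k => k
  | .sq tl, k => Ops.expo tl (2 * k)
  | .sqm tl, k => Ops.expo tl (2 * k + 1)

/-! ### The moments at the hand-off -/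

/-- the parameters of the class at the hand-off: `M0 = Mn/Md` and so on, with precision `Hm` -/
structure HP where
  Mn : Nat
  Md : Nat
  kapN : Nat
  kapD : Nat
  bpN : Nat
  bpD : Nat
  bmN : Nat
  bmD : Nat
  Hm : Nat

/-- accumulators of the moments -/
structure Acc where
  mu : Nat
  qu : Nat
  aP : Nat
  aM : Nat
  bP : Nat
  bM : Nat
  ml : Nat

/-- ceiling of a quotient -/
def cdiv (a b : Nat) : Nat := (a + b - 1) / b

/-- the contribution of one cell with numerators `v0 v1 v2` and weight `c` -/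
def accStep (Hm D c v0 v1 v2 : Nat) (A : Acc) : Acc :=
  let S := v0 + v1 + v2
  let Q2 := v0 ^ 2 + v1 ^ 2 + v2 ^ 2
  let Q3 := v0 ^ 3 + v1 ^ 3 + v2 ^ 3
  let Y := 2 ^ Hm
  let T2 := 3 * Q2 - S ^ 2
  let Np := 9 * Q3 + 2 * S ^ 3
  let Nm := 9 * Q2 * S
  let den3 := 27 * D * S ^ 2
  { mu := A.mu + c * cdiv (Y * T2) (9 * S * D)
    qu := A.qu + c * cdiv (Y * T2 ^ 2) (27 * D * S ^ 3)
    aP := A.aP + c * cdiv (Y * Np) den3
    aM := A.aM + c * ((Y * Nm) / den3)
    bP := A.bP + c * ((Y * Np) / den3)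
    bM := A.bM + c * cdiv (Y * Nm) den3
    ml := A.ml + c * ((Y * S) / (3 * D)) }

/-- force the accumulators -/
noncomputable def forceAcc (A : Acc) (k : Acc → Bool) : Bool :=
  seqN A.mu (fun _ => seqN A.qu (fun _ => seqN A.aP (fun _ => seqN A.aM (fun _ => seqN A.bP (fun _ =>
    seqN A.bM (fun _ => seqN A.ml (fun _ => k A)))))))

/-- the fold over the leaves of a tree, reading the digits of `w` -/
noncomputable def accT (g : GP) (l : LP) (Hm : Nat) (T : XT) : Nat → Acc → (Acc → Bool) → Bool :=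
  XT.rec (motive := fun _ => Nat → Acc → (Acc → Bool) → Bool) (fun _ A k => k A)
    (fun _ _ _ _ _ _ _ _ _ _ _ _ n0 n1 n2 w A k =>
      forceAcc
        (accStep Hm (dlt l) (Nat.mul (orbN n0 n1 n2) (Nat.mod w (Nat.pow 2 g.B)))
          (pw l.ra l.rb l.K n0 (Nat.mul g.d l.O)) (pw l.ra l.rb l.K n1 (Nat.mul g.d l.O))
          (pw l.ra l.rb l.K n2 (Nat.mul g.d l.O)) A) k)
    (fun kk _ _ _ _ il ir w A k =>
      il (Nat.mod w (Nat.shiftLeft 1 kk)) A (fun A' => ir (Nat.shiftRight w kk) A' k)) T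

/-- the numerical check of the class for the listed family plus the rest at the vertices -/
def accOK (g : GP) (h : HP) (A : Acc) : Bool :=
  let Y := 2 ^ (g.bw + h.Hm)
  let rho := Y - A.ml
  A.ml ≤ Y
  && (3 * A.mu + 2 * rho) * h.Md ≤ 3 * h.Mn * Y
  && (9 * A.qu + 4 * rho) * h.Md ^ 2 * h.kapD ≤ 9 * h.kapN * h.Mn ^ 2 * Y
  && (9 * A.aP + 2 * rho) * h.Md ^ 2 * h.bpD ≤ 9 * A.aM * h.Md ^ 2 * h.bpD + 9 * h.bpN * h.Mn ^ 2 * Y
  && A.bM * h.Md ^ 2 * h.bmD ≤ A.bP * h.Md ^ 2 * h.bmD + h.bmN * h.Mn ^ 2 * Y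

/-- The check at the hand-off: from the state, compute the digits of the next level as in a generation,
check the bound of the mass and the moments of the listed cells. -/
noncomputable def handOK (g : GP) (l : LP) (h : HP) (ops : Ops) (Tp : PT) (Tx : XT) (Tz : ZL) (st : Nat) : Bool :=
  seqN (asm (Nat.pow 2 g.wd) g.u st Tp) (fun Pw =>
    seqN (Nat.shiftRight (Nat.mod (Nat.shiftRight st 0) (Nat.pow 2 g.wd)) g.u) (fun f =>
      seqN (sumZ (Nat.pow 2 g.wd) g.u st Tz 0) (fun Sh =>
        seqN (Nat.shiftLeft f g.H) (fun F =>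
          seqN (keptOf g.d Sh F) (fun K =>
            band (Nat.ble (Nat.add Sh F) (Nat.shiftLeft 1 (Nat.add g.bw g.H)))
              (band (Nat.ble K (Nat.shiftLeft 1 (Nat.mul g.d (Nat.add g.bw g.H))))
                (goPow g.bw (maskOf g.B g.bw (LP.N g l)) Pw (Nat.shiftLeft f (LP.eo g l)) ops Pw
                  (Nat.shiftLeft f (LP.eo g l)) (fun W _ =>
                    accT g l h.Hm Tx W ⟨0, 0, 0, 0, 0, 0, 0⟩ (accOK g h)))))))))

end Vale.Agent.Lib.P154.Chain
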