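import Vale.Agent.Lib.P154.Chain.Kron

/-!
The meaning of the checks of `Check.lean` in terms of real vectors.
-/

namespace Vale.Agent.Lib.P154.Chain

open scoped BigOperators

/-! ### Elementary facts on the raw operations -/

theorem band_eq_true (a b : Bool) : band a b = true ↔ a = true ∧ b = true := by
  cases a <;> simp [band]

theorem beq_true_of_eq {a b : ℕ} (h : a = b) : Nat.beq a b = true := by
  subst h
  exact Nat.beq_refl a

theorem beq_false_of_ne {a b : ℕ} (h : a ≠ b) : Nat.beq a b = false := by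
  cases hb : Nat.beq a b
  · rfl
  · exact absurd (Nat.eq_of_beq_eq_true hb) h

/-- orbit size in words -/
theorem orbN_eq (a b c : ℕ) : orbN a b c = if a = c then 1 else if a = b ∨ b = c then 3 else 6 := by
  unfold orbN
  by_cases h1 : a = c
  · rw [beq_true_of_eq h1, if_pos h1]
  · rw [beq_false_of_ne h1, if_neg h1]
    by_cases h2 : a = b
    · rw [beq_true_of_eq h2, if_pos (Or.inl h2)]
    · rw [beq_false_of_ne h2]
      by_cases h3 : b = c
      · rw [beq_true_of_eq h3, if_pos (Or.inr h3)]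
      · rw [beq_false_of_ne h3, if_neg]
        rintro (h | h)
        · exact h2 h
        · exact h3 h

theorem orbE_eq (a b : ℕ) : orbE a b = if a = b then 3 else 6 := by
  unfold orbE
  by_cases h : a = b
  · rw [beq_true_of_eq h, if_pos h]
  · rw [beq_false_of_ne h, if_neg h]

/-- the orbit size is the number of distinct images of a sorted triple -/
theorem card_images (a b c : ℕ) (h1 : b ≤ a) (h2 : c ≤ b) :
    (Finset.univ.image (fun σ : Equiv.Perm (Fin 3) => (![a, b, c] : Ex) ∘ σ)).card = orbN a b c := by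
  have key : ∀ (x y z : ℕ) (f : ℕ → ℕ), Function.Injective f →
      (Finset.univ.image (fun σ : Equiv.Perm (Fin 3) => (![f x, f y, f z] : Ex) ∘ σ)).card
        = (Finset.univ.image (fun σ : Equiv.Perm (Fin 3) => (![x, y, z] : Ex) ∘ σ)).card := by
    intro x y z f hf
    have e : (fun σ : Equiv.Perm (Fin 3) => (![f x, f y, f z] : Ex) ∘ σ)
        = (fun v : Ex => f ∘ v) ∘ (fun σ : Equiv.Perm (Fin 3) => (![x, y, z] : Ex) ∘ σ) := by
      funext σ i
      simp only [Function.comp_apply]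
      generalize σ i = j
      fin_cases j <;> rfl
    rw [e, ← Finset.image_image, Finset.card_image_of_injective]
    intro u v huv
    funext i
    exact hf (congrFun huv i)
  rw [orbN_eq]
  by_cases h3 : a = c
  · have hb : b = a := by omega
    subst hb
    subst h3
    rw [if_pos rfl]
    have h := key 0 0 0 (fun n => n + b) (fun m n hmn => by simpa using hmn)
    simp only [zero_add] at h
    rw [h]
    decide
  · rw [if_neg h3]
    by_cases h2 : a = b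
    · rw [if_pos (Or.inl h2)]
      subst h2
      have hf : Function.Injective (fun n : ℕ => if n = 0 then c else if n = 1 then a else a + 1 + n) := by
        intro m n hmn
        simp only at hmn
        split_ifs at hmn <;> omega
      have h := key 1 1 0 _ hf
      simp only [one_ne_zero, if_false, if_true] at h
      rw [h]
      decide
    · by_cases h4 : b = c
      · rw [if_pos (Or.inr h4)]
        subst h4
        have hf : Function.Injective (fun n : ℕ => if n = 0 then b else if n = 1 then a else a + 1 + n) := by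
          intro m n hmn
          simp only at hmn
          split_ifs at hmn <;> omega
        have h := key 1 0 0 _ hf
        simp only [one_ne_zero, if_false, if_true] at h
        rw [h]
        decide
      · rw [if_neg (by tauto)]
        rw [Finset.card_image_of_injective, Finset.card_univ, Fintype.card_perm]
        · rfl
        · intro σ τ hστ
          have hinj : Function.Injective (![a, b, c] : Ex) := by
            intro i j hij
            fin_cases i <;> fin_cases j <;> simp at hij ⊢ <;> omega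
          exact Equiv.ext fun i => hinj (congrFun hστ i)

/-! ### Real data of a lattice -/

/-- the ratio of a lattice -/
noncomputable def rr (l : LP) : ℝ := (l.ra : ℝ) / l.rb

/-- the exponent vector of representative `t` -/
def repEx (l : LP) (t : ℕ) : Ex := ![repCo l t 0, repCo l t 1, repCo l t 2]

/-- the ray of representative `t` -/
noncomputable def rhoT (l : LP) (t : ℕ) : Vec := ray (rr l) l.O 1 (repEx l t)

/-- the eigenvalue -/
noncomputable def lamOf (g : GP) : ℝ := -((g.ln : ℝ) / g.ld)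

/-- the exponent vector of a leaf of a traversal tree -/
def xEx (a : XL) : Ex := ![a.n0, a.n1, a.n2]

/-- the permutation of the table `p6` -/
def perm6 (q : ℕ) : Equiv.Perm (Fin 3) :=
  match q % 6 with
  | 0 => 1
  | 1 => Equiv.swap 1 2
  | 2 => Equiv.swap 0 1
  | 3 => ⟨![1, 2, 0], ![2, 0, 1], by decide, by decide⟩
  | 4 => ⟨![2, 0, 1], ![1, 2, 0], by decide, by decide⟩
  | _ => Equiv.swap 0 2

theorem p6_eq (q : ℕ) (hq : q ≤ 5) (i : Fin 3) : p6 q i = (perm6 q i).val := by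
  interval_cases q <;> fin_cases i <;> rfl

/-- `pw` is the ray times the common denominator -/
theorem pw_eq (l : LP) (h0 : 0 < l.ra) (h1 : 0 < l.rb) {ep em : ℕ} (h2 : em ≤ l.K + ep)
    (h3 : ep ≤ l.K + em) :
    (pw l.ra l.rb l.K ep em : ℝ) = rr l ^ ((ep : ℤ) - (em : ℤ)) * (dlt l : ℝ) := by
  have ha : (l.ra : ℝ) ≠ 0 := by positivity
  have hb : (l.rb : ℝ) ≠ 0 := by positivity
  have e1 : ((l.K + ep - em : ℕ) : ℤ) = (l.K : ℤ) + ep - em := by omega
  have e2 : ((l.K + em - ep : ℕ) : ℤ) = (l.K : ℤ) + em - ep := by omega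
  unfold pw dlt rr
  simp only [Nat.mul_eq, Nat.add_eq, Nat.pow_eq, Nat.sub_eq]
  push_cast
  rw [div_zpow, mul_pow]
  have h1 : (l.ra : ℝ) ^ (l.K + ep - em) = (l.ra : ℝ) ^ ((l.K : ℤ) + ep - em) := by
    rw [← e1, zpow_natCast]
  have h2 : (l.rb : ℝ) ^ (l.K + em - ep) = (l.rb : ℝ) ^ ((l.K : ℤ) + em - ep) := by
    rw [← e2, zpow_natCast]
  rw [h1, h2]
  have h3 : (l.K : ℤ) + ep - em = (ep : ℤ) - em + l.K := by ring
  have h4 : (l.K : ℤ) + em - ep = (l.K : ℤ) - ((ep : ℤ) - em) := by ring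
  rw [h3, h4, zpow_add₀ ha, zpow_sub₀ hb, zpow_natCast, zpow_natCast]
  field_simp

theorem dlt_pos (l : LP) (h0 : 0 < l.ra) (h1 : 0 < l.rb) : 0 < dlt l := by
  unfold dlt
  exact Nat.pow_pos (Nat.mul_pos h0 h1)

theorem repsOK_spec {l : LP} {T : ℕ} (h : repsOK l T = true) :
    ∀ t, 1 ≤ t → t ≤ T → repOK1 l t = true := by
  induction T with
  | zero =>
    intro t h1 h2
    omega
  | succ T ih =>
    have h' : band (repOK1 l (Nat.succ T)) (repsOK l T) = true := h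
    obtain ⟨a, b⟩ := (band_eq_true _ _).1 h'
    intro t h1 h2
    by_cases ht : t = T + 1
    · subst ht
      exact a
    · exact ih b t h1 (by omega)

/-- properties of a well formed lattice -/
theorem latOK_props {g : GP} {l : LP} (h : latOK g l = true) :
    0 < l.ra ∧ 0 < l.rb ∧ 0 < rr l ∧ g.d * l.O ≤ l.K ∧ 2 * (g.d * l.O) ≤ 65535
      ∧ ∀ t, 1 ≤ t → t ≤ l.T → repCo l t 1 ≤ repCo l t 0 ∧ repCo l t 2 ≤ repCo l t 1
        ∧ repCo l t 0 + repCo l t 1 + repCo l t 2 = 3 * l.O ∧ repCo l t 0 ≤ 2 * l.O := by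
  unfold latOK at h
  simp only [band_eq_true] at h
  obtain ⟨h1, h2, h3, h4, h5, h6⟩ := h
  have a1 : 1 ≤ l.ra := Nat.le_of_ble_eq_true h1
  have a3 : 1 ≤ l.rb := Nat.le_of_ble_eq_true h3
  refine ⟨a1, a3, ?_, Nat.le_of_ble_eq_true h4, Nat.le_of_ble_eq_true h5, ?_⟩
  · unfold rr
    positivity
  · intro t ht1 ht2
    have h7 := repsOK_spec h6 t ht1 ht2
    unfold repOK1 at h7
    simp only [band_eq_true] at h7
    obtain ⟨b1, b2, b3, b4⟩ := h7
    exact ⟨Nat.le_of_ble_eq_true b1, Nat.le_of_ble_eq_true b2, Nat.eq_of_beq_eq_true b3,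
      Nat.le_of_ble_eq_true b4⟩

theorem gpOK_props {g : GP} (h : gpOK g = true) :
    0 < g.d ∧ 0 < g.ld ∧ -(1 / 2) ≤ lamOf g ∧ lamOf g ≤ 0 ∧ 2 * g.ln ≤ g.ld ∧ 2 * g.bw + 2 ≤ g.B
      ∧ g.bw + g.u + 8 ≤ g.wd ∧ 1 ≤ g.u ∧ g.bw ≤ g.d * (g.bw + g.H) := by
  unfold gpOK at h
  simp only [band_eq_true] at h
  obtain ⟨h1, h2, h3, h4, h5, h6, h7⟩ := h
  have a1 : 1 ≤ g.d := Nat.le_of_ble_eq_true h1
  have a2 : 2 * g.ln ≤ g.ld := Nat.le_of_ble_eq_true h2
  have a3 : 1 ≤ g.ld := Nat.le_of_ble_eq_true h3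
  have hld : (0 : ℝ) < g.ld := by exact_mod_cast a3
  have hln : (2 : ℝ) * g.ln ≤ g.ld := by exact_mod_cast a2
  refine ⟨a1, a3, ?_, ?_, a2, Nat.le_of_ble_eq_true h4, Nat.le_of_ble_eq_true h5,
    Nat.le_of_ble_eq_true h6, Nat.le_of_ble_eq_true h7⟩
  · unfold lamOf
    have : (g.ln : ℝ) / g.ld ≤ 1 / 2 := by
      rw [div_le_iff₀ hld]
      linarith
    linarith
  · unfold lamOf
    have : (0 : ℝ) ≤ (g.ln : ℝ) / g.ld := by positivity
    linarith

theorem pairOK_props {li lo : LP} {D1 D2 : ℕ} (h : pairOK li lo D1 D2 = true) :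
    0 < D1 ∧ 0 < D2 ∧ D1 * dlt li = D2 * dlt lo := by
  unfold pairOK at h
  simp only [band_eq_true] at h
  obtain ⟨h1, h2, h3⟩ := h
  exact ⟨Nat.le_of_ble_eq_true h1, Nat.le_of_ble_eq_true h2, Nat.eq_of_beq_eq_true h3⟩

/-- the coordinates of a representative under a permutation, over the common denominator -/
theorem rayK_eq {g : GP} {l : LP} (hl : latOK g l = true) (hd : 1 ≤ g.d) {t q : ℕ} (h1 : 1 ≤ t) (h2 : t ≤ l.T)
    (hq : q ≤ 5) (i : Fin 3) :
    (rayK l t q i : ℝ) = (rhoT l t ∘ perm6 q) i * (dlt l : ℝ) := by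
  obtain ⟨ha, hb, hr, hK, h65, hreps⟩ := latOK_props hl
  obtain ⟨s1, s2, s3, s4⟩ := hreps t h1 h2
  unfold rayK
  rw [p6_eq q hq i]
  have hO : l.O ≤ l.K := le_trans (Nat.le_mul_of_pos_left _ hd) hK
  have hco : ∀ j : Fin 3, repCo l t j ≤ 2 * l.O := by
    intro j
    fin_cases j
    · exact s4
    · show repCo l t 1 ≤ 2 * l.O
      omega
    · show repCo l t 2 ≤ 2 * l.O
      omega
  have hrep : ∀ j : Fin 3, (repEx l t) j = repCo l t j := by
    intro j
    fin_cases j <;> rfl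
  rw [pw_eq l ha hb (by omega) (by have := hco (perm6 q i); omega)]
  simp only [rhoT, Function.comp_apply, ray, hrep, one_mul]

/-! ### Coefficients of a leaf -/

/-- the coefficient of a leaf on field `t` -/
def coefAt (wd : ℕ) (a : XL) (t : ℕ) : ℕ :=
  (if a.P1 = wd * t then a.M1 else 0) + (if a.P2 = wd * t then a.M2 else 0)
    + (if a.P3 = wd * t then a.M3 else 0)

/-- the bound a leaf gives for a test function, with the special field `0` -/
noncomputable def leafRHS (g : GP) (lo : LP) (a : XL) (G : Vec → ℝ) : ℝ :=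
  ((2 : ℝ) ^ g.u)⁻¹ * (∑ t ∈ Finset.Icc 1 lo.T, (coefAt g.wd a t : ℝ) * G (rhoT lo t)
    + (coefAt g.wd a 0 : ℝ) * (3 * G (mask 0)))

/-- all targets of a valid leaf are fields, so the term of the leaf is the sum over the fields -/
theorem term_eq_fields {g : GP} {lo : LP} {a : XL} (hw : 0 < g.wd)
    (h1 : a.M1 = 0 ∨ ∃ t ≤ lo.T, a.P1 = g.wd * t) (h2 : a.M2 = 0 ∨ ∃ t ≤ lo.T, a.P2 = g.wd * t)
    (h3 : a.M3 = 0 ∨ ∃ t ≤ lo.T, a.P3 = g.wd * t) :
    a.term = ∑ t ∈ Finset.range (lo.T + 1), coefAt g.wd a t * 2 ^ (g.wd * t) := by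
  have key : ∀ P M : ℕ, (M = 0 ∨ ∃ t ≤ lo.T, P = g.wd * t) →
      ∑ t ∈ Finset.range (lo.T + 1), (if P = g.wd * t then M else 0) * 2 ^ (g.wd * t) = M * 2 ^ P := by
    intro P M hPM
    rcases hPM with h | ⟨t0, ht0, hP⟩
    · subst h
      simp
    · rw [Finset.sum_eq_single t0]
      · rw [if_pos hP, hP]
      · intro t _ hne
        rw [if_neg, zero_mul]
        rw [hP]
        intro he
        exact hne (Nat.eq_of_mul_eq_mul_left hw he).symm
      · intro hn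
        exact absurd (Finset.mem_range.mpr (by omega)) hn
  unfold XL.term coefAt
  simp only [add_mul, Finset.sum_add_distrib]
  rw [key _ _ h1, key _ _ h2, key _ _ h3]

theorem coefAt_le_sum {wd : ℕ} (hw : 0 < wd) (a : XL) (t : ℕ) : coefAt wd a t ≤ a.M1 + a.M2 + a.M3 := by
  unfold coefAt
  split_ifs <;> omega

/-- the targets of a leaf are valid -/
noncomputable def tgtsOK (g : GP) (lo : LP) (a : XL) : Bool :=
  band (tgtK g.wd lo.T a.P1 a.M1 a.t1 a.q1) (band (tgtK g.wd lo.T a.P2 a.M2 a.t2 a.q2)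
    (tgtK g.wd lo.T a.P3 a.M3 a.t3 a.q3))

theorem tgt_props {wd T P M t q : ℕ} (h : tgtK wd T P M t q = true) :
    M = 0 ∨ (P = wd * t ∧ 1 ≤ t ∧ t ≤ T ∧ q ≤ 5) := by
  unfold tgtK at h
  by_cases hM : M = 0
  · exact Or.inl hM
  · right
    rw [beq_false_of_ne hM] at h
    simp only [band_eq_true] at h
    obtain ⟨h1, h2, h3, h4⟩ := h
    exact ⟨Nat.eq_of_beq_eq_true h1, Nat.le_of_ble_eq_true h2, Nat.le_of_ble_eq_true h3,
      Nat.le_of_ble_eq_true h4⟩

/-- the sum over the fields of one target -/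
theorem sum_coef_one {wd T P M t0 : ℕ} (hw : 0 < wd) (f : ℕ → ℝ)
    (h : M = 0 ∨ (P = wd * t0 ∧ 1 ≤ t0 ∧ t0 ≤ T)) :
    ∑ t ∈ Finset.Icc 1 T, ((if P = wd * t then M else 0 : ℕ) : ℝ) * f t = (M : ℝ) * f t0 := by
  rcases h with h | ⟨hP, h1, h2⟩
  · subst h
    simp
  · rw [Finset.sum_eq_single t0]
    · rw [if_pos hP]
    · intro t _ hne
      rw [if_neg, Nat.cast_zero, zero_mul]
      rw [hP]
      intro he
      exact hne (Nat.eq_of_mul_eq_mul_left hw he).symm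
    · intro hn
      exact absurd (Finset.mem_Icc.mpr ⟨h1, h2⟩) hn

theorem coef_zero_one {wd T P M t0 : ℕ} (hw : 0 < wd)
    (h : M = 0 ∨ (P = wd * t0 ∧ 1 ≤ t0 ∧ t0 ≤ T)) : (if P = wd * 0 then M else 0) = 0 := by
  rcases h with h | ⟨hP, h1, _⟩
  · subst h
    simp
  · rw [if_neg]
    rw [hP, mul_zero]
    have := Nat.mul_pos hw h1
    omega

/-- the right hand side of a leaf with valid plain targets -/
theorem leafRHS_eq_of_tgts {g : GP} {lo : LP} {a : XL} (hw : 0 < g.wd) {G : Vec → ℝ}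
    (h1 : a.M1 = 0 ∨ (a.P1 = g.wd * a.t1 ∧ 1 ≤ a.t1 ∧ a.t1 ≤ lo.T))
    (h2 : a.M2 = 0 ∨ (a.P2 = g.wd * a.t2 ∧ 1 ≤ a.t2 ∧ a.t2 ≤ lo.T))
    (h3 : a.M3 = 0 ∨ (a.P3 = g.wd * a.t3 ∧ 1 ≤ a.t3 ∧ a.t3 ≤ lo.T)) :
    leafRHS g lo a G = ((2 : ℝ) ^ g.u)⁻¹ * ((a.M1 : ℝ) * G (rhoT lo a.t1)
      + (a.M2 : ℝ) * G (rhoT lo a.t2) + (a.M3 : ℝ) * G (rhoT lo a.t3)) := by
  unfold leafRHS coefAt
  have c1 := coef_zero_one hw h1
  have c2 := coef_zero_one hw h2
  have c3 := coef_zero_one hw h3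
  rw [c1, c2, c3]
  push_cast
  simp only [add_mul, Finset.sum_add_distrib]
  have s1 := sum_coef_one (f := fun t => G (rhoT lo t)) hw h1
  have s2 := sum_coef_one (f := fun t => G (rhoT lo t)) hw h2
  have s3 := sum_coef_one (f := fun t => G (rhoT lo t)) hw h3
  simp only [Nat.cast_ite, Nat.cast_zero] at s1 s2 s3
  rw [s1, s2, s3]
  ring

/-- the core of the combination: a vector above the listed combination is worse than it -/
theorem comb_core {g : GP} {lo : LP} {a : XL} (hr : 0 < rr lo) {G : Vec → ℝ} (hG : NSub G)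
    (hs : Symm G) {w : Vec}
    (hcoord : ∀ i : Fin 3, ((2 : ℝ) ^ g.u)⁻¹ * ((a.M1 : ℝ) * (rhoT lo a.t1 ∘ perm6 a.q1) i
      + (a.M2 : ℝ) * (rhoT lo a.t2 ∘ perm6 a.q2) i + (a.M3 : ℝ) * (rhoT lo a.t3 ∘ perm6 a.q3) i) ≤ w i) :
    G w ≤ ((2 : ℝ) ^ g.u)⁻¹ * ((a.M1 : ℝ) * G (rhoT lo a.t1)
      + (a.M2 : ℝ) * G (rhoT lo a.t2) + (a.M3 : ℝ) * G (rhoT lo a.t3)) := by
  have hc : (0 : ℝ) ≤ ((2 : ℝ) ^ g.u)⁻¹ := by positivity
  have hm1 : (0 : ℝ) ≤ a.M1 := by positivity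
  have hm2 : (0 : ℝ) ≤ a.M2 := by positivity
  have hm3 : (0 : ℝ) ≤ a.M3 := by positivity
  have hrho : ∀ t q, 0 ≤ rhoT lo t ∘ perm6 q := fun t q i => ray_nonneg hr (repEx lo t) (perm6 q i)
  set r1 := rhoT lo a.t1 ∘ perm6 a.q1 with hr1
  set r2 := rhoT lo a.t2 ∘ perm6 a.q2 with hr2
  set r3 := rhoT lo a.t3 ∘ perm6 a.q3 with hr3
  have n1 : 0 ≤ (a.M1 : ℝ) • r1 := smul_nonneg hm1 (hrho _ _)
  have n2 : 0 ≤ (a.M2 : ℝ) • r2 := smul_nonneg hm2 (hrho _ _)
  have n3 : 0 ≤ (a.M3 : ℝ) • r3 := smul_nonneg hm3 (hrho _ _)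
  have n12 : 0 ≤ (a.M1 : ℝ) • r1 + (a.M2 : ℝ) • r2 := add_nonneg n1 n2
  have n123 : 0 ≤ (a.M1 : ℝ) • r1 + (a.M2 : ℝ) • r2 + (a.M3 : ℝ) • r3 := add_nonneg n12 n3
  have hle : ((2 : ℝ) ^ g.u)⁻¹ • ((a.M1 : ℝ) • r1 + (a.M2 : ℝ) • r2 + (a.M3 : ℝ) • r3) ≤ w := by
    intro i
    simpa using hcoord i
  have h1 := hG.antitone (smul_nonneg hc n123) hle
  refine h1.trans ?_
  rw [hG.smul_eq _ _ hc n123]
  apply mul_le_mul_of_nonneg_left _ hc
  have h2 := hG.add_le _ _ n12 n3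
  have h3 := hG.add_le _ _ n1 n2
  rw [hG.smul_eq _ _ hm1 (hrho _ _), hG.smul_eq _ _ hm2 (hrho _ _)] at h3
  rw [hG.smul_eq _ _ hm3 (hrho _ _)] at h2
  rw [hr1, hs] at h3
  rw [hr2, hs] at h3
  rw [hr3, hs] at h2
  linarith

/-- the comparison on one coordinate -/
theorem cmp_real {g : GP} {D1 D2 o S vi cn dI dO : ℕ} (hI : 0 < dI) (hO : 0 < dO) (hD1 : 0 < D1)
    (hD : D1 * dI = D2 * dO) (hld : 0 < g.ld) (h2 : 2 * g.ln ≤ g.ld) (hvS : vi ≤ S)
    (h : cmpK g D1 D2 o S vi cn = true) :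
    ((2 : ℝ) ^ g.u)⁻¹ * ((cn : ℝ) / dO)
      ≤ (o : ℝ) * (lamOf g * ((vi : ℝ) / dI) + (1 - lamOf g) / 3 * ((S : ℝ) / dI)) := by
  have h' : 3 * g.ld * D2 * cn ≤ o * 2 ^ g.u * D1 * ((g.ld + g.ln) * S - 3 * g.ln * vi) :=
    Nat.le_of_ble_eq_true h
  have hsub : 3 * g.ln * vi ≤ (g.ld + g.ln) * S := by
    have e1 : 3 * g.ln * vi ≤ 3 * g.ln * S := Nat.mul_le_mul_left _ hvS
    have e2 : 3 * g.ln * S ≤ (g.ld + g.ln) * S := Nat.mul_le_mul_right _ (by omega)
    omega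
  have hr : (3 * (g.ld : ℝ) * D2 * cn) ≤ o * 2 ^ g.u * D1 * ((g.ld + g.ln) * S - 3 * g.ln * vi) := by
    have := (Nat.cast_le (α := ℝ)).2 h'
    push_cast [Nat.cast_sub hsub] at this
    exact this
  have hIr : (0 : ℝ) < dI := by exact_mod_cast hI
  have hOr : (0 : ℝ) < dO := by exact_mod_cast hO
  have hD1r : (0 : ℝ) < D1 := by exact_mod_cast hD1
  have hldr : (0 : ℝ) < g.ld := by exact_mod_cast hld
  have hDr : (D1 : ℝ) * dI = D2 * dO := by exact_mod_cast hD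
  have hu : (0 : ℝ) < 2 ^ g.u := by positivity
  have goal' : 3 * (g.ld : ℝ) * dI * cn ≤ o * 2 ^ g.u * dO * ((g.ld + g.ln) * S - 3 * g.ln * vi) := by
    have e : (D1 : ℝ) * (3 * (g.ld : ℝ) * dI * cn) ≤ D1 * (o * 2 ^ g.u * dO * ((g.ld + g.ln) * S - 3 * g.ln * vi)) := by
      have e1 : (D1 : ℝ) * (3 * (g.ld : ℝ) * dI * cn) = dO * (3 * (g.ld : ℝ) * D2 * cn) := by
        calc (D1 : ℝ) * (3 * (g.ld : ℝ) * dI * cn) = ((D1 : ℝ) * dI) * (3 * (g.ld : ℝ) * cn) := by ring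
          _ = (D2 * dO) * (3 * (g.ld : ℝ) * cn) := by rw [hDr]
          _ = _ := by ring
      have e2 : (D1 : ℝ) * (o * 2 ^ g.u * dO * ((g.ld + g.ln) * S - 3 * g.ln * vi))
          = dO * (o * 2 ^ g.u * D1 * ((g.ld + g.ln) * S - 3 * g.ln * vi)) := by ring
      rw [e1, e2]
      exact mul_le_mul_of_nonneg_left hr hOr.le
    exact le_of_mul_le_mul_left e hD1r
  have eR : (o : ℝ) * (lamOf g * ((vi : ℝ) / dI) + (1 - lamOf g) / 3 * ((S : ℝ) / dI))
      = (o * ((g.ld + g.ln) * S - 3 * g.ln * vi)) / (3 * g.ld * dI) := by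
    unfold lamOf
    field_simp
    ring
  rw [eR, inv_mul_eq_div, div_div, div_le_div_iff₀ (by positivity) (by positivity)]
  nlinarith [goal', mul_pos hu hOr]

/-- the coordinates of the combination of a leaf -/
theorem cn_eq {g : GP} {lo : LP} {M1 t1 q1 M2 t2 q2 M3 t3 q3 : ℕ} (hlo : latOK g lo = true) (hd : 1 ≤ g.d)
    (h1 : M1 = 0 ∨ (1 ≤ t1 ∧ t1 ≤ lo.T ∧ q1 ≤ 5)) (h2 : M2 = 0 ∨ (1 ≤ t2 ∧ t2 ≤ lo.T ∧ q2 ≤ 5))
    (h3 : M3 = 0 ∨ (1 ≤ t3 ∧ t3 ≤ lo.T ∧ q3 ≤ 5)) (i : Fin 3) (hdl : (0 : ℝ) < dlt lo) :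
    (cnK lo M1 t1 q1 M2 t2 q2 M3 t3 q3 i : ℝ) / dlt lo
      = (M1 : ℝ) * (rhoT lo t1 ∘ perm6 q1) i + (M2 : ℝ) * (rhoT lo t2 ∘ perm6 q2) i
        + (M3 : ℝ) * (rhoT lo t3 ∘ perm6 q3) i := by
  have key : ∀ {M t q : ℕ}, (M = 0 ∨ (1 ≤ t ∧ t ≤ lo.T ∧ q ≤ 5)) →
      (M : ℝ) * (rayK lo t q i : ℝ) = (M : ℝ) * ((rhoT lo t ∘ perm6 q) i * dlt lo) := by
    intro M t q h
    rcases h with h | ⟨a, b, c⟩
    · subst h
      simp
    · rw [rayK_eq hlo hd a b c i]
  have e : (cnK lo M1 t1 q1 M2 t2 q2 M3 t3 q3 i : ℝ)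
      = (M1 : ℝ) * (rayK lo t1 q1 i : ℝ) + (M2 : ℝ) * (rayK lo t2 q2 i : ℝ)
        + (M3 : ℝ) * (rayK lo t3 q3 i : ℝ) := by
    show ((M1 * rayK lo t1 q1 i + M2 * rayK lo t2 q2 i + M3 * rayK lo t3 q3 i : ℕ) : ℝ) = _
    push_cast
    ring
  rw [e, key h1, key h2, key h3]
  field_simp

/-- Combination inequality with a general name for the total. -/
theorem combK_sound_gen {g : GP} {li lo : LP} {D1 D2 : ℕ} {a : XL} {o v0 v1 v2 S : ℕ} {v : Vec}
    (hg : gpOK g = true) (hli : latOK g li = true) (hlo : latOK g lo = true)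
    (hp : pairOK li lo D1 D2 = true) (ht : tgtsOK g lo a = true)
    (hv : v = ![(v0 : ℝ) / dlt li, (v1 : ℝ) / dlt li, (v2 : ℝ) / dlt li]) (hS : S = v0 + v1 + v2)
    (h : combK g li lo D1 D2 a.M1 a.t1 a.q1 a.M2 a.t2 a.q2 a.M3 a.t3 a.q3 o v0 v1 v2 S = true)
    {G : Vec → ℝ} (hG : NSub G) (hs : Symm G) :
    (o : ℝ) * G (chanV (lamOf g) v) ≤ leafRHS g lo a G := by
  obtain ⟨gd, gld, gm, gle, g2, gB, gwd, gu, gb⟩ := gpOK_props hg
  obtain ⟨ha, hb, hr, hK, h65, hreps⟩ := latOK_props hli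
  obtain ⟨ha', hb', hr', hK', h65', hreps'⟩ := latOK_props hlo
  obtain ⟨hD1, hD2, hD⟩ := pairOK_props hp
  have hwd : 0 < g.wd := by omega
  have hdli : 0 < dlt li := dlt_pos li ha hb
  have hdlo : 0 < dlt lo := dlt_pos lo ha' hb'
  have hdlir : (0 : ℝ) < dlt li := by exact_mod_cast hdli
  have hdlor : (0 : ℝ) < dlt lo := by exact_mod_cast hdlo
  unfold combK at h
  simp only [band_eq_true] at h
  obtain ⟨c0, c1, c2, _⟩ := h
  unfold tgtsOK at ht
  simp only [band_eq_true] at ht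
  obtain ⟨t1, t2, t3⟩ := ht
  have T1 := tgt_props t1
  have T2 := tgt_props t2
  have T3 := tgt_props t3
  rw [leafRHS_eq_of_tgts hwd (T1.imp id fun x => ⟨x.1, x.2.1, x.2.2.1⟩)
    (T2.imp id fun x => ⟨x.1, x.2.1, x.2.2.1⟩) (T3.imp id fun x => ⟨x.1, x.2.1, x.2.2.1⟩)]
  have hv0 : 0 ≤ v := by
    subst hv
    intro i
    fin_cases i <;> simp <;> positivity
  have hchan : 0 ≤ chanV (lamOf g) v := chanV_nonneg gm (by linarith) hv0
  have hscale : (o : ℝ) * G (chanV (lamOf g) v) = G ((o : ℝ) • chanV (lamOf g) v) :=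
    (hG.smul_eq _ _ (by positivity) hchan).symm
  rw [hscale]
  apply comb_core hr' hG hs
  have hsum : v 0 + v 1 + v 2 = (S : ℝ) / dlt li := by
    subst hv
    subst hS
    show (v0 : ℝ) / dlt li + (v1 : ℝ) / dlt li + (v2 : ℝ) / dlt li = _
    push_cast
    ring
  have hU1 := T1.imp id fun x => (⟨x.2.1, x.2.2.1, x.2.2.2⟩ : 1 ≤ a.t1 ∧ a.t1 ≤ lo.T ∧ a.q1 ≤ 5)
  have hU2 := T2.imp id fun x => (⟨x.2.1, x.2.2.1, x.2.2.2⟩ : 1 ≤ a.t2 ∧ a.t2 ≤ lo.T ∧ a.q2 ≤ 5)
  have hU3 := T3.imp id fun x => (⟨x.2.1, x.2.2.1, x.2.2.2⟩ : 1 ≤ a.t3 ∧ a.t3 ≤ lo.T ∧ a.q3 ≤ 5)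
  intro i
  rw [← cn_eq hlo gd hU1 hU2 hU3 i hdlor]
  simp only [Pi.smul_apply, smul_eq_mul, chanV]
  rw [hsum]
  fin_cases i
  · have := cmp_real hdli hdlo hD1 hD gld g2 (by omega) c0
    subst hv
    simpa using this
  · have := cmp_real hdli hdlo hD1 hD gld g2 (by omega) c1
    subst hv
    simpa using this
  · have := cmp_real hdli hdlo hD1 hD gld g2 (by omega) c2
    subst hv
    simpa using this

/-- Combination inequality: a valid leaf for the real vector `v` with numerators `v0 v1 v2`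
gives the bound for every normalized symmetric test function. -/
theorem combK_sound {g : GP} {li lo : LP} {D1 D2 : ℕ} {a : XL} {o v0 v1 v2 : ℕ} {v : Vec}
    (hg : gpOK g = true) (hli : latOK g li = true) (hlo : latOK g lo = true)
    (hp : pairOK li lo D1 D2 = true) (ht : tgtsOK g lo a = true)
    (hv : v = ![(v0 : ℝ) / dlt li, (v1 : ℝ) / dlt li, (v2 : ℝ) / dlt li])
    (h : combK g li lo D1 D2 a.M1 a.t1 a.q1 a.M2 a.t2 a.q2 a.M3 a.t3 a.q3 o v0 v1 v2
      (Nat.add (Nat.add v0 v1) v2) = true)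
    {G : Vec → ℝ} (hG : NSub G) (hs : Symm G) :
    (o : ℝ) * G (chanV (lamOf g) v) ≤ leafRHS g lo a G :=
  combK_sound_gen hg hli hlo hp ht hv rfl h hG hs

theorem combK_mass {g : GP} {li lo : LP} {D1 D2 : ℕ} {a : XL} {o v0 v1 v2 S : ℕ}
    (hli : 0 < dlt li)
    (h : combK g li lo D1 D2 a.M1 a.t1 a.q1 a.M2 a.t2 a.q2 a.M3 a.t3 a.q3 o v0 v1 v2 S = true) :
    3 * ((a.M1 + a.M2 + a.M3 : ℕ) : ℝ) ≤ o * 2 ^ g.u * ((S : ℝ) / dlt li) := by
  unfold combK at h
  simp only [band_eq_true] at h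
  obtain ⟨_, _, _, h4⟩ := h
  have h' : 3 * (a.M1 + a.M2 + a.M3) * dlt li ≤ o * 2 ^ g.u * S := Nat.le_of_ble_eq_true h4
  have hr : (3 * ((a.M1 + a.M2 + a.M3 : ℕ) : ℝ)) * dlt li ≤ o * 2 ^ g.u * S := by exact_mod_cast h'
  have hd : (0 : ℝ) < dlt li := by exact_mod_cast hli
  rw [← mul_div_assoc, le_div_iff₀ hd]
  exact hr

theorem spK_props {g : GP} {li : LP} {P1 M1 M2 M3 o S : ℕ} (h : spK g li P1 M1 M2 M3 o S = true) :
    2 * g.ln = g.ld ∧ P1 = 0 ∧ M2 = 0 ∧ M3 = 0 ∧ 6 * M1 * dlt li ≤ o * 2 ^ g.u * S := by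
  unfold spK at h
  simp only [band_eq_true] at h
  obtain ⟨h1, h2, h3, h4, h5⟩ := h
  exact ⟨Nat.eq_of_beq_eq_true h1, Nat.eq_of_beq_eq_true h2, Nat.eq_of_beq_eq_true h3,
    Nat.eq_of_beq_eq_true h4, Nat.le_of_ble_eq_true h5⟩

theorem lam_half {g : GP} (hld : 0 < g.ld) (h : 2 * g.ln = g.ld) : lamOf g = -(1 / 2) := by
  unfold lamOf
  have hr : (2 : ℝ) * g.ln = g.ld := by exact_mod_cast h
  have hldr : (g.ld : ℝ) ≠ 0 := by
    have : (0 : ℝ) < g.ld := by exact_mod_cast hld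
    exact this.ne'
  have hln : (g.ln : ℝ) ≠ 0 := by
    intro h0
    apply hldr
    rw [← hr, h0, mul_zero]
  rw [← hr]
  field_simp

theorem chan_half (v : Vec) :
    chanV (-(1 / 2)) v = (1 / 2 : ℝ) • (v 0 • mask 0 + v 1 • mask 1 + v 2 • mask 2) := by
  funext i
  simp only [chanV, Pi.smul_apply, Pi.add_apply, smul_eq_mul, mask]
  fin_cases i <;> simp <;> ring

theorem G_mask {G : Vec → ℝ} (hs : Symm G) (j : Fin 3) : G (mask j) = G (mask 0) := by
  have h := hs (Equiv.swap 0 j) (mask j)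
  rw [mask_perm] at h
  rw [← h]
  congr 2
  simp

/-- the right hand side of a special leaf -/
theorem leafRHS_special {g : GP} {lo : LP} {a : XL} (hw : 0 < g.wd) {G : Vec → ℝ} (hP : a.P1 = 0)
    (h2 : a.M2 = 0) (h3 : a.M3 = 0) :
    leafRHS g lo a G = ((2 : ℝ) ^ g.u)⁻¹ * ((a.M1 : ℝ) * (3 * G (mask 0))) := by
  unfold leafRHS coefAt
  rw [hP, h2, h3]
  have e1 : ∀ t ∈ Finset.Icc 1 lo.T, (((if 0 = g.wd * t then a.M1 else 0) + (if a.P2 = g.wd * t then 0 else 0)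
      + (if a.P3 = g.wd * t then 0 else 0) : ℕ) : ℝ) * G (rhoT lo t) = 0 := by
    intro t ht
    have ht1 : 1 ≤ t := (Finset.mem_Icc.mp ht).1
    have hne : 0 ≠ g.wd * t := (Nat.mul_pos hw ht1).ne
    simp [hne]
  rw [Finset.sum_eq_zero e1]
  simp

/-- a valid leaf of a cell sent to the special field, with a general name for the total -/
theorem spK_sound_gen {g : GP} {li lo : LP} {a : XL} {o v0 v1 v2 S : ℕ} {v : Vec}
    (hg : gpOK g = true) (hli : latOK g li = true)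
    (hv : v = ![(v0 : ℝ) / dlt li, (v1 : ℝ) / dlt li, (v2 : ℝ) / dlt li]) (hS : S = v0 + v1 + v2)
    (h : spK g li a.P1 a.M1 a.M2 a.M3 o S = true)
    {G : Vec → ℝ} (hG : NSub G) (hs : Symm G) :
    (o : ℝ) * G (chanV (lamOf g) v) ≤ leafRHS g lo a G := by
  obtain ⟨gd, gld, gm, gle, g2, gB, gwd, gu, gb⟩ := gpOK_props hg
  obtain ⟨ha, hb, hr, hK, h65, hreps⟩ := latOK_props hli
  obtain ⟨e1, e2, e3, e4, e5⟩ := spK_props h
  have hwd : 0 < g.wd := by omega
  have hdli : 0 < dlt li := dlt_pos li ha hb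
  have hdr : (0 : ℝ) < dlt li := by exact_mod_cast hdli
  rw [leafRHS_special hwd e2 e3 e4, lam_half gld e1, chan_half]
  have hv0 : 0 ≤ v 0 := by
    subst hv
    show (0 : ℝ) ≤ (v0 : ℝ) / dlt li
    positivity
  have hv1 : 0 ≤ v 1 := by
    subst hv
    show (0 : ℝ) ≤ (v1 : ℝ) / dlt li
    positivity
  have hv2 : 0 ≤ v 2 := by
    subst hv
    show (0 : ℝ) ≤ (v2 : ℝ) / dlt li
    positivity
  have hsum : v 0 + v 1 + v 2 = (S : ℝ) / dlt li := by
    subst hv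
    subst hS
    show (v0 : ℝ) / dlt li + (v1 : ℝ) / dlt li + (v2 : ℝ) / dlt li = _
    push_cast
    ring
  have n0 : 0 ≤ v 0 • mask 0 := smul_nonneg hv0 (mask_nonneg 0)
  have n1 : 0 ≤ v 1 • mask 1 := smul_nonneg hv1 (mask_nonneg 1)
  have n2 : 0 ≤ v 2 • mask 2 := smul_nonneg hv2 (mask_nonneg 2)
  have n01 := add_nonneg n0 n1
  have n012 := add_nonneg n01 n2
  have hGm : G (mask 0) ≤ 0 := hG.nonpos (mask_nonneg 0)
  rw [hG.smul_eq _ _ (by norm_num) n012]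
  have t1 := hG.add_le _ _ n01 n2
  have t2 := hG.add_le _ _ n0 n1
  rw [hG.smul_eq _ _ hv0 (mask_nonneg 0), hG.smul_eq _ _ hv1 (mask_nonneg 1), G_mask hs 1] at t2
  rw [hG.smul_eq _ _ hv2 (mask_nonneg 2), G_mask hs 2] at t1
  have hle : G (v 0 • mask 0 + v 1 • mask 1 + v 2 • mask 2) ≤ ((S : ℝ) / dlt li) * G (mask 0) := by
    rw [← hsum]
    nlinarith
  have hnum : (6 : ℝ) * a.M1 * dlt li ≤ o * 2 ^ g.u * S := by exact_mod_cast e5
  have hu : (0 : ℝ) < 2 ^ g.u := by positivity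
  have hcomp : ((2 : ℝ) ^ g.u)⁻¹ * ((a.M1 : ℝ) * 3) ≤ (o : ℝ) * (1 / 2 * ((S : ℝ) / dlt li)) := by
    rw [inv_mul_eq_div, div_le_iff₀ hu]
    have : (o : ℝ) * (1 / 2 * ((S : ℝ) / dlt li)) * 2 ^ g.u = (o * 2 ^ g.u * S) / (2 * dlt li) := by
      field_simp
    rw [this, le_div_iff₀ (by positivity)]
    nlinarith
  have ho : (0 : ℝ) ≤ o := by positivity
  calc (o : ℝ) * (1 / 2 * G (v 0 • mask 0 + v 1 • mask 1 + v 2 • mask 2))
      ≤ (o : ℝ) * (1 / 2 * (((S : ℝ) / dlt li) * G (mask 0))) := by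
        apply mul_le_mul_of_nonneg_left _ ho
        linarith
    _ = ((o : ℝ) * (1 / 2 * ((S : ℝ) / dlt li))) * G (mask 0) := by ring
    _ ≤ (((2 : ℝ) ^ g.u)⁻¹ * ((a.M1 : ℝ) * 3)) * G (mask 0) :=
        mul_le_mul_of_nonpos_right hcomp hGm
    _ = _ := by ring

/-- a valid leaf of a cell sent to the special field -/
theorem spK_sound {g : GP} {li lo : LP} {a : XL} {o v0 v1 v2 : ℕ} {v : Vec}
    (hg : gpOK g = true) (hli : latOK g li = true)
    (hv : v = ![(v0 : ℝ) / dlt li, (v1 : ℝ) / dlt li, (v2 : ℝ) / dlt li])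
    (h : spK g li a.P1 a.M1 a.M2 a.M3 o (Nat.add (Nat.add v0 v1) v2) = true)
    {G : Vec → ℝ} (hG : NSub G) (hs : Symm G) :
    (o : ℝ) * G (chanV (lamOf g) v) ≤ leafRHS g lo a G :=
  spK_sound_gen hg hli hv rfl h hG hs

theorem spK_mass {g : GP} {li : LP} {a : XL} {o S : ℕ} (hli : 0 < dlt li)
    (h : spK g li a.P1 a.M1 a.M2 a.M3 o S = true) :
    3 * ((a.M1 + a.M2 + a.M3 : ℕ) : ℝ) ≤ o * 2 ^ g.u * ((S : ℝ) / dlt li) := by
  obtain ⟨_, _, e3, e4, e5⟩ := spK_props h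
  rw [e3, e4]
  have hnum : (6 : ℝ) * a.M1 * dlt li ≤ o * 2 ^ g.u * S := by exact_mod_cast e5
  have hd : (0 : ℝ) < dlt li := by exact_mod_cast hli
  rw [← mul_div_assoc, le_div_iff₀ hd]
  have hm : (0 : ℝ) ≤ a.M1 := by positivity
  push_cast
  nlinarith [mul_nonneg hm hd.le]

/-- what a leaf of plain cells checks -/
theorem xLeaf_unpack {g : GP} {li lo : LP} {D1 D2 : ℕ} {a : XL} (h : xLeafOK g li lo D1 D2 a = true) :
    a.pos = g.B * (a.n0 + LP.L g li * a.n1) ∧ a.n0 + a.n1 + a.n2 = 3 * (g.d * li.O)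
      ∧ a.n1 ≤ a.n0 ∧ a.n2 ≤ a.n1 ∧ a.n0 ≤ 2 * (g.d * li.O)
      ∧ ((tgtsOK g lo a = true ∧ combK g li lo D1 D2 a.M1 a.t1 a.q1 a.M2 a.t2 a.q2 a.M3 a.t3 a.q3
            (orbN a.n0 a.n1 a.n2)
            (pw li.ra li.rb li.K a.n0 (g.d * li.O)) (pw li.ra li.rb li.K a.n1 (g.d * li.O))
            (pw li.ra li.rb li.K a.n2 (g.d * li.O))
            (pw li.ra li.rb li.K a.n0 (g.d * li.O) + pw li.ra li.rb li.K a.n1 (g.d * li.O)
              + pw li.ra li.rb li.K a.n2 (g.d * li.O)) = true)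
        ∨ spK g li a.P1 a.M1 a.M2 a.M3 (orbN a.n0 a.n1 a.n2)
            (pw li.ra li.rb li.K a.n0 (g.d * li.O) + pw li.ra li.rb li.K a.n1 (g.d * li.O)
              + pw li.ra li.rb li.K a.n2 (g.d * li.O)) = true) := by
  unfold xLeafOK xLeafK at h
  simp only [band_eq_true] at h
  obtain ⟨a1, a2, a3, a4, a5, a6⟩ := h
  refine ⟨Nat.eq_of_beq_eq_true a1, Nat.eq_of_beq_eq_true a2, Nat.le_of_ble_eq_true a3,
    Nat.le_of_ble_eq_true a4, Nat.le_of_ble_eq_true a5, ?_⟩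
  cases ht : Nat.beq a.t1 0 with
  | false =>
    left
    rw [ht] at a6
    have a7 := (band_eq_true _ _).1 a6
    have a8 := (band_eq_true _ _).1 a7.2
    have a9 := (band_eq_true _ _).1 a8.2
    refine ⟨?_, a9.2⟩
    unfold tgtsOK
    simp only [band_eq_true]
    exact ⟨a7.1, a8.1, a9.1⟩
  | true =>
    right
    rw [ht] at a6
    exact a6

/-- what a leaf of special cells checks -/
theorem eLeaf_unpack {g : GP} {li lo : LP} {D1 D2 : ℕ} {a : XL} (h : eLeafOK g li lo D1 D2 a = true) :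
    a.pos = g.B * (a.n0 + LP.L g li * a.n1) ∧ a.n0 + a.n1 + a.n2 = 3 * (g.d * li.O)
      ∧ a.n2 ≤ a.n1 ∧ a.n1 ≤ 2 * (g.d * li.O) ∧ a.n0 ≤ 2 * (g.d * li.O)
      ∧ ((tgtsOK g lo a = true ∧ combK g li lo D1 D2 a.M1 a.t1 a.q1 a.M2 a.t2 a.q2 a.M3 a.t3 a.q3
            (orbE a.n1 a.n2) 0
            (pw li.ra li.rb li.K a.n1 (g.d * li.O)) (pw li.ra li.rb li.K a.n2 (g.d * li.O))
            (pw li.ra li.rb li.K a.n1 (g.d * li.O) + pw li.ra li.rb li.K a.n2 (g.d * li.O)) = true)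
        ∨ spK g li a.P1 a.M1 a.M2 a.M3 (orbE a.n1 a.n2)
            (pw li.ra li.rb li.K a.n1 (g.d * li.O) + pw li.ra li.rb li.K a.n2 (g.d * li.O)) = true) := by
  unfold eLeafOK eLeafK at h
  simp only [band_eq_true] at h
  obtain ⟨a1, a2, a3, a4, a5, a6⟩ := h
  refine ⟨Nat.eq_of_beq_eq_true a1, Nat.eq_of_beq_eq_true a2, Nat.le_of_ble_eq_true a3,
    Nat.le_of_ble_eq_true a4, Nat.le_of_ble_eq_true a5, ?_⟩
  cases ht : Nat.beq a.t1 0 with
  | false =>
    left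
    rw [ht] at a6
    have a7 := (band_eq_true _ _).1 a6
    have a8 := (band_eq_true _ _).1 a7.2
    have a9 := (band_eq_true _ _).1 a8.2
    refine ⟨?_, a9.2⟩
    unfold tgtsOK
    simp only [band_eq_true]
    exact ⟨a7.1, a8.1, a9.1⟩
  | true =>
    right
    rw [ht] at a6
    exact a6

/-- what the leaf of the vertex checks -/
theorem vLeaf_unpack {g : GP} {li lo : LP} {D1 D2 : ℕ} {a : XL} (h : vLeafOK g li lo D1 D2 a = true) :
    (tgtsOK g lo a = true ∧ combK g li lo D1 D2 a.M1 a.t1 a.q1 a.M2 a.t2 a.q2 a.M3 a.t3 a.q3 3 (dlt li) 0 0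
        (dlt li) = true)
      ∨ (2 * g.ln = g.ld ∧ a.P1 = 0 ∧ a.M1 = 2 ^ (g.u - 1) ∧ a.M2 = 0 ∧ a.M3 = 0) := by
  unfold vLeafOK at h
  cases ht : Nat.beq a.t1 0 with
  | false =>
    left
    rw [ht] at h
    have a7 := (band_eq_true _ _).1 h
    have a8 := (band_eq_true _ _).1 a7.2
    have a9 := (band_eq_true _ _).1 a8.2
    refine ⟨?_, a9.2⟩
    unfold tgtsOK
    simp only [band_eq_true]
    exact ⟨a7.1, a8.1, a9.1⟩
  | true =>
    right
    rw [ht] at h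
    have h' : band (Nat.beq (Nat.mul 2 g.ln) g.ld) (band (Nat.beq a.P1 0)
      (band (Nat.beq a.M1 (Nat.pow 2 (Nat.sub g.u 1))) (band (Nat.beq a.M2 0) (Nat.beq a.M3 0)))) = true := h
    simp only [band_eq_true] at h'
    obtain ⟨h1, h2, h3, h4, h5⟩ := h'
    exact ⟨Nat.eq_of_beq_eq_true h1, Nat.eq_of_beq_eq_true h2, Nat.eq_of_beq_eq_true h3,
      Nat.eq_of_beq_eq_true h4, Nat.eq_of_beq_eq_true h5⟩

theorem tgts_targets {g : GP} {lo : LP} {a : XL} (h : tgtsOK g lo a = true) :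
    (a.M1 = 0 ∨ ∃ t ≤ lo.T, a.P1 = g.wd * t) ∧ (a.M2 = 0 ∨ ∃ t ≤ lo.T, a.P2 = g.wd * t)
      ∧ (a.M3 = 0 ∨ ∃ t ≤ lo.T, a.P3 = g.wd * t) := by
  unfold tgtsOK at h
  simp only [band_eq_true] at h
  obtain ⟨t1, t2, t3⟩ := h
  refine ⟨(tgt_props t1).imp id fun x => ⟨a.t1, x.2.2.1, x.1⟩, (tgt_props t2).imp id fun x => ⟨a.t2, x.2.2.1, x.1⟩,
    (tgt_props t3).imp id fun x => ⟨a.t3, x.2.2.1, x.1⟩⟩

theorem special_targets {g : GP} {lo : LP} {a : XL} (hP : a.P1 = 0) (h2 : a.M2 = 0) (h3 : a.M3 = 0) :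
    (a.M1 = 0 ∨ ∃ t ≤ lo.T, a.P1 = g.wd * t) ∧ (a.M2 = 0 ∨ ∃ t ≤ lo.T, a.P2 = g.wd * t)
      ∧ (a.M3 = 0 ∨ ∃ t ≤ lo.T, a.P3 = g.wd * t) :=
  ⟨Or.inr ⟨0, Nat.zero_le _, by simp [hP]⟩, Or.inl h2, Or.inl h3⟩

/-- the targets of a valid leaf are fields -/
theorem xLeaf_targets {g : GP} {li lo : LP} {D1 D2 : ℕ} {a : XL} (h : xLeafOK g li lo D1 D2 a = true) :
    (a.M1 = 0 ∨ ∃ t ≤ lo.T, a.P1 = g.wd * t) ∧ (a.M2 = 0 ∨ ∃ t ≤ lo.T, a.P2 = g.wd * t)
      ∧ (a.M3 = 0 ∨ ∃ t ≤ lo.T, a.P3 = g.wd * t) := by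
  obtain ⟨_, _, _, _, _, h6⟩ := xLeaf_unpack h
  rcases h6 with ⟨h7, _⟩ | h7
  · exact tgts_targets h7
  · obtain ⟨_, e2, e3, e4, _⟩ := spK_props h7
    exact special_targets e2 e3 e4

theorem eLeaf_targets {g : GP} {li lo : LP} {D1 D2 : ℕ} {a : XL} (h : eLeafOK g li lo D1 D2 a = true) :
    (a.M1 = 0 ∨ ∃ t ≤ lo.T, a.P1 = g.wd * t) ∧ (a.M2 = 0 ∨ ∃ t ≤ lo.T, a.P2 = g.wd * t)
      ∧ (a.M3 = 0 ∨ ∃ t ≤ lo.T, a.P3 = g.wd * t) := by
  obtain ⟨_, _, _, _, _, h6⟩ := eLeaf_unpack h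
  rcases h6 with ⟨h7, _⟩ | h7
  · exact tgts_targets h7
  · obtain ⟨_, e2, e3, e4, _⟩ := spK_props h7
    exact special_targets e2 e3 e4

theorem vLeaf_targets {g : GP} {li lo : LP} {D1 D2 : ℕ} {a : XL} (h : vLeafOK g li lo D1 D2 a = true) :
    (a.M1 = 0 ∨ ∃ t ≤ lo.T, a.P1 = g.wd * t) ∧ (a.M2 = 0 ∨ ∃ t ≤ lo.T, a.P2 = g.wd * t)
      ∧ (a.M3 = 0 ∨ ∃ t ≤ lo.T, a.P3 = g.wd * t) := by
  rcases vLeaf_unpack h with ⟨h7, _⟩ | ⟨_, e2, _, e3, e4⟩
  · exact tgts_targets h7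
  · exact special_targets e2 e3 e4

/-- the ray of a plain leaf -/
noncomputable def xRay (g : GP) (l : LP) (a : XL) : Vec := ray (rr l) l.O g.d (xEx a)

/-- the vector of a special leaf -/
noncomputable def eRay (g : GP) (l : LP) (a : XL) : Vec := xRay g l a * mask 0

/-- the properties of the exponent of a plain leaf -/
theorem xLeaf_ex {g : GP} {li lo : LP} {D1 D2 : ℕ} {a : XL} (h : xLeafOK g li lo D1 D2 a = true) :
    a.pos = g.B * (a.n0 + LP.L g li * a.n1) ∧ a.n0 + a.n1 + a.n2 = 3 * (g.d * li.O)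
      ∧ a.n1 ≤ a.n0 ∧ a.n2 ≤ a.n1 ∧ a.n0 ≤ 2 * (g.d * li.O) := by
  obtain ⟨h1, h2, h3, h4, h5, _⟩ := xLeaf_unpack h
  exact ⟨h1, h2, h3, h4, h5⟩

theorem eLeaf_ex {g : GP} {li lo : LP} {D1 D2 : ℕ} {a : XL} (h : eLeafOK g li lo D1 D2 a = true) :
    a.pos = g.B * (a.n0 + LP.L g li * a.n1) ∧ a.n0 + a.n1 + a.n2 = 3 * (g.d * li.O)
      ∧ a.n2 ≤ a.n1 ∧ a.n1 ≤ 2 * (g.d * li.O) ∧ a.n0 ≤ 2 * (g.d * li.O) := by
  obtain ⟨h1, h2, h3, h4, h5, _⟩ := eLeaf_unpack h
  exact ⟨h1, h2, h3, h4, h5⟩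

/-- a numerator of a leaf over the denominator is the coordinate of the ray -/
theorem pw_div_dlt {g : GP} {li : LP} (hg : gpOK g = true) (hli : latOK g li = true) {n : ℕ}
    (hn : n ≤ 2 * (g.d * li.O)) :
    (pw li.ra li.rb li.K n (g.d * li.O) : ℝ) / dlt li
      = rr li ^ ((n : ℤ) - ((g.d * li.O : ℕ) : ℤ)) := by
  obtain ⟨ha, hb, hr, hK, h65, hreps⟩ := latOK_props hli
  have hd : (0 : ℝ) < dlt li := by exact_mod_cast dlt_pos li ha hb
  rw [pw_eq li ha hb (by omega) (by omega)]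
  field_simp

theorem xRay_eq {g : GP} {li : LP} {a : XL} (hg : gpOK g = true) (hli : latOK g li = true)
    (h0 : a.n0 ≤ 2 * (g.d * li.O)) (h1 : a.n1 ≤ 2 * (g.d * li.O)) (h2 : a.n2 ≤ 2 * (g.d * li.O)) :
    xRay g li a = ![(pw li.ra li.rb li.K a.n0 (g.d * li.O) : ℝ) / dlt li,
      (pw li.ra li.rb li.K a.n1 (g.d * li.O) : ℝ) / dlt li,
      (pw li.ra li.rb li.K a.n2 (g.d * li.O) : ℝ) / dlt li] := by
  funext i
  fin_cases i
  · show rr li ^ ((a.n0 : ℤ) - ((g.d * li.O : ℕ) : ℤ)) = (pw li.ra li.rb li.K a.n0 (g.d * li.O) : ℝ) / dlt li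
    rw [pw_div_dlt hg hli h0]
  · show rr li ^ ((a.n1 : ℤ) - ((g.d * li.O : ℕ) : ℤ)) = (pw li.ra li.rb li.K a.n1 (g.d * li.O) : ℝ) / dlt li
    rw [pw_div_dlt hg hli h1]
  · show rr li ^ ((a.n2 : ℤ) - ((g.d * li.O : ℕ) : ℤ)) = (pw li.ra li.rb li.K a.n2 (g.d * li.O) : ℝ) / dlt li
    rw [pw_div_dlt hg hli h2]

theorem eRay_eq {g : GP} {li : LP} {a : XL} (hg : gpOK g = true) (hli : latOK g li = true)
    (h1 : a.n1 ≤ 2 * (g.d * li.O)) (h2 : a.n2 ≤ 2 * (g.d * li.O)) :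
    eRay g li a = ![((0 : ℕ) : ℝ) / dlt li,
      (pw li.ra li.rb li.K a.n1 (g.d * li.O) : ℝ) / dlt li,
      (pw li.ra li.rb li.K a.n2 (g.d * li.O) : ℝ) / dlt li] := by
  funext i
  fin_cases i
  · show xRay g li a 0 * mask 0 0 = ((0 : ℕ) : ℝ) / dlt li
    simp [mask]
  · show xRay g li a 1 * mask 0 1 = (pw li.ra li.rb li.K a.n1 (g.d * li.O) : ℝ) / dlt li
    have e : xRay g li a 1 = rr li ^ ((a.n1 : ℤ) - ((g.d * li.O : ℕ) : ℤ)) := rfl
    rw [e, ← pw_div_dlt hg hli h1]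
    simp [mask]
  · show xRay g li a 2 * mask 0 2 = (pw li.ra li.rb li.K a.n2 (g.d * li.O) : ℝ) / dlt li
    have e : xRay g li a 2 = rr li ^ ((a.n2 : ℤ) - ((g.d * li.O : ℕ) : ℤ)) := rfl
    rw [e, ← pw_div_dlt hg hli h2]
    simp [mask]

/-- The bound of a valid leaf of a plain cell for every normalized symmetric test function. -/
theorem xLeaf_sound {g : GP} {li lo : LP} {D1 D2 : ℕ} {a : XL} (hg : gpOK g = true) (hli : latOK g li = true)
    (hlo : latOK g lo = true) (hp : pairOK li lo D1 D2 = true) (h : xLeafOK g li lo D1 D2 a = true)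
    {G : Vec → ℝ} (hG : NSub G) (hs : Symm G) :
    (orbN a.n0 a.n1 a.n2 : ℝ) * G (chanV (lamOf g) (xRay g li a)) ≤ leafRHS g lo a G := by
  obtain ⟨_, _, h3, h4, h5, h6⟩ := xLeaf_unpack h
  have hv := xRay_eq (a := a) hg hli h5 (by omega) (by omega)
  rcases h6 with ⟨h7, h8⟩ | h7
  · exact combK_sound_gen hg hli hlo hp h7 hv rfl h8 hG hs
  · exact spK_sound_gen hg hli hv rfl h7 hG hs

theorem eLeaf_sound {g : GP} {li lo : LP} {D1 D2 : ℕ} {a : XL} (hg : gpOK g = true) (hli : latOK g li = true)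
    (hlo : latOK g lo = true) (hp : pairOK li lo D1 D2 = true) (h : eLeafOK g li lo D1 D2 a = true)
    {G : Vec → ℝ} (hG : NSub G) (hs : Symm G) :
    (orbE a.n1 a.n2 : ℝ) * G (chanV (lamOf g) (eRay g li a)) ≤ leafRHS g lo a G := by
  obtain ⟨_, _, h3, h4, h5, h6⟩ := eLeaf_unpack h
  have hv := eRay_eq (a := a) hg hli h4 (by omega)
  rcases h6 with ⟨h7, h8⟩ | h7
  · exact combK_sound_gen hg hli hlo hp h7 hv (by omega) h8 hG hs
  · exact spK_sound_gen hg hli hv (by omega) h7 hG hs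

/-- the leaf of the vertex -/
theorem vLeaf_sound {g : GP} {li lo : LP} {D1 D2 : ℕ} {a : XL} (hg : gpOK g = true) (hli : latOK g li = true)
    (hlo : latOK g lo = true) (hp : pairOK li lo D1 D2 = true) (h : vLeafOK g li lo D1 D2 a = true)
    {G : Vec → ℝ} (hG : NSub G) (hs : Symm G) :
    3 * G (chanV (lamOf g) (Pi.single 0 1)) ≤ leafRHS g lo a G := by
  obtain ⟨gd, gld, gm, gle, g2, gB, gwd, gu, gb⟩ := gpOK_props hg
  obtain ⟨ha, hb, hr, hK, h65, hreps⟩ := latOK_props hli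
  have hwd : 0 < g.wd := by omega
  have hd : (0 : ℝ) < dlt li := by exact_mod_cast dlt_pos li ha hb
  rcases vLeaf_unpack h with ⟨h7, h8⟩ | ⟨e1, e2, e3, e4, e5⟩
  · have hv : (Pi.single 0 1 : Vec) = ![((dlt li : ℕ) : ℝ) / dlt li, ((0 : ℕ) : ℝ) / dlt li, ((0 : ℕ) : ℝ) / dlt li] := by
      funext i
      fin_cases i
      · show (1 : ℝ) = ((dlt li : ℕ) : ℝ) / dlt li
        field_simp
      · simp
      · simp
    have := combK_sound_gen hg hli hlo hp h7 hv (by omega) h8 hG hs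
    simpa using this
  · rw [leafRHS_special hwd e2 e4 e5, lam_half gld e1]
    have hm : chanV (-(1 / 2)) (Pi.single 0 1) = (1 / 2 : ℝ) • mask 0 := by
      rw [chan_half]
      congr 1
      funext i
      simp
    rw [hm, hG.smul_eq _ _ (by norm_num) (mask_nonneg 0), e3]
    have hu : (2 : ℝ) ^ g.u = 2 * 2 ^ (g.u - 1) := by
      rw [← pow_succ']
      congr 1
      omega
    rw [hu]
    push_cast
    have hp : (0 : ℝ) < 2 ^ (g.u - 1) := by positivity
    field_simp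
    norm_num

/-- mass bounds of the leaves -/
theorem xLeaf_mass {g : GP} {li lo : LP} {D1 D2 : ℕ} {a : XL} (hg : gpOK g = true) (hli : latOK g li = true)
    (h : xLeafOK g li lo D1 D2 a = true) :
    3 * ((a.M1 + a.M2 + a.M3 : ℕ) : ℝ)
      ≤ (orbN a.n0 a.n1 a.n2 : ℝ) * 2 ^ g.u * (xRay g li a 0 + xRay g li a 1 + xRay g li a 2) := by
  obtain ⟨ha, hb, hr, hK, h65, hreps⟩ := latOK_props hli
  have hd := dlt_pos li ha hb
  obtain ⟨_, _, h3, h4, h5, h6⟩ := xLeaf_unpack h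
  have hv := xRay_eq (a := a) hg hli h5 (by omega) (by omega)
  have hsum : xRay g li a 0 + xRay g li a 1 + xRay g li a 2
      = ((pw li.ra li.rb li.K a.n0 (g.d * li.O) + pw li.ra li.rb li.K a.n1 (g.d * li.O)
          + pw li.ra li.rb li.K a.n2 (g.d * li.O) : ℕ) : ℝ) / dlt li := by
    rw [hv]
    show (pw li.ra li.rb li.K a.n0 (g.d * li.O) : ℝ) / dlt li + (pw li.ra li.rb li.K a.n1 (g.d * li.O) : ℝ) / dlt li
      + (pw li.ra li.rb li.K a.n2 (g.d * li.O) : ℝ) / dlt li = _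
    push_cast
    ring
  rw [hsum]
  rcases h6 with ⟨_, h8⟩ | h7
  · exact combK_mass hd h8
  · exact spK_mass hd h7

theorem eLeaf_mass {g : GP} {li lo : LP} {D1 D2 : ℕ} {a : XL} (hg : gpOK g = true) (hli : latOK g li = true)
    (h : eLeafOK g li lo D1 D2 a = true) :
    3 * ((a.M1 + a.M2 + a.M3 : ℕ) : ℝ)
      ≤ (orbE a.n1 a.n2 : ℝ) * 2 ^ g.u * (xRay g li a 1 + xRay g li a 2) := by
  obtain ⟨ha, hb, hr, hK, h65, hreps⟩ := latOK_props hli
  have hd := dlt_pos li ha hb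
  obtain ⟨_, _, h3, h4, h5, h6⟩ := eLeaf_unpack h
  have hsum : xRay g li a 1 + xRay g li a 2
      = ((pw li.ra li.rb li.K a.n1 (g.d * li.O) + pw li.ra li.rb li.K a.n2 (g.d * li.O) : ℕ) : ℝ) / dlt li := by
    push_cast
    rw [add_div, pw_div_dlt hg hli h4, pw_div_dlt hg hli (by omega)]
    rfl
  rw [hsum]
  rcases h6 with ⟨_, h8⟩ | h7
  · exact combK_mass hd h8
  · exact spK_mass hd h7

theorem vLeaf_mass {g : GP} {li lo : LP} {D1 D2 : ℕ} {a : XL} (hg : gpOK g = true) (hli : latOK g li = true)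
    (h : vLeafOK g li lo D1 D2 a = true) : a.M1 + a.M2 + a.M3 ≤ 2 ^ g.u := by
  obtain ⟨gd, gld, gm, gle, g2, gB, gwd, gu, gb⟩ := gpOK_props hg
  obtain ⟨ha, hb, hr, hK, h65, hreps⟩ := latOK_props hli
  have hd := dlt_pos li ha hb
  rcases vLeaf_unpack h with ⟨_, h8⟩ | ⟨_, _, e3, e4, e5⟩
  · unfold combK at h8
    simp only [band_eq_true] at h8
    obtain ⟨_, _, _, h9⟩ := h8
    have h' : 3 * (a.M1 + a.M2 + a.M3) * dlt li ≤ 3 * 2 ^ g.u * dlt li := Nat.le_of_ble_eq_true h9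
    have := Nat.le_of_mul_le_mul_right h' hd
    omega
  · rw [e3, e4, e5]
    have : 2 ^ (g.u - 1) ≤ 2 ^ g.u := Nat.pow_le_pow_right (by norm_num) (by omega)
    omega

/-! ### The traversal trees -/

/-- the check of a traversal tree of plain cells gives the check of all its leaves, and their order -/
theorem chkX_sound_aux {g : GP} {li lo : LP} {D1 D2 : ℕ} (T : XT) (pos b hi : ℕ)
    (h : chkX g li lo D1 D2 T pos b hi = true) :
    pos ≤ hi ∧ (∀ a ∈ XT.leaves T pos b, xLeafOK g li lo D1 D2 a = true ∧ pos ≤ a.pos ∧ a.pos < hi)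
      ∧ (XT.leaves T pos b).Pairwise (fun a c => a.pos < c.pos) := by
  induction T generalizing pos b hi with
  | nil =>
    exact ⟨Nat.le_of_ble_eq_true h, by simp [XT.leaves]⟩
  | lf p1 M1 p2 M2 p3 M3 t1 q1 t2 q2 t3 q3 n0 n1 n2 =>
    have h' : band (Nat.ble (Nat.succ pos) hi)
        (xLeafK g li lo D1 D2 pos (Nat.add b p1) M1 (Nat.add b p2) M2 (Nat.add b p3) M3
          t1 q1 t2 q2 t3 q3 n0 n1 n2) = true := h
    obtain ⟨c1, c2⟩ := (band_eq_true _ _).1 h'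
    have c3 : pos + 1 ≤ hi := Nat.le_of_ble_eq_true c1
    simp only [XT.leaves, List.mem_singleton, forall_eq, List.pairwise_singleton, and_true]
    exact ⟨by omega, c2, le_rfl, c3⟩
  | nd k q1 q2 l r ihl ihr =>
    have h' : band (chkX g li lo D1 D2 l pos (Nat.add b q1) (Nat.add pos k))
          (chkX g li lo D1 D2 r (Nat.add pos k) (Nat.add b q2) hi) = true := h
    simp only [band_eq_true] at h'
    obtain ⟨c1, c2⟩ := h'
    have L := ihl _ _ _ c1
    have R := ihr _ _ _ c2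
    have c0' : pos + k ≤ hi := R.1
    simp only [XT.leaves]
    refine ⟨le_trans (Nat.le_add_right _ _) c0', ?_, ?_⟩
    · intro a ha
      rcases List.mem_append.1 ha with h | h
      · obtain ⟨x, y, z⟩ := L.2.1 a h
        exact ⟨x, y, lt_of_lt_of_le z c0'⟩
      · obtain ⟨x, y, z⟩ := R.2.1 a h
        refine ⟨x, le_trans (Nat.le_add_right _ _) y, z⟩
    · rw [List.pairwise_append]
      exact ⟨L.2.2, R.2.2, fun a ha c hc => lt_of_lt_of_le (L.2.1 a ha).2.2 (R.2.1 c hc).2.1⟩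

theorem chkX_sound {g : GP} {li lo : LP} {D1 D2 : ℕ} (T : XT) (pos b hi : ℕ)
    (h : chkX g li lo D1 D2 T pos b hi = true) :
    (∀ a ∈ XT.leaves T pos b, xLeafOK g li lo D1 D2 a = true ∧ pos ≤ a.pos ∧ a.pos < hi)
      ∧ (XT.leaves T pos b).Pairwise (fun a c => a.pos < c.pos) :=
  (chkX_sound_aux T pos b hi h).2

theorem chkE_sound_aux {g : GP} {li lo : LP} {D1 D2 : ℕ} (T : XT) (pos b hi : ℕ)
    (h : chkE g li lo D1 D2 T pos b hi = true) :
    pos ≤ hi ∧ (∀ a ∈ XT.leaves T pos b, eLeafOK g li lo D1 D2 a = true ∧ pos ≤ a.pos ∧ a.pos < hi)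
      ∧ (XT.leaves T pos b).Pairwise (fun a c => a.pos < c.pos) := by
  induction T generalizing pos b hi with
  | nil =>
    exact ⟨Nat.le_of_ble_eq_true h, by simp [XT.leaves]⟩
  | lf p1 M1 p2 M2 p3 M3 t1 q1 t2 q2 t3 q3 n0 n1 n2 =>
    have h' : band (Nat.ble (Nat.succ pos) hi)
        (eLeafK g li lo D1 D2 pos (Nat.add b p1) M1 (Nat.add b p2) M2 (Nat.add b p3) M3
          t1 q1 t2 q2 t3 q3 n0 n1 n2) = true := h
    obtain ⟨c1, c2⟩ := (band_eq_true _ _).1 h'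
    have c3 : pos + 1 ≤ hi := Nat.le_of_ble_eq_true c1
    simp only [XT.leaves, List.mem_singleton, forall_eq, List.pairwise_singleton, and_true]
    exact ⟨by omega, c2, le_rfl, c3⟩
  | nd k q1 q2 l r ihl ihr =>
    have h' : band (chkE g li lo D1 D2 l pos (Nat.add b q1) (Nat.add pos k))
          (chkE g li lo D1 D2 r (Nat.add pos k) (Nat.add b q2) hi) = true := h
    simp only [band_eq_true] at h'
    obtain ⟨c1, c2⟩ := h'
    have L := ihl _ _ _ c1
    have R := ihr _ _ _ c2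
    have c0' : pos + k ≤ hi := R.1
    simp only [XT.leaves]
    refine ⟨le_trans (Nat.le_add_right _ _) c0', ?_, ?_⟩
    · intro a ha
      rcases List.mem_append.1 ha with h | h
      · obtain ⟨x, y, z⟩ := L.2.1 a h
        exact ⟨x, y, lt_of_lt_of_le z c0'⟩
      · obtain ⟨x, y, z⟩ := R.2.1 a h
        refine ⟨x, le_trans (Nat.le_add_right _ _) y, z⟩
    · rw [List.pairwise_append]
      exact ⟨L.2.2, R.2.2, fun a ha c hc => lt_of_lt_of_le (L.2.1 a ha).2.2 (R.2.1 c hc).2.1⟩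

theorem chkE_sound {g : GP} {li lo : LP} {D1 D2 : ℕ} (T : XT) (pos b hi : ℕ)
    (h : chkE g li lo D1 D2 T pos b hi = true) :
    (∀ a ∈ XT.leaves T pos b, eLeafOK g li lo D1 D2 a = true ∧ pos ≤ a.pos ∧ a.pos < hi)
      ∧ (XT.leaves T pos b).Pairwise (fun a c => a.pos < c.pos) :=
  (chkE_sound_aux T pos b hi h).2

/-! ### The assembly tree -/

/-- the check of an assembly tree gives the check of all its leaves, and their order -/
theorem chkP_sound {g : GP} {l : LP} (T : PT) (pos hi : ℕ) (h : chkP g l T pos hi = true) :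
    (∀ a ∈ PT.leaves T pos, pLeafK g l a.pos a.p a.o a.t a.q a.y0 a.y1 a.y2 = true ∧ pos ≤ a.pos ∧ a.pos < hi)
      ∧ (PT.leaves T pos).Pairwise (fun a c => a.pos < c.pos) := by
  have key : pos ≤ hi ∧ (∀ a ∈ PT.leaves T pos,
        pLeafK g l a.pos a.p a.o a.t a.q a.y0 a.y1 a.y2 = true ∧ pos ≤ a.pos ∧ a.pos < hi)
      ∧ (PT.leaves T pos).Pairwise (fun a c => a.pos < c.pos) := by
    induction T generalizing pos hi with
    | nil =>
      have h' : Nat.ble pos hi = true := h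
      exact ⟨Nat.le_of_ble_eq_true h', by simp [PT.leaves], by simp [PT.leaves]⟩
    | lf p o t q y0 y1 y2 =>
      have h' : band (Nat.ble (Nat.succ pos) hi) (pLeafK g l pos p o t q y0 y1 y2) = true := h
      obtain ⟨a, b⟩ := (band_eq_true _ _).1 h'
      have hle : pos < hi := Nat.le_of_ble_eq_true a
      simp only [PT.leaves, List.mem_singleton, forall_eq, List.pairwise_singleton, and_true]
      exact ⟨hle.le, b, le_rfl, hle⟩
    | nd k l' r il ir =>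
      have h' : band (chkP g l l' pos (pos + k)) (chkP g l r (pos + k) hi) = true := h
      obtain ⟨a, b⟩ := (band_eq_true _ _).1 h'
      obtain ⟨a0, a1, a2⟩ := il _ _ a
      obtain ⟨b0, b1, b2⟩ := ir _ _ b
      rw [PT.leaves, List.pairwise_append]
      refine ⟨by omega, ?_, a2, b2, ?_⟩
      · intro x hx
        rcases List.mem_append.mp hx with hx | hx
        · obtain ⟨h1, h2, h3⟩ := a1 x hx
          exact ⟨h1, h2, by omega⟩
        · obtain ⟨h1, h2, h3⟩ := b1 x hx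
          exact ⟨h1, by omega, h3⟩
      · intro x hx y hy
        have := (a1 x hx).2.2
        have := (b1 y hy).2.1
        omega
  exact key.2

/-- the exponent vector of a leaf of an assembly tree -/
def pEx (a : PL) : Ex := ![a.y0, a.y1, a.y2]

/-- a leaf of an assembly tree is an image of its representative -/
theorem pLeaf_ex {g : GP} {l : LP} {a : PL} (hl : latOK g l = true)
    (h : pLeafK g l a.pos a.p a.o a.t a.q a.y0 a.y1 a.y2 = true) :
    a.pos = g.B * (a.y0 + LP.L g l * a.y1) ∧ a.p = g.wd * a.t ∧ 1 ≤ a.t ∧ a.t ≤ l.T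
      ∧ pEx a = repEx l a.t ∘ perm6 a.q ∧ a.o = orbT l a.t := by
  unfold pLeafK at h
  simp only [band_eq_true] at h
  obtain ⟨h1, h2, h3, h4, h5, h6, h7, h8, h9⟩ := h
  have hq : a.q ≤ 5 := Nat.le_of_ble_eq_true h5
  have e6 : a.y0 = repCo l a.t (p6 a.q 0) := Nat.eq_of_beq_eq_true h6
  have e7 : a.y1 = repCo l a.t (p6 a.q 1) := Nat.eq_of_beq_eq_true h7
  have e8 : a.y2 = repCo l a.t (p6 a.q 2) := Nat.eq_of_beq_eq_true h8
  refine ⟨Nat.eq_of_beq_eq_true h1, Nat.eq_of_beq_eq_true h2, Nat.le_of_ble_eq_true h3,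
    Nat.le_of_ble_eq_true h4, ?_, Nat.eq_of_beq_eq_true h9⟩
  have hrep : ∀ j : Fin 3, repEx l a.t j = repCo l a.t j.val := by
    intro j
    fin_cases j <;> rfl
  funext i
  simp only [Function.comp_apply]
  rw [hrep, ← p6_eq a.q hq i]
  fin_cases i
  · exact e6
  · exact e7
  · exact e8

/-- the measure assembled from the leaves of a tree and a function giving the mass of a field -/
noncomputable def ptMeas (c : ℕ → ℕ → ℕ) (ls : List PL) : Meas :=
  (ls.map (fun a => (⟨Finsupp.single (pEx a) (c a.p a.o)⟩ : Meas))).sum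

/-! ### Helpers for the assembly check -/

private lemma atomsVal_zero (f : Ex → ℝ) : atomsVal 0 f = 0 := by
  unfold atomsVal
  simp

private lemma atomsVal_single (n : Ex) (c : ℕ) (f : Ex → ℝ) :
    atomsVal ⟨Finsupp.single n c⟩ f = (c : ℝ) * f n := by
  unfold atomsVal
  exact Finsupp.sum_single_index (by simp)

private lemma atomsVal_ptMeas (c : ℕ → ℕ → ℕ) (ls : List PL) (f : Ex → ℝ) :
    atomsVal (ptMeas c ls) f = (ls.map (fun a => (c a.p a.o : ℝ) * f (pEx a))).sum := by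
  induction ls with
  | nil => simp [ptMeas, atomsVal_zero]
  | cons a ls ih =>
    have e : ptMeas c (a :: ls) = (⟨Finsupp.single (pEx a) (c a.p a.o)⟩ : Meas) + ptMeas c ls := by
      simp [ptMeas]
    rw [e, atomsVal_add, atomsVal_single, ih]
    simp

private lemma phi_ptMeas (B L' : ℕ) (c : ℕ → ℕ → ℕ) (ls : List PL) :
    phi B L' (ptMeas c ls) =
      (ls.map (fun a => c a.p a.o * 2 ^ (B * (a.y0 + L' * a.y1)))).sum := by
  induction ls with
  | nil => simp [ptMeas, phi_zero]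
  | cons a ls ih =>
    have e : ptMeas c (a :: ls) = (⟨Finsupp.single (pEx a) (c a.p a.o)⟩ : Meas) + ptMeas c ls := by
      simp [ptMeas]
    rw [e, phi_add, phi_single, ih]
    simp [pEx]

private lemma tot_cast_eq (w : Meas) : ((tot w : ℕ) : ℝ) = atomsVal w (fun _ => 1) := by
  unfold tot atomsVal Finsupp.sum
  push_cast
  simp

private lemma atomsVal_delta (w : Meas) (m : Ex) :
    atomsVal w (fun n => if n = m then 1 else 0) = (w.coeff m : ℝ) := by
  classical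
  unfold atomsVal Finsupp.sum
  simp only [mul_ite, mul_one, mul_zero]
  rw [Finset.sum_ite_eq']
  split_ifs with h
  · rfl
  · rw [Finsupp.notMem_support_iff.mp h]
    simp

/-- the images of an exponent vector under the permutations -/
private def imgs (r : Ex) : Finset Ex :=
  Finset.univ.image (fun σ : Equiv.Perm (Fin 3) => r ∘ σ)

private lemma mem_imgs {r n : Ex} : n ∈ imgs r ↔ ∃ σ : Equiv.Perm (Fin 3), r ∘ σ = n := by
  simp [imgs]

private lemma comp_mem_imgs {r n : Ex} (σ : Equiv.Perm (Fin 3)) : n ∘ σ ∈ imgs r ↔ n ∈ imgs r := by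
  rw [mem_imgs, mem_imgs]
  constructor
  · rintro ⟨τ, h⟩
    refine ⟨τ * σ⁻¹, ?_⟩
    funext i
    have := congrFun h (σ⁻¹ i)
    simpa using this
  · rintro ⟨τ, rfl⟩
    exact ⟨τ * σ, rfl⟩

private lemma sum_imgs_symm {r : Ex} (f : Ex → ℝ)
    (hf : ∀ (σ : Equiv.Perm (Fin 3)) (n : Ex), f (n ∘ σ) = f n) :
    ∑ n ∈ imgs r, f n = ((imgs r).card : ℝ) * f r := by
  rw [Finset.sum_congr rfl (g := fun _ => f r)]
  · simp
  · intro n hn
    obtain ⟨σ, rfl⟩ := mem_imgs.mp hn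
    exact hf σ r

private lemma sum_imgs_comp {r : Ex} (f : Ex → ℝ) (σ : Equiv.Perm (Fin 3)) :
    ∑ n ∈ imgs r, f (n ∘ σ) = ∑ n ∈ imgs r, f n := by
  refine Finset.sum_nbij' (fun n => n ∘ σ) (fun n => n ∘ σ.symm) ?_ ?_ ?_ ?_ ?_
  · intro n hn
    exact (comp_mem_imgs σ).mpr hn
  · intro n hn
    exact (comp_mem_imgs σ.symm).mpr hn
  · intro n _
    funext i
    simp
  · intro n _
    funext i
    simp
  · intro n _
    rfl

/-- the sum of one coordinate of the ray over the images: one third of the orbit size times the sum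
of the coordinates -/
private lemma sum_imgs_ray {r : Ex} (ρ : ℝ) (O k : ℕ) (j : Fin 3) :
    3 * ∑ n ∈ imgs r, ray ρ O k n j =
      ((imgs r).card : ℝ) * (ray ρ O k r 0 + ray ρ O k r 1 + ray ρ O k r 2) := by
  have hsw : ∀ j j' : Fin 3, ∑ n ∈ imgs r, ray ρ O k n j = ∑ n ∈ imgs r, ray ρ O k n j' := by
    intro j j'
    have := sum_imgs_comp (r := r) (fun n => ray ρ O k n j) (Equiv.swap j j')
    rw [← this]
    refine Finset.sum_congr rfl fun n _ => ?_
    rw [ray_perm]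
    simp
  have hs : ∑ n ∈ imgs r, (ray ρ O k n 0 + ray ρ O k n 1 + ray ρ O k n 2) =
      ((imgs r).card : ℝ) * (ray ρ O k r 0 + ray ρ O k r 1 + ray ρ O k r 2) := by
    apply sum_imgs_symm (fun n => ray ρ O k n 0 + ray ρ O k n 1 + ray ρ O k n 2)
    intro σ n
    rw [ray_perm]
    have := Equiv.sum_comp σ (ray ρ O k n)
    simp only [Fin.sum_univ_three, Function.comp_apply] at this ⊢
    exact this
  rw [← hs, Finset.sum_add_distrib, Finset.sum_add_distrib, ← hsw j 0, ← hsw j 1, ← hsw j 2]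
  ring

/-- the leaves counted by field, three bits per field -/
private lemma cntK_eq (T : PT) (pos : ℕ) :
    PT.cntK T = ((PT.leaves T pos).map (fun a => 2 ^ (3 * a.t))).sum := by
  induction T generalizing pos with
  | nil => rfl
  | lf p o t q y0 y1 y2 =>
    show 1 <<< (3 * t) = _
    simp [PT.leaves, Nat.one_shiftLeft]
  | nd k l r il ir =>
    show PT.cntK l + PT.cntK r = _
    rw [PT.leaves, List.map_append, List.sum_append, ← il, ← ir]

private lemma zcntK_eq (wd : ℕ) (T : ZL) :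
    ZL.cntK wd T = ((ZL.toList T).map (fun z => z.2.1 * 2 ^ (3 * (z.1 / wd)))).sum := by
  induction T with
  | nil => rfl
  | cons p o Z tl ih =>
    show o <<< (3 * (p / wd)) + ZL.cntK wd tl = _
    rw [ih, ZL.toList, List.map_cons, List.sum_cons, Nat.shiftLeft_eq]

/-- what the check of the mass list says about an entry -/
private structure ZProps (g : GP) (l : LP) (z : ℕ × ℕ × ℕ) : Prop where
  p_eq : z.1 = g.wd * (z.1 / g.wd)
  t_le : z.1 / g.wd ≤ l.T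
  o_eq : z.2.1 = orbT l (z.1 / g.wd)
  oZ : z.2.1 * 2 ^ g.H ≤ z.2.2
  mass : 2 ^ g.H * z.2.1 * (pw l.ra l.rb l.K (repCo l (z.1 / g.wd) 0) l.O
      + pw l.ra l.rb l.K (repCo l (z.1 / g.wd) 1) l.O
      + pw l.ra l.rb l.K (repCo l (z.1 / g.wd) 2) l.O) ≤ 3 * z.2.2 * dlt l

private lemma chkZ_sound {g : GP} {l : LP} (T : ZL) (lb : ℕ) (h : chkZ g l T lb = true) :
    (∀ z ∈ ZL.toList T, lb ≤ z.1 / g.wd ∧ ZProps g l z)
      ∧ (ZL.toList T).Pairwise (fun a b => a.1 / g.wd < b.1 / g.wd) := by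
  induction T generalizing lb with
  | nil => simp [ZL.toList]
  | cons p o Z tl ih =>
    have h' : band (zOK g l p o Z lb (Nat.div p g.wd)) (chkZ g l tl (Nat.succ (Nat.div p g.wd))) = true := h
    obtain ⟨a, b⟩ := (band_eq_true _ _).1 h'
    obtain ⟨b1, b2⟩ := ih _ b
    unfold zOK at a
    simp only [band_eq_true] at a
    obtain ⟨a1, a2, a3, a4, a5, a6⟩ := a
    have hz : lb ≤ p / g.wd ∧ ZProps g l (p, o, Z) := by
      refine ⟨Nat.le_of_ble_eq_true a2, ⟨Nat.eq_of_beq_eq_true a1, Nat.le_of_ble_eq_true a3,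
        Nat.eq_of_beq_eq_true a4, Nat.le_of_ble_eq_true a5, ?_⟩⟩
      exact Nat.le_of_ble_eq_true a6
    simp only [ZL.toList, List.mem_cons, forall_eq_or_imp, List.pairwise_cons]
    refine ⟨⟨hz, ?_⟩, ?_, b2⟩
    · intro z hz'
      obtain ⟨h1, h2⟩ := b1 z hz'
      have h3 : Nat.succ (p / g.wd) ≤ z.1 / g.wd := h1
      have := hz.1
      exact ⟨by omega, h2⟩
    · intro z hz'
      exact (b1 z hz').1

private lemma pairwise_all {α : Type*} {l : List α} {R : α → α → Prop} (hs : ∀ x y, R x y → R y x)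
    (hr : ∀ x, R x x) (h : l.Pairwise R) : ∀ x ∈ l, ∀ y ∈ l, R x y := by
  have : Std.Symm R := ⟨hs⟩
  intro x hx y hy
  exact h.forall_of_forall (fun x _ => hr x) hx hy

private lemma orbN_le (a b c : ℕ) : orbN a b c ≤ 6 := by
  rw [orbN_eq]
  split_ifs <;> omega

/-- The assembly check: the measure of the leaves is invariant, its values on symmetric functions
and its evaluation are as expected. -/
theorem ptOK_props {g : GP} {l : LP} {Tp : PT} {Tz : ZL} (hg : gpOK g = true) (hl : latOK g l = true)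
    (h : ptOK g l Tp Tz = true) (st : ℕ) :
    let c := fun p o => fieldC (2 ^ g.wd) g.u st p o
    let w1 := ptMeas c (PT.leaves Tp 0)
    Inv3 w1 ∧ Supp l.O 1 w1
      ∧ phi g.B (LP.L g l) w1 = asm (2 ^ g.wd) g.u st Tp
      ∧ (∀ f : Ex → ℝ, (∀ (σ : Equiv.Perm (Fin 3)) (n : Ex), f (n ∘ σ) = f n) →
          atomsVal w1 f = ((ZL.toList Tz).map (fun z =>
            ((c z.1 z.2.1 * z.2.1 : ℕ) : ℝ) * f (repEx l (z.1 / g.wd)))).sum)
      ∧ 2 ^ g.H * tot w1 ≤ ((ZL.toList Tz).map (fun a => a.2.2 * c a.1 a.2.1)).sum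
      ∧ (∀ j, (2 : ℝ) ^ g.H * atomsVal w1 (fun n => ray (rr l) l.O 1 n j)
          ≤ (((ZL.toList Tz).map (fun a => a.2.2 * c a.1 a.2.1)).sum : ℕ))
      ∧ (∀ z ∈ ZL.toList Tz, ∃ t, 1 ≤ t ∧ t ≤ l.T ∧ z.1 = g.wd * t ∧ z.2.1 = orbT l t)
      ∧ (ZL.toList Tz).Pairwise (fun a b => a.1 < b.1) := by
  classical
  intro c w1
  unfold ptOK at h
  simp only [band_eq_true] at h
  obtain ⟨hP, hZc, hC⟩ := h
  set L := PT.leaves Tp 0 with hLdef
  obtain ⟨hL1, hL2⟩ := chkP_sound Tp 0 _ hP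
  have hleaf : ∀ a ∈ L, a.pos = g.B * (a.y0 + LP.L g l * a.y1) ∧ a.p = g.wd * a.t ∧ 1 ≤ a.t ∧ a.t ≤ l.T
      ∧ pEx a = repEx l a.t ∘ perm6 a.q ∧ a.o = orbT l a.t := fun a ha => pLeaf_ex hl (hL1 a ha).1
  obtain ⟨hZ1, hZ2⟩ := chkZ_sound (g := g) (l := l) Tz 1 hZc
  obtain ⟨hgd, -, -, -, -, -, hgw, -, -⟩ := gpOK_props hg
  have hwd : 0 < g.wd := by omega
  obtain ⟨hra, hrb, hrr, hK, -, hreps⟩ := latOK_props hl
  set Zl := ZL.toList Tz with hZldef
  set key : ℕ × ℕ × ℕ → ℕ := fun z => z.1 / g.wd with hkey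
  have hZ2' : Zl.Pairwise (fun a b => key a < key b) := hZ2
  -- the lists have no repetitions
  have hLnd : L.Nodup := hL2.imp (fun h e => by subst e; exact lt_irrefl _ h)
  have hZnd : Zl.Nodup := hZ2'.imp (fun h e => by subst e; exact lt_irrefl _ h)
  set S := L.toFinset with hS
  set Z := Zl.toFinset with hZdef
  have hSL : ∀ a, a ∈ S ↔ a ∈ L := fun a => List.mem_toFinset
  have hZZ : ∀ z, z ∈ Z ↔ z ∈ Zl := fun a => List.mem_toFinset
  -- injectivity
  have hpexinj : ∀ a ∈ S, ∀ b ∈ S, pEx a = pEx b → a = b := by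
    have h1 : L.Pairwise (fun a b => pEx a = pEx b → a = b) := by
      refine hL2.imp_of_mem ?_
      intro a b ha hb hlt he
      exfalso
      have e0 : a.y0 = b.y0 := congrFun he 0
      have e1 : a.y1 = b.y1 := congrFun he 1
      have p1 := (hleaf a ha).1
      have p2 := (hleaf b hb).1
      rw [e0, e1, ← p2] at p1
      omega
    intro a ha b hb hab
    exact pairwise_all (fun x y hxy e => (hxy e.symm).symm) (fun _ _ => rfl) h1
      a ((hSL a).mp ha) b ((hSL b).mp hb) hab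
  have hkeyinj : ∀ a ∈ Z, ∀ b ∈ Z, key a = key b → a = b := by
    have h1 : Zl.Pairwise (fun a b => key a = key b → a = b) :=
      hZ2'.imp (fun hlt he => absurd he (ne_of_lt hlt))
    intro a ha b hb hab
    exact pairwise_all (fun x y hxy e => (hxy e.symm).symm) (fun _ _ => rfl) h1
      a ((hZZ a).mp ha) b ((hZZ b).mp hb) hab
  have hZp : ∀ z ∈ Z, 1 ≤ key z ∧ ZProps g l z := fun z hz => hZ1 z ((hZZ z).mp hz)
  -- images
  have hcard : ∀ t, 1 ≤ t → t ≤ l.T → (imgs (repEx l t)).card = orbT l t := by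
    intro t h1 h2
    obtain ⟨s1, s2, -, -⟩ := hreps t h1 h2
    exact card_images _ _ _ s1 s2
  have hmemimg : ∀ a ∈ S, pEx a ∈ imgs (repEx l a.t) := by
    intro a ha
    obtain ⟨-, -, -, -, h5, -⟩ := hleaf a ((hSL a).mp ha)
    exact mem_imgs.mpr ⟨_, h5.symm⟩
  -- the counts
  set F1 : ℕ → ℕ := fun t => (S.filter (fun a => a.t = t)).card with hF1
  set F2 : ℕ → ℕ := fun t => ∑ z ∈ Z.filter (fun z => key z = t), z.2.1 with hF2
  have hF2z : ∀ z ∈ Z, F2 (key z) = z.2.1 := by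
    intro z hz
    have : Z.filter (fun y => key y = key z) = {z} := by
      ext y
      simp only [Finset.mem_filter, Finset.mem_singleton]
      constructor
      · rintro ⟨hy, e⟩
        exact hkeyinj y hy z hz e
      · rintro rfl
        exact ⟨hz, rfl⟩
    simp only [hF2]
    rw [this, Finset.sum_singleton]
  have hF2lt : ∀ t, F2 t < 2 ^ 3 := by
    intro t
    by_cases ht : ∃ z ∈ Z, key z = t
    · obtain ⟨z, hz, rfl⟩ := ht
      rw [hF2z z hz, (hZp z hz).2.o_eq]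
      exact lt_of_le_of_lt (orbN_le _ _ _) (by norm_num)
    · push Not at ht
      have : Z.filter (fun z => key z = t) = ∅ := Finset.filter_false_of_mem ht
      simp only [hF2]
      rw [this, Finset.sum_empty]
      norm_num
  have himgcard : ∀ t, (S.filter (fun a => a.t = t)).card =
      ((S.filter (fun a => a.t = t)).image pEx).card := by
    intro t
    rw [Finset.card_image_of_injOn]
    intro a ha b hb he
    exact hpexinj a (Finset.mem_of_mem_filter a ha) b (Finset.mem_of_mem_filter b hb) he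
  have himgsub : ∀ t, (S.filter (fun a => a.t = t)).image pEx ⊆ imgs (repEx l t) := by
    intro t n hn
    obtain ⟨a, ha, rfl⟩ := Finset.mem_image.mp hn
    obtain ⟨ha1, ha2⟩ := Finset.mem_filter.mp ha
    rw [← ha2]
    exact hmemimg a ha1
  have hF1lt : ∀ t, F1 t < 2 ^ 3 := by
    intro t
    by_cases ht : (S.filter (fun a => a.t = t)).Nonempty
    · obtain ⟨a, ha⟩ := ht
      obtain ⟨ha1, ha2⟩ := Finset.mem_filter.mp ha
      obtain ⟨-, -, h3, h4, -, -⟩ := hleaf a ((hSL a).mp ha1)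
      simp only [hF1]
      rw [himgcard]
      have := Finset.card_le_card (himgsub t)
      rw [hcard t (ha2 ▸ h3) (ha2 ▸ h4)] at this
      exact lt_of_le_of_lt (this.trans (orbN_le _ _ _)) (by norm_num)
    · rw [Finset.not_nonempty_iff_eq_empty] at ht
      simp only [hF1]
      rw [ht]
      norm_num
  have hsum1 : PT.cntK Tp = ∑ t ∈ Finset.range (l.T + 1), F1 t * 2 ^ (3 * t) := by
    rw [cntK_eq Tp 0, ← hLdef, ← List.sum_toFinset _ hLnd, ← hS]
    have hmaps : ∀ a ∈ S, a.t ∈ Finset.range (l.T + 1) := by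
      intro a ha
      have := (hleaf a ((hSL a).mp ha)).2.2.2.1
      exact Finset.mem_range.mpr (by omega)
    rw [← Finset.sum_fiberwise_of_maps_to hmaps]
    refine Finset.sum_congr rfl fun t _ => ?_
    rw [Finset.sum_congr rfl (g := fun _ => 2 ^ (3 * t))]
    · simp [hF1]
    · intro a ha
      rw [(Finset.mem_filter.mp ha).2]
  have hsum2 : ZL.cntK g.wd Tz = ∑ t ∈ Finset.range (l.T + 1), F2 t * 2 ^ (3 * t) := by
    rw [zcntK_eq, ← hZldef, ← List.sum_toFinset _ hZnd, ← hZdef]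
    have hmaps : ∀ z ∈ Z, key z ∈ Finset.range (l.T + 1) := by
      intro z hz
      have := (hZp z hz).2.t_le
      exact Finset.mem_range.mpr (Nat.lt_succ_of_le this)
    rw [← Finset.sum_fiberwise_of_maps_to hmaps]
    refine Finset.sum_congr rfl fun t _ => ?_
    simp only [hF2]
    rw [Finset.sum_mul]
    refine Finset.sum_congr rfl fun z hz => ?_
    rw [← (Finset.mem_filter.mp hz).2]
  have hCeq : PT.cntK Tp = ZL.cntK g.wd Tz := Nat.eq_of_beq_eq_true hC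
  have hF12 : ∀ t, t ≤ l.T → F1 t = F2 t := by
    intro t ht
    have a1 := packed_field (wd := 3) (T := l.T) F1 (fun s _ => hF1lt s) ht
    have a2 := packed_field (wd := 3) (T := l.T) F2 (fun s _ => hF2lt s) ht
    rw [← hsum1, hCeq, hsum2] at a1
    rw [← a1, a2]
  -- every leaf belongs to a listed field
  have hsurj : ∀ a ∈ S, ∃ z ∈ Z, key z = a.t := by
    intro a ha
    by_contra hcon
    push Not at hcon
    have h1 : F2 a.t = 0 := by
      have : Z.filter (fun z => key z = a.t) = ∅ := Finset.filter_false_of_mem hcon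
      simp only [hF2]
      rw [this, Finset.sum_empty]
    have h2 := hF12 a.t (hleaf a ((hSL a).mp ha)).2.2.2.1
    rw [h1] at h2
    have h3 : a ∈ S.filter (fun b => b.t = a.t) := Finset.mem_filter.mpr ⟨ha, rfl⟩
    have h4 : 0 < F1 a.t := Finset.card_pos.mpr ⟨a, h3⟩
    omega
  -- the leaves of a listed field are exactly the images
  have hbij : ∀ z ∈ Z, (S.filter (fun a => a.t = key z)).image pEx = imgs (repEx l (key z)) := by
    intro z hz
    obtain ⟨h1, hp⟩ := hZp z hz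
    apply Finset.eq_of_subset_of_card_le (himgsub _)
    rw [hcard _ h1 hp.t_le, ← himgcard]
    show orbT l (key z) ≤ F1 (key z)
    rw [hF12 _ hp.t_le, hF2z z hz]
    exact hp.o_eq.symm.le
  -- the main formula
  have hmain : ∀ f : Ex → ℝ, atomsVal w1 f =
      ∑ z ∈ Z, (c z.1 z.2.1 : ℝ) * ∑ n ∈ imgs (repEx l (key z)), f n := by
    intro f
    have e1 : atomsVal w1 f = ∑ a ∈ S, (c a.p a.o : ℝ) * f (pEx a) := by
      rw [atomsVal_ptMeas, ← List.sum_toFinset _ hLnd]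
    rw [e1]
    have hmaps : ∀ a ∈ S, a.t ∈ Z.image key := by
      intro a ha
      obtain ⟨z, hz, e⟩ := hsurj a ha
      exact Finset.mem_image.mpr ⟨z, hz, e⟩
    rw [← Finset.sum_fiberwise_of_maps_to hmaps, Finset.sum_image (fun a ha b hb e => hkeyinj a ha b hb e)]
    refine Finset.sum_congr rfl fun z hz => ?_
    rw [← hbij z hz, Finset.sum_image, Finset.mul_sum]
    · refine Finset.sum_congr rfl fun a ha => ?_
      obtain ⟨ha1, ha2⟩ := Finset.mem_filter.mp ha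
      obtain ⟨-, h2, -, -, -, h6⟩ := hleaf a ((hSL a).mp ha1)
      obtain ⟨-, hp⟩ := hZp z hz
      have e2 : a.p = z.1 := by
        rw [h2, ha2]
        exact hp.p_eq.symm
      have e3 : a.o = z.2.1 := by
        rw [h6, ha2]
        exact hp.o_eq.symm
      rw [e2, e3]
    · intro a ha b hb e
      exact hpexinj a (Finset.mem_of_mem_filter a ha) b (Finset.mem_of_mem_filter b hb) e
  have hcoef : ∀ m : Ex, (w1.coeff m : ℝ) =
      ∑ z ∈ Z, (c z.1 z.2.1 : ℝ) * (if m ∈ imgs (repEx l (key z)) then 1 else 0) := by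
    intro m
    rw [← atomsVal_delta, hmain]
    refine Finset.sum_congr rfl fun z _ => ?_
    rw [Finset.sum_ite_eq']
  have hcardz : ∀ z ∈ Z, ((imgs (repEx l (key z))).card : ℝ) = (z.2.1 : ℝ) := by
    intro z hz
    obtain ⟨h1, hp⟩ := hZp z hz
    rw [hcard _ h1 hp.t_le, hp.o_eq]
  -- the sums over the list as sums over the finset
  have hlist : ∀ j : Fin 3, (2 : ℝ) ^ g.H * atomsVal w1 (fun n => ray (rr l) l.O 1 n j)
      ≤ ((Zl.map (fun a => a.2.2 * c a.1 a.2.1)).sum : ℕ) := by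
    intro j
    rw [hmain, ← List.sum_toFinset _ hZnd, ← hZdef, Finset.mul_sum]
    push_cast
    refine Finset.sum_le_sum fun z hz => ?_
    obtain ⟨h1, hp⟩ := hZp z hz
    have hc0 : (0 : ℝ) ≤ (c z.1 z.2.1 : ℝ) := Nat.cast_nonneg _
    have hsr := sum_imgs_ray (r := repEx l (key z)) (rr l) l.O 1 j
    rw [hcardz z hz] at hsr
    obtain ⟨s1, s2, s3, s4⟩ := hreps _ h1 hp.t_le
    have hOK : l.O ≤ l.K := by
      have : l.O ≤ g.d * l.O := Nat.le_mul_of_pos_left _ hgd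
      omega
    have hdl : (0 : ℝ) < (dlt l : ℝ) := by exact_mod_cast dlt_pos l hra hrb
    have hpw : ∀ i : Fin 3, ∀ x : ℕ, x ≤ 2 * l.O → repEx l (key z) i = x →
        (pw l.ra l.rb l.K x l.O : ℝ) = ray (rr l) l.O 1 (repEx l (key z)) i * (dlt l : ℝ) := by
      intro i x hx e
      rw [pw_eq l hra hrb (by omega) (by omega)]
      unfold ray
      rw [e, one_mul]
    have h0 := hpw 0 (repCo l (key z) 0) s4 rfl
    have h1' := hpw 1 (repCo l (key z) 1) (by omega) rfl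
    have h2' := hpw 2 (repCo l (key z) 2) (by omega) rfl
    have hm : ((2 ^ g.H * z.2.1 * (pw l.ra l.rb l.K (repCo l (key z) 0) l.O
      + pw l.ra l.rb l.K (repCo l (key z) 1) l.O
      + pw l.ra l.rb l.K (repCo l (key z) 2) l.O) : ℕ) : ℝ) ≤ ((3 * z.2.2 * dlt l : ℕ) : ℝ) :=
      Nat.cast_le.mpr hp.mass
    push_cast at hm
    rw [h0, h1', h2'] at hm
    set R := ray (rr l) l.O 1 (repEx l (key z)) 0 + ray (rr l) l.O 1 (repEx l (key z)) 1 +
      ray (rr l) l.O 1 (repEx l (key z)) 2 with hR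
    have hm2 : (2 : ℝ) ^ g.H * (z.2.1 : ℝ) * R ≤ 3 * (z.2.2 : ℝ) := by
      have e : (2 : ℝ) ^ g.H * (z.2.1 : ℝ) * (ray (rr l) l.O 1 (repEx l (key z)) 0 * (dlt l : ℝ) +
        ray (rr l) l.O 1 (repEx l (key z)) 1 * (dlt l : ℝ) +
        ray (rr l) l.O 1 (repEx l (key z)) 2 * (dlt l : ℝ)) =
          ((2 : ℝ) ^ g.H * (z.2.1 : ℝ) * R) * (dlt l : ℝ) := by
        rw [hR]; ring
      rw [e] at hm
      exact le_of_mul_le_mul_right hm hdl
    have hfin : (2 : ℝ) ^ g.H * ∑ n ∈ imgs (repEx l (key z)), ray (rr l) l.O 1 n j ≤ (z.2.2 : ℝ) := by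
      have : (2 : ℝ) ^ g.H * (3 * ∑ n ∈ imgs (repEx l (key z)), ray (rr l) l.O 1 n j) ≤
          3 * (z.2.2 : ℝ) := by
        rw [hsr, ← mul_assoc]
        exact hm2
      linarith
    calc (2 : ℝ) ^ g.H * ((c z.1 z.2.1 : ℝ) * ∑ n ∈ imgs (repEx l (key z)), ray (rr l) l.O 1 n j)
        = (c z.1 z.2.1 : ℝ) * ((2 : ℝ) ^ g.H * ∑ n ∈ imgs (repEx l (key z)), ray (rr l) l.O 1 n j) := by
          ring
      _ ≤ (c z.1 z.2.1 : ℝ) * (z.2.2 : ℝ) := mul_le_mul_of_nonneg_left hfin hc0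
      _ = (z.2.2 : ℝ) * (c z.1 z.2.1 : ℝ) := by ring
  refine ⟨?_, ?_, ?_, ?_, ?_, hlist, ?_, ?_⟩
  · -- invariance
    intro σ n
    have : ((w1.coeff (n ∘ σ) : ℕ) : ℝ) = ((w1.coeff n : ℕ) : ℝ) := by
      rw [hcoef, hcoef]
      refine Finset.sum_congr rfl fun z _ => ?_
      simp only [comp_mem_imgs]
    exact_mod_cast this
  · -- support
    intro n hn
    have h1 : ((w1.coeff n : ℕ) : ℝ) ≠ 0 := by exact_mod_cast hn
    rw [hcoef] at h1
    obtain ⟨z, hz, hne⟩ := Finset.exists_ne_zero_of_sum_ne_zero h1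
    have hmem : n ∈ imgs (repEx l (key z)) := by
      by_contra hcon
      simp [hcon] at hne
    obtain ⟨σ, rfl⟩ := mem_imgs.mp hmem
    obtain ⟨h2, hp⟩ := hZp z hz
    obtain ⟨s1, s2, s3, s4⟩ := hreps _ h2 hp.t_le
    have hs := Equiv.sum_comp σ (repEx l (key z))
    simp only [Fin.sum_univ_three] at hs
    have e0 : repEx l (key z) 0 = repCo l (key z) 0 := rfl
    have e1 : repEx l (key z) 1 = repCo l (key z) 1 := rfl
    have e2 : repEx l (key z) 2 = repCo l (key z) 2 := rfl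
    constructor
    · simp only [Function.comp_apply]
      rw [hs, e0, e1, e2, s3]
      ring
    · intro i
      simp only [Function.comp_apply]
      have hall : ∀ i : Fin 3, repEx l (key z) i ≤ 2 * l.O := by
        intro i
        fin_cases i
        · exact s4
        · show repCo l (key z) 1 ≤ 2 * l.O
          omega
        · show repCo l (key z) 2 ≤ 2 * l.O
          omega
      have := hall (σ i)
      omega
  · -- the evaluation
    have h1 := asm_eq (2 ^ g.wd) g.u st Tp 0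
    rw [pow_zero, mul_one] at h1
    rw [h1]
    show phi g.B (LP.L g l) (ptMeas c L) = _
    rw [phi_ptMeas]
    congr 1
    apply List.map_congr_left
    intro a ha
    rw [(hleaf a ha).1]
  · -- symmetric functions
    intro f hf
    rw [hmain, ← List.sum_toFinset _ hZnd, ← hZdef]
    refine Finset.sum_congr rfl fun z hz => ?_
    rw [sum_imgs_symm f hf, hcardz z hz]
    push_cast
    ring
  · -- the total
    have hcast : (((2 ^ g.H * tot w1 : ℕ)) : ℝ) ≤ ((Zl.map (fun a => a.2.2 * c a.1 a.2.1)).sum : ℕ) := by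
      have e : (((2 ^ g.H * tot w1 : ℕ)) : ℝ) = (2 : ℝ) ^ g.H * atomsVal w1 (fun _ => 1) := by
        push_cast
        rw [tot_cast_eq]
      rw [e, hmain, ← List.sum_toFinset _ hZnd, ← hZdef, Finset.mul_sum]
      push_cast
      refine Finset.sum_le_sum fun z hz => ?_
      obtain ⟨-, hp⟩ := hZp z hz
      have h2 : ∑ n ∈ imgs (repEx l (key z)), (1 : ℝ) = (z.2.1 : ℝ) := by
        rw [Finset.sum_const, nsmul_eq_mul, mul_one]
        exact hcardz z hz
      rw [h2]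
      have h3 : ((z.2.1 * 2 ^ g.H : ℕ) : ℝ) ≤ (z.2.2 : ℝ) := Nat.cast_le.mpr hp.oZ
      push_cast at h3
      have hc0 : (0 : ℝ) ≤ (c z.1 z.2.1 : ℝ) := Nat.cast_nonneg _
      calc (2 : ℝ) ^ g.H * ((c z.1 z.2.1 : ℝ) * (z.2.1 : ℝ))
          = (c z.1 z.2.1 : ℝ) * ((z.2.1 : ℝ) * 2 ^ g.H) := by ring
        _ ≤ (c z.1 z.2.1 : ℝ) * (z.2.2 : ℝ) := mul_le_mul_of_nonneg_left h3 hc0
        _ = _ := by ring
    exact_mod_cast hcast
  · intro z hz
    obtain ⟨h1, hp⟩ := hZ1 z hz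
    exact ⟨_, h1, hp.t_le, hp.p_eq, hp.o_eq⟩
  · refine hZ2'.imp ?_
    intro a b hab
    by_contra hcon
    have : b.1 / g.wd ≤ a.1 / g.wd := Nat.div_le_div_right (not_lt.mp hcon)
    simp only [hkey] at hab
    omega

end Vale.Agent.Lib.P154.Chain
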