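import Vale.Agent.Lib.P154.Chain.Hand

/-!
Small facts for the last step of the chains.
-/

namespace Vale.Agent.Lib.P154.Chain

/-- Under the Kesten-Stigum bound, an eigenvalue is above the one of a chain whose square times `d` is
at least `1`. -/
theorem lamOf_le_of_KS {g : GP} (hg : gpOK g = true) (hsq : g.ld ^ 2 ≤ g.d * g.ln ^ 2) {lam : ℝ}
    (h02 : lam ≤ 0) (hKS : (g.d : ℝ) * lam ^ 2 ≤ 1) : lamOf g ≤ lam := by
  obtain ⟨hd, hld, -, -, -, -, -, -, -⟩ := gpOK_props hg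
  by_contra hcon
  push_neg at hcon
  have hld' : (0 : ℝ) < (g.ld : ℝ) := by exact_mod_cast hld
  have hd' : (0 : ℝ) < (g.d : ℝ) := by exact_mod_cast hd
  have hsq' : (g.ld : ℝ) ^ 2 ≤ (g.d : ℝ) * (g.ln : ℝ) ^ 2 := by exact_mod_cast hsq
  have hln : (0 : ℝ) ≤ (g.ln : ℝ) := Nat.cast_nonneg _
  have h1 : (g.ln : ℝ) / g.ld < -lam := by
    have : -((g.ln : ℝ) / g.ld) > lam := hcon
    linarith
  have hx : (0 : ℝ) ≤ (g.ln : ℝ) / g.ld := by positivity
  have h2 : ((g.ln : ℝ) / g.ld) ^ 2 < lam ^ 2 := by nlinarith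
  have h3 : 1 ≤ (g.d : ℝ) * ((g.ln : ℝ) / g.ld) ^ 2 := by
    rw [div_pow, ← mul_div_assoc, le_div_iff₀ (by positivity)]
    linarith
  nlinarith

end Vale.Agent.Lib.P154.Chain
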