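import Mathlib
import Vale.Agent.Lib.P154.Defs

/-!
Families of nonnegative vectors and sublinear test functions (the Blackwell order), and their link
with the broadcast tree.
-/

namespace Vale.Agent.Lib.P154.Chain

open scoped BigOperators

/-- vectors indexed by the three spins; the product of vectors is the coordinatewise one -/
abbrev Vec := Fin 3 → ℝ

/-- sublinear on the nonnegative octant -/
structure Sublin (G : Vec → ℝ) : Prop where
  add_le : ∀ u v : Vec, 0 ≤ u → 0 ≤ v → G (u + v) ≤ G u + G v
  smul_eq : ∀ (t : ℝ) (v : Vec), 0 ≤ t → 0 ≤ v → G (t • v) = t * G v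

/-- sublinear and vanishing at the vertices -/
structure NSub (G : Vec → ℝ) : Prop extends Sublin G where
  vertex : ∀ i : Fin 3, G (Pi.single i 1) = 0

/-- symmetric under permutations of the spins -/
def Symm (G : Vec → ℝ) : Prop := ∀ (σ : Equiv.Perm (Fin 3)) (v : Vec), G (v ∘ σ) = G v

section basics

variable {G : Vec → ℝ}

theorem Sublin.map_zero (h : Sublin G) : G 0 = 0 := by
  have := h.smul_eq 0 0 le_rfl le_rfl
  simpa using this

theorem Sublin.sum_le {ι : Type*} (h : Sublin G) (s : Finset ι) (f : ι → Vec) (hf : ∀ i ∈ s, 0 ≤ f i) :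
    G (∑ i ∈ s, f i) ≤ ∑ i ∈ s, G (f i) := by
  classical
  induction s using Finset.induction_on with
  | empty => simp [h.map_zero]
  | insert a s ha ih =>
    rw [Finset.sum_insert ha, Finset.sum_insert ha]
    have h1 := hf a (Finset.mem_insert_self a s)
    have h2 : ∀ i ∈ s, 0 ≤ f i := fun i hi => hf i (Finset.mem_insert_of_mem hi)
    have h3 : 0 ≤ ∑ i ∈ s, f i := Finset.sum_nonneg h2
    exact (h.add_le _ _ h1 h3).trans (by linarith [ih h2])

/-- decomposition along the vertices -/
theorem Sublin.le_vertices (h : Sublin G) {v : Vec} (hv : 0 ≤ v) :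
    G v ≤ v 0 * G (Pi.single 0 1) + v 1 * G (Pi.single 1 1) + v 2 * G (Pi.single 2 1) := by
  have e : v = ∑ i : Fin 3, v i • (Pi.single i 1 : Vec) := by
    funext j
    simp [Finset.sum_apply, Pi.single_apply]
  have h1 := h.sum_le Finset.univ (fun i : Fin 3 => v i • (Pi.single i 1 : Vec)) (fun i _ => by
    apply smul_nonneg (hv i)
    intro j
    simp only [Pi.single_apply, Pi.zero_apply]
    split_ifs <;> norm_num)
  rw [← e] at h1
  refine h1.trans (le_of_eq ?_)
  rw [Fin.sum_univ_three]
  have hs : ∀ i : Fin 3, G (v i • (Pi.single i 1 : Vec)) = v i * G (Pi.single i 1) := fun i =>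
    h.smul_eq _ _ (hv i) (by
      intro j
      simp only [Pi.single_apply, Pi.zero_apply]
      split_ifs <;> norm_num)
  rw [hs, hs, hs]

theorem NSub.nonpos (h : NSub G) {v : Vec} (hv : 0 ≤ v) : G v ≤ 0 := by
  have := h.toSublin.le_vertices hv
  simpa [h.vertex] using this

theorem NSub.antitone (h : NSub G) {u v : Vec} (hu : 0 ≤ u) (huv : u ≤ v) : G v ≤ G u := by
  have h0 : 0 ≤ v - u := sub_nonneg.mpr huv
  have h1 := h.add_le u (v - u) hu h0
  have h2 := h.nonpos h0
  rw [add_sub_cancel] at h1
  linarith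

/-- the class is closed under the coordinatewise product with a fixed nonnegative vector -/
theorem NSub.hadamard (h : NSub G) {P : Vec} (hP : 0 ≤ P) : NSub (fun v => G (v * P)) := by
  have hm : ∀ v : Vec, 0 ≤ v → 0 ≤ v * P := fun v hv i => by
    simpa using mul_nonneg (hv i) (hP i)
  refine { add_le := ?_, smul_eq := ?_, vertex := ?_ }
  · intro u v hu hv
    rw [add_mul]
    exact h.add_le _ _ (hm u hu) (hm v hv)
  · intro t v ht hv
    rw [smul_mul_assoc]
    exact h.smul_eq _ _ ht (hm v hv)
  · intro i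
    have e : (Pi.single i 1 : Vec) * P = P i • (Pi.single i 1 : Vec) := by
      funext j
      simp only [Pi.mul_apply, Pi.single_apply, Pi.smul_apply, smul_eq_mul]
      split_ifs with hj
      · subst hj
        ring
      · ring
    show G ((Pi.single i 1 : Vec) * P) = 0
    rw [e, h.smul_eq _ _ (hP i) (by
      intro j
      simp only [Pi.single_apply, Pi.zero_apply]
      split_ifs <;> norm_num), h.vertex, mul_zero]

theorem NSub.comp_perm (h : NSub G) (σ : Equiv.Perm (Fin 3)) : NSub (fun v => G (v ∘ σ)) := by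
  have hm : ∀ v : Vec, 0 ≤ v → 0 ≤ v ∘ σ := fun v hv i => hv (σ i)
  refine { add_le := ?_, smul_eq := ?_, vertex := ?_ }
  · intro u v hu hv
    exact h.add_le _ _ (hm u hu) (hm v hv)
  · intro t v ht hv
    exact h.smul_eq _ _ ht (hm v hv)
  · intro i
    have e : (Pi.single i 1 : Vec) ∘ σ = Pi.single (σ⁻¹ i) 1 := by
      funext j
      simp only [Function.comp_apply, Pi.single_apply]
      have : (σ j = i) ↔ (j = σ⁻¹ i) := by
        constructor
        · intro hj
          rw [← hj]
          simp
        · intro hj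
          rw [hj]
          simp
      simp only [this]
    show G ((Pi.single i 1 : Vec) ∘ σ) = 0
    rw [e]
    exact h.vertex _

theorem NSub.finset_sum {ι : Type*} (s : Finset ι) {F : ι → Vec → ℝ} (h : ∀ i ∈ s, NSub (F i)) :
    NSub (fun v => ∑ i ∈ s, F i v) := by
  refine { add_le := ?_, smul_eq := ?_, vertex := ?_ }
  · intro u v hu hv
    rw [← Finset.sum_add_distrib]
    exact Finset.sum_le_sum fun i hi => (h i hi).add_le u v hu hv
  · intro t v ht hv
    rw [Finset.mul_sum]
    exact Finset.sum_congr rfl fun i hi => (h i hi).smul_eq t v ht hv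
  · intro k
    exact Finset.sum_eq_zero fun i hi => (h i hi).vertex k

theorem NSub.const_mul (h : NSub G) {t : ℝ} (ht : 0 ≤ t) : NSub (fun v => t * G v) := by
  refine { add_le := ?_, smul_eq := ?_, vertex := ?_ }
  · intro u v hu hv
    have := mul_le_mul_of_nonneg_left (h.add_le u v hu hv) ht
    rw [mul_add] at this
    exact this
  · intro s v hs hv
    rw [h.smul_eq s v hs hv]
    ring
  · intro i
    rw [h.vertex, mul_zero]

/-- removing the linear part -/
theorem Sublin.normalize (h : Sublin G) :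
    NSub (fun v => G v - (v 0 * G (Pi.single 0 1) + v 1 * G (Pi.single 1 1) + v 2 * G (Pi.single 2 1))) := by
  refine { add_le := ?_, smul_eq := ?_, vertex := ?_ }
  · intro u v hu hv
    have := h.add_le u v hu hv
    simp only [Pi.add_apply]
    linarith
  · intro t v ht hv
    simp only [Pi.smul_apply, smul_eq_mul]
    rw [h.smul_eq t v ht hv]
    ring
  · intro i
    fin_cases i <;> simp

/-- the symmetrization of a test function -/
noncomputable def symAvg (G : Vec → ℝ) (v : Vec) : ℝ :=
  (1 / 6) * ∑ σ : Equiv.Perm (Fin 3), G (v ∘ σ)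

theorem NSub.symAvg (h : NSub G) : NSub (symAvg G) := by
  unfold Vale.Agent.Lib.P154.Chain.symAvg
  exact (NSub.finset_sum Finset.univ fun σ _ => h.comp_perm σ).const_mul (by norm_num)

theorem symm_symAvg (G : Vec → ℝ) : Symm (symAvg G) := by
  intro σ v
  unfold symAvg
  congr 1
  have := Equiv.sum_comp (Equiv.mulLeft σ) (fun τ : Equiv.Perm (Fin 3) => G (v ∘ τ))
  rw [← this]
  apply Finset.sum_congr rfl
  intro τ _
  rfl

/-- the sublinear test functions and the symmetric ones are stable under a linear map that commutes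
with permutations -/
theorem Sublin.comp_linear (h : Sublin G) (L : Vec →ₗ[ℝ] Vec) (hL : ∀ v, 0 ≤ v → 0 ≤ L v) :
    Sublin (fun v => G (L v)) := by
  refine { add_le := ?_, smul_eq := ?_ }
  · intro u v hu hv
    rw [map_add]
    exact h.add_le _ _ (hL u hu) (hL v hv)
  · intro t v ht hv
    rw [map_smul]
    exact h.smul_eq _ _ ht (hL v hv)

end basics

/-! ### Families -/

section families

variable {ι κ : Type*} [Fintype ι] [Fintype κ]

/-- the value of a family on a test function -/
def val (F : ι → Vec) (G : Vec → ℝ) : ℝ := ∑ i, G (F i)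

/-- the family of all coordinatewise products -/
def prodFam (F : ι → Vec) (F' : κ → Vec) : ι × κ → Vec := fun a => F a.1 * F' a.2

/-- the family of `k`-fold products -/
def powFam (F : ι → Vec) (k : ℕ) : (Fin k → ι) → Vec := fun s => ∏ c, F (s c)

/-- a family is invariant under the permutations of the spins -/
def FamInv (F : ι → Vec) : Prop :=
  ∀ (σ : Equiv.Perm (Fin 3)) (H : Vec → ℝ), val (fun i => F i ∘ σ) H = val F H

/-- the family is dominated by the functional on normalized test functions -/
def Dom (F : ι → Vec) (Φ : (Vec → ℝ) → ℝ) : Prop := ∀ G, NSub G → val F G ≤ Φ G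

theorem powFam_nonneg {F : ι → Vec} (hF : ∀ i, 0 ≤ F i) (k : ℕ) (s : Fin k → ι) :
    0 ≤ powFam F k s := by
  unfold powFam
  exact Finset.prod_nonneg fun c _ => hF (s c)

theorem val_prodFam (F : ι → Vec) (F' : κ → Vec) (G : Vec → ℝ) :
    val (prodFam F F') G = val F (fun u => val F' (fun v => G (u * v))) := by
  unfold val prodFam
  rw [Fintype.sum_prod_type]

/-- splitting a power -/
theorem val_powFam_add [DecidableEq ι] (F : ι → Vec) (k l : ℕ) (G : Vec → ℝ) :
    val (powFam F (k + l)) G = val (prodFam (powFam F k) (powFam F l)) G := by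
  unfold val prodFam powFam
  rw [← (Fin.appendEquiv k l).sum_comp]
  refine Finset.sum_congr rfl fun a _ => ?_
  rw [Fin.prod_univ_add]
  simp [Fin.appendEquiv]

theorem val_powFam_one [DecidableEq ι] (F : ι → Vec) (G : Vec → ℝ) : val (powFam F 1) G = val F G := by
  unfold val powFam
  rw [← (Equiv.funUnique (Fin 1) ι).symm.sum_comp]
  simp

/-- the value of a power depends only on the values of the family -/
theorem val_powFam_congr [DecidableEq ι] [DecidableEq κ] {F : ι → Vec} {E : κ → Vec}
    (h : ∀ G, val F G = val E G) (k : ℕ) (G : Vec → ℝ) : val (powFam F k) G = val (powFam E k) G := by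
  induction k generalizing G with
  | zero =>
    unfold val powFam
    simp
  | succ k ih =>
    rw [val_powFam_add, val_powFam_add, val_prodFam, val_prodFam, ih]
    have h1 : ∀ u : Vec, val (powFam F 1) (fun v => G (u * v)) = val (powFam E 1) (fun v => G (u * v)) :=
      fun u => by rw [val_powFam_one, val_powFam_one, h]
    simp only [h1]

theorem famInv_powFam [DecidableEq ι] {F : ι → Vec} (hF : FamInv F) (k : ℕ) : FamInv (powFam F k) := by
  intro σ H
  have e : (fun s => powFam F k s ∘ σ) = powFam (fun i => F i ∘ σ) k := by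
    funext s i
    simp [powFam, Finset.prod_apply]
  rw [e]
  exact val_powFam_congr (fun G => hF σ G) k H

/-- domination for symmetric test functions of invariant families and functionals -/
theorem dom_of_symm {F : ι → Vec} (hF : FamInv F) {Φ : (Vec → ℝ) → ℝ}
    (hΦ : ∀ H : Vec → ℝ, NSub H → Φ (symAvg H) = Φ H)
    (h : ∀ G, NSub G → Symm G → val F G ≤ Φ G) : Dom F Φ := by
  intro G hG
  have h1 := h (symAvg G) hG.symAvg (symm_symAvg G)
  rw [hΦ G hG] at h1
  have h2 : val F (symAvg G) = val F G := by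
    have h3 : ∀ σ : Equiv.Perm (Fin 3), (∑ i, G (F i ∘ σ)) = ∑ i, G (F i) := fun σ => hF σ G
    unfold val symAvg
    rw [← Finset.mul_sum, Finset.sum_comm]
    simp only [h3]
    simp [Finset.sum_const, Finset.card_univ, Fintype.card_perm]
    have e : ((3 : ℕ).factorial : ℝ) = 6 := by norm_num [Nat.factorial]
    rw [e]
    ring
  rwa [h2] at h1

/-- the Blackwell order is preserved by products -/
theorem val_powFam_mono [DecidableEq ι] [DecidableEq κ] {F : ι → Vec} {E : κ → Vec} (hF : ∀ i, 0 ≤ F i)
    (hE : ∀ i, 0 ≤ E i) (h : ∀ G, NSub G → val F G ≤ val E G) (k : ℕ) (G : Vec → ℝ) (hG : NSub G) :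
    val (powFam F k) G ≤ val (powFam E k) G := by
  induction k generalizing G with
  | zero =>
    unfold val powFam
    simp
  | succ k ih =>
    rw [val_powFam_add, val_powFam_add, val_prodFam, val_prodFam]
    have hone : ∀ (u : Vec), val (powFam F 1) (fun v => G (u * v)) = val F (fun v => G (u * v)) :=
      fun u => val_powFam_one F _
    have hone' : ∀ (u : Vec), val (powFam E 1) (fun v => G (u * v)) = val E (fun v => G (u * v)) :=
      fun u => val_powFam_one E _
    simp only [hone, hone']
    have hN : ∀ u : Vec, 0 ≤ u → NSub (fun v => G (u * v)) := fun u hu => by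
      have := hG.hadamard hu
      simpa only [mul_comm] using this
    have step1 : val (powFam F k) (fun u => val F (fun v => G (u * v)))
        ≤ val (powFam F k) (fun u => val E (fun v => G (u * v))) :=
      Finset.sum_le_sum fun s _ => h _ (hN _ (powFam_nonneg hF k s))
    have hT : NSub (fun u => val E (fun v => G (u * v))) := by
      unfold val
      exact NSub.finset_sum Finset.univ fun j _ => hG.hadamard (hE j)
    exact step1.trans (ih _ hT)

/-- The conversion from normalized test functions to all sublinear test functions: a family of total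
mass `1` dominated on normalized test functions by a family of total mass `m <= 1` is dominated
on all symmetric sublinear test functions by it plus the rest of the mass at the vertices. -/
theorem val_le_of_nsub {F : ι → Vec} {E : κ → Vec} (hF : ∀ i, 0 ≤ F i) (hE : ∀ i, 0 ≤ E i)
    {m : ℝ} (hs : ∑ i, F i = 1) (hm : ∀ j : Fin 3, ∑ i, E i j = m)
    (h : ∀ G, NSub G → Symm G → val F G ≤ val E G)
    (G : Vec → ℝ) (hG : Sublin G) (hGs : Symm G) :
    val F G ≤ val E G + 3 * (1 - m) * G (Pi.single 0 1) := by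
  have hsing : ∀ j : Fin 3, G (Pi.single j 1) = G (Pi.single 0 1) := by
    intro j
    have := hGs (Equiv.swap 0 j) (Pi.single 0 1)
    rw [← this]
    congr 1
    funext i
    simp only [Function.comp_apply, Pi.single_apply]
    by_cases hi : i = j
    · subst hi
      simp
    · by_cases hi0 : i = 0
      · subst hi0
        have hj : (0 : Fin 3) ≠ j := fun e => hi e
        simp [Equiv.swap_apply_left, hj, hj.symm]
      · rw [Equiv.swap_apply_of_ne_of_ne hi0 hi]
        simp [hi, hi0]
  set g := G (Pi.single 0 1) with hg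
  have hH := hG.normalize
  have hHS : Symm (fun v => G v - (v 0 * G (Pi.single 0 1) + v 1 * G (Pi.single 1 1) + v 2 * G (Pi.single 2 1))) := by
    intro σ v
    have hσ : (v ∘ σ) 0 + (v ∘ σ) 1 + (v ∘ σ) 2 = v 0 + v 1 + v 2 := by
      have := Equiv.sum_comp σ v
      simpa [Fin.sum_univ_three] using this
    simp only [hsing 1, hsing 2, ← hg]
    rw [hGs σ v]
    have e1 : (v ∘ σ) 0 * g + (v ∘ σ) 1 * g + (v ∘ σ) 2 * g = ((v ∘ σ) 0 + (v ∘ σ) 1 + (v ∘ σ) 2) * g := by ring
    have e2 : v 0 * g + v 1 * g + v 2 * g = (v 0 + v 1 + v 2) * g := by ring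
    rw [e1, e2, hσ]
  have key := h _ hH hHS
  simp only [hsing 1, hsing 2, ← hg] at key
  unfold val at key ⊢
  rw [Finset.sum_sub_distrib, Finset.sum_sub_distrib] at key
  have hF1 : ∑ i, (F i 0 * g + F i 1 * g + F i 2 * g) = 3 * g := by
    have s0 : ∑ i, F i 0 = 1 := by
      have := congrFun hs 0
      simpa [Finset.sum_apply] using this
    have s1 : ∑ i, F i 1 = 1 := by
      have := congrFun hs 1
      simpa [Finset.sum_apply] using this
    have s2 : ∑ i, F i 2 = 1 := by
      have := congrFun hs 2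
      simpa [Finset.sum_apply] using this
    simp only [Finset.sum_add_distrib, ← Finset.sum_mul, s0, s1, s2]
    ring
  have hE1 : ∑ i, (E i 0 * g + E i 1 * g + E i 2 * g) = 3 * m * g := by
    simp only [Finset.sum_add_distrib, ← Finset.sum_mul, hm]
    ring
  rw [hF1, hE1] at key
  linarith

end families

/-! ### The channel -/

/-- the channel on vectors -/
noncomputable def chanV (lam : ℝ) (v : Vec) : Vec := fun i => lam * v i + (1 - lam) / 3 * (v 0 + v 1 + v 2)

/-- the channel as a linear map -/
noncomputable def chanL (lam : ℝ) : Vec →ₗ[ℝ] Vec where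
  toFun := chanV lam
  map_add' := by
    intro x y
    funext i
    simp only [chanV, Pi.add_apply]
    ring
  map_smul' := by
    intro c x
    funext i
    simp only [chanV, Pi.smul_apply, smul_eq_mul, RingHom.id_apply]
    ring

theorem chanV_nonneg {lam : ℝ} (h0 : -(1 / 2) ≤ lam) (h1 : lam ≤ 1) {v : Vec} (hv : 0 ≤ v) :
    0 ≤ chanV lam v := by
  intro i
  have h00 : 0 ≤ v 0 := hv 0
  have h01 : 0 ≤ v 1 := hv 1
  have h02 : 0 ≤ v 2 := hv 2
  have a : (0 : ℝ) ≤ (1 + 2 * lam) / 3 := by linarith
  have b : (0 : ℝ) ≤ (1 - lam) / 3 := by linarith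
  simp only [chanV, Pi.zero_apply]
  fin_cases i
  · have e : lam * v 0 + (1 - lam) / 3 * (v 0 + v 1 + v 2)
        = (1 + 2 * lam) / 3 * v 0 + (1 - lam) / 3 * (v 1 + v 2) := by ring
    simp only [Fin.zero_eta]
    rw [e]
    have := mul_nonneg a h00
    have := mul_nonneg b (add_nonneg h01 h02)
    linarith
  · have e : lam * v 1 + (1 - lam) / 3 * (v 0 + v 1 + v 2)
        = (1 + 2 * lam) / 3 * v 1 + (1 - lam) / 3 * (v 0 + v 2) := by ring
    simp only [Fin.mk_one]
    rw [e]
    have := mul_nonneg a h01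
    have := mul_nonneg b (add_nonneg h00 h02)
    linarith
  · have e : lam * v 2 + (1 - lam) / 3 * (v 0 + v 1 + v 2)
        = (1 + 2 * lam) / 3 * v 2 + (1 - lam) / 3 * (v 0 + v 1) := by ring
    simp only [Fin.reduceFinMk]
    rw [e]
    have := mul_nonneg a h02
    have := mul_nonneg b (add_nonneg h00 h01)
    linarith

theorem chanV_perm (lam : ℝ) (σ : Equiv.Perm (Fin 3)) (v : Vec) :
    chanV lam (v ∘ σ) = chanV lam v ∘ σ := by
  funext i
  have h : (v ∘ σ) 0 + (v ∘ σ) 1 + (v ∘ σ) 2 = v 0 + v 1 + v 2 := by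
    have := Equiv.sum_comp σ v
    simpa [Fin.sum_univ_three] using this
  simp only [chanV, Function.comp_apply] at h ⊢
  rw [h]

theorem chanV_sum (lam : ℝ) (v : Vec) :
    chanV lam v 0 + chanV lam v 1 + chanV lam v 2 = v 0 + v 1 + v 2 := by
  simp only [chanV]
  ring

/-! ### The tree -/

section tree

variable (d : ℕ) (lam : ℝ)

/-- the likelihood vector of a leaf configuration -/
noncomputable def Xv (n : ℕ) (s : Vale.Agent.Lib.P154.LeafConfig d 3 n) : Vec :=
  fun i => Vale.Agent.Lib.P154.leafLik d 3 lam n i s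

/-- the message vector of a leaf configuration -/
noncomputable def Mv (n : ℕ) (s : Vale.Agent.Lib.P154.LeafConfig d 3 n) : Vec :=
  chanV lam (Xv d lam n s)

noncomputable instance lcFintype (n : ℕ) : Fintype (Vale.Agent.Lib.P154.LeafConfig d 3 n) :=
  Vale.Agent.Lib.P154.leafConfigFintype d 3 n

/-- the sum over leaf configurations at depth `n + 1` is the sum over tuples -/
theorem sum_lc_succ {β : Type*} [AddCommMonoid β] (n : ℕ)
    (f : (Fin d → Vale.Agent.Lib.P154.LeafConfig d 3 n) → β) :
    (∑ s : Vale.Agent.Lib.P154.LeafConfig d 3 (n + 1), f s)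
      = ∑ s : Fin d → Vale.Agent.Lib.P154.LeafConfig d 3 n, f s := rfl

/-- the sum over leaf configurations at depth `0` is the sum over spins -/
theorem sum_lc_zero {β : Type*} [AddCommMonoid β] (f : Fin 3 → β) :
    (∑ s : Vale.Agent.Lib.P154.LeafConfig d 3 0, f s) = ∑ s : Fin 3, f s := rfl

theorem Xv_succ (n : ℕ) (s : Vale.Agent.Lib.P154.LeafConfig d 3 (n + 1)) :
    Xv d lam (n + 1) s = powFam (Mv d lam n) d s := by
  funext i
  have key : ∀ v : Vec, ∑ j : Fin 3, Vale.Agent.Lib.P154.potts 3 lam i j * v j = chanV lam v i := by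
    intro v
    simp only [Vale.Agent.Lib.P154.potts, chanV, Fin.sum_univ_three]
    push_cast
    fin_cases i <;> simp <;> ring
  simp only [powFam, Finset.prod_apply, Xv, Mv]
  rw [Vale.Agent.Lib.P154.leafLik]
  exact Finset.prod_congr rfl fun c _ => key (fun j => Vale.Agent.Lib.P154.leafLik d 3 lam n j (s c))

theorem val_Xv_succ (n : ℕ) (G : Vec → ℝ) : val (Xv d lam (n + 1)) G = val (powFam (Mv d lam n) d) G := by
  unfold val
  have h : ∀ s : Vale.Agent.Lib.P154.LeafConfig d 3 (n + 1),
      G (Xv d lam (n + 1) s) = G (powFam (Mv d lam n) d s) := fun s => by rw [Xv_succ]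
  simp only [h]
  exact sum_lc_succ d n _

variable {d lam}

theorem Xv_nonneg (h0 : -(1 / 2) ≤ lam) (h1 : lam ≤ 1) (n : ℕ) (s) : 0 ≤ Xv d lam n s := by
  induction n with
  | zero =>
    intro i
    simp only [Xv, Vale.Agent.Lib.P154.leafLik, Vale.Agent.Lib.P154.spinDelta, Pi.zero_apply]
    split_ifs <;> norm_num
  | succ n ih =>
    rw [Xv_succ]
    exact powFam_nonneg (fun i => chanV_nonneg h0 h1 (ih i)) d s

theorem Mv_nonneg (h0 : -(1 / 2) ≤ lam) (h1 : lam ≤ 1) (n : ℕ) (s) : 0 ≤ Mv d lam n s :=
  chanV_nonneg h0 h1 (Xv_nonneg h0 h1 n s)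

/-- the likelihoods of a fixed root spin sum to one -/
theorem chanV_one (lam : ℝ) : chanV lam (1 : Vec) = 1 := by
  funext i
  simp only [chanV, Pi.one_apply]
  ring

theorem Mv_sum_of (n : ℕ) (h : ∑ s, Xv d lam n s = 1) : ∑ s, Mv d lam n s = 1 := by
  have e : ∀ s, Mv d lam n s = chanL lam (Xv d lam n s) := fun _ => rfl
  simp only [e]
  rw [← map_sum, h]
  exact chanV_one lam

theorem Xv_sum (n : ℕ) : ∑ s, Xv d lam n s = 1 := by
  induction n with
  | zero =>
    funext i
    have e : ∑ s : Fin 3, (if i = s then (1 : ℝ) else 0) = 1 := by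
      simp
    rw [Finset.sum_apply]
    exact e
  | succ n ih =>
    have h1 := Mv_sum_of (d := d) (lam := lam) n ih
    have e : ∑ s : Vale.Agent.Lib.P154.LeafConfig d 3 (n + 1), Xv d lam (n + 1) s
        = ∑ s : Fin d → Vale.Agent.Lib.P154.LeafConfig d 3 n, powFam (Mv d lam n) d s := by
      simp only [Xv_succ]
      exact sum_lc_succ d n _
    rw [e]
    simp only [powFam]
    have := Finset.prod_univ_sum (fun _ : Fin d => (Finset.univ : Finset (Vale.Agent.Lib.P154.LeafConfig d 3 n)))
      (fun _ (s' : Vale.Agent.Lib.P154.LeafConfig d 3 n) => Mv d lam n s')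
    rw [Fintype.piFinset_univ] at this
    rw [← this]
    simp [h1]

theorem Mv_sum (n : ℕ) : ∑ s, Mv d lam n s = 1 := Mv_sum_of n (Xv_sum n)

theorem famInv_Mv_of (n : ℕ) (h : FamInv (Xv d lam n)) : FamInv (Mv d lam n) := by
  intro σ H
  have := h σ (fun v => H (chanV lam v))
  unfold val at this ⊢
  simp only [Mv]
  simp only [← chanV_perm]
  exact this

theorem famInv_Xv (n : ℕ) : FamInv (Xv d lam n) := by
  induction n with
  | zero =>
    intro σ H
    show ∑ s : Fin 3, H (Xv d lam 0 s ∘ σ) = ∑ s : Fin 3, H (Xv d lam 0 s)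
    have e : ∀ (s : Fin 3), (Xv d lam 0 s ∘ σ) = Xv d lam 0 (σ⁻¹ s) := by
      intro s
      funext i
      simp only [Xv, Function.comp_apply, Vale.Agent.Lib.P154.leafLik, Vale.Agent.Lib.P154.spinDelta]
      have : (σ i = s) ↔ (i = σ⁻¹ s) := by
        constructor
        · intro h
          rw [← h]
          simp
        · intro h
          rw [h]
          simp
      simp only [this]
    rw [← Equiv.sum_comp (σ⁻¹ : Equiv.Perm (Fin 3)) (fun s => H (Xv d lam 0 s))]
    exact Finset.sum_congr rfl fun s _ => by rw [e s]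
  | succ n ih =>
    classical
    have h1 := famInv_Mv_of (d := d) (lam := lam) n ih
    have h2 := famInv_powFam h1 d
    intro σ H
    have h3 := h2 σ H
    have e1 : val (Xv d lam (n + 1)) H = val (powFam (Mv d lam n) d) H := val_Xv_succ d lam n H
    rw [e1, ← h3]
    unfold val
    have h : ∀ s : Vale.Agent.Lib.P154.LeafConfig d 3 (n + 1),
        H (Xv d lam (n + 1) s ∘ σ) = H (powFam (Mv d lam n) d s ∘ σ) := fun s => by rw [Xv_succ]
    simp only [h]
    exact sum_lc_succ d n _

theorem famInv_Mv (n : ℕ) : FamInv (Mv d lam n) := famInv_Mv_of n (famInv_Xv n)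

/-- the values at depth zero -/
theorem val_Mv_zero (G : Vec → ℝ) :
    val (Mv d lam 0) G = ∑ j : Fin 3, G (chanV lam (Pi.single j 1)) := by
  have e : ∀ s : Fin 3, Xv d lam 0 s = Pi.single s 1 := by
    intro s
    funext i
    simp only [Xv, Vale.Agent.Lib.P154.leafLik, Vale.Agent.Lib.P154.spinDelta, Pi.single_apply]
  show ∑ s : Fin 3, G (chanV lam (Xv d lam 0 s)) = _
  simp only [e]

end tree

/-- the test function of the reconstruction error -/
noncomputable def Gabs (v : Vec) : ℝ :=
  1 / 2 * ∑ i : Fin 3, |v i / 3 - (v 0 + v 1 + v 2) / 9|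

theorem Gabs_sublin : Sublin Gabs := by
  constructor
  · intro u v _ _
    simp only [Gabs, Pi.add_apply]
    rw [← mul_add, ← Finset.sum_add_distrib]
    apply mul_le_mul_of_nonneg_left _ (by norm_num)
    apply Finset.sum_le_sum
    intro i _
    have e : (u i + v i) / 3 - (u 0 + v 0 + (u 1 + v 1) + (u 2 + v 2)) / 9
        = (u i / 3 - (u 0 + u 1 + u 2) / 9) + (v i / 3 - (v 0 + v 1 + v 2) / 9) := by ring
    rw [e]
    exact abs_add_le _ _
  · intro t v ht _
    simp only [Gabs, Pi.smul_apply, smul_eq_mul]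
    have key : ∑ i, |t * v i / 3 - (t * v 0 + t * v 1 + t * v 2) / 9|
        = t * ∑ i, |v i / 3 - (v 0 + v 1 + v 2) / 9| := by
      rw [Finset.mul_sum]
      apply Finset.sum_congr rfl
      intro i _
      have e : t * v i / 3 - (t * v 0 + t * v 1 + t * v 2) / 9
          = t * (v i / 3 - (v 0 + v 1 + v 2) / 9) := by ring
      rw [e, abs_mul, abs_of_nonneg ht]
    rw [key]
    ring

theorem Gabs_symm : Symm Gabs := by
  intro σ v
  have h : (v ∘ σ) 0 + (v ∘ σ) 1 + (v ∘ σ) 2 = v 0 + v 1 + v 2 := by
    have := Equiv.sum_comp σ v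
    simpa [Fin.sum_univ_three] using this
  simp only [Gabs]
  rw [h]
  congr 1
  exact Equiv.sum_comp σ (fun i => |v i / 3 - (v 0 + v 1 + v 2) / 9|)

theorem reconError_eq_val {d : ℕ} {lam : ℝ} (h0 : -(1 / 2) ≤ lam) (h1 : lam ≤ 1) (n : ℕ) :
    Vale.Agent.Lib.P154.reconError d 3 lam n = val (Xv d lam n) Gabs := by
  unfold Vale.Agent.Lib.P154.reconError val
  refine Finset.sum_congr (Finset.ext fun x => by
    constructor <;> intro _ <;> exact @Finset.mem_univ _ (_) _) fun s _ => ?_
  have hv := Xv_nonneg (d := d) h0 h1 n s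
  have a0 : 0 ≤ Xv d lam n s 0 := hv 0
  have a1 : 0 ≤ Xv d lam n s 1 := hv 1
  have a2 : 0 ≤ Xv d lam n s 2 := hv 2
  have hp : Vale.Agent.Lib.P154.leafProb d 3 lam n s
      = (Xv d lam n s 0 + Xv d lam n s 1 + Xv d lam n s 2) / 3 := by
    simp only [Vale.Agent.Lib.P154.leafProb, Fin.sum_univ_three, Xv]
    push_cast
    ring
  have hp0 : 0 ≤ Vale.Agent.Lib.P154.leafProb d 3 lam n s := by
    rw [hp]
    positivity
  have hpost : ∀ i : Fin 3, Vale.Agent.Lib.P154.leafProb d 3 lam n s
      * |Vale.Agent.Lib.P154.rootPosterior d 3 lam n s i - 1 / ((3 : ℕ) : ℝ)|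
      = |Xv d lam n s i / 3 - (Xv d lam n s 0 + Xv d lam n s 1 + Xv d lam n s 2) / 9| := by
    intro i
    by_cases h : Vale.Agent.Lib.P154.leafProb d 3 lam n s = 0
    · rw [h, zero_mul]
      have hs : Xv d lam n s 0 + Xv d lam n s 1 + Xv d lam n s 2 = 0 := by
        rw [hp] at h
        linarith
      have z0 : Xv d lam n s 0 = 0 := by linarith
      have z1 : Xv d lam n s 1 = 0 := by linarith
      have z2 : Xv d lam n s 2 = 0 := by linarith
      have zi : Xv d lam n s i = 0 := by
        fin_cases i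
        · exact z0
        · exact z1
        · exact z2
      rw [zi, hs]
      simp
    · rw [show Vale.Agent.Lib.P154.leafProb d 3 lam n s
          * |Vale.Agent.Lib.P154.rootPosterior d 3 lam n s i - 1 / ((3 : ℕ) : ℝ)|
          = |Vale.Agent.Lib.P154.leafProb d 3 lam n s
            * (Vale.Agent.Lib.P154.rootPosterior d 3 lam n s i - 1 / ((3 : ℕ) : ℝ))| by
        rw [abs_mul, abs_of_nonneg hp0]]
      congr 1
      simp only [Vale.Agent.Lib.P154.rootPosterior]
      field_simp
      rw [hp]
      simp only [Xv]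
      push_cast
      ring
  simp only [Gabs]
  rw [mul_left_comm, Finset.mul_sum]
  congr 1
  exact Finset.sum_congr rfl fun i _ => hpost i

/-! ### Monotonicity -/

/-- the symmetrization does not change the value on an invariant family -/
theorem val_symAvg_of_famInv {ι : Type*} [Fintype ι] {F : ι → Vec} (hF : FamInv F) (G : Vec → ℝ) :
    val F (symAvg G) = val F G := by
  have h3 : ∀ σ : Equiv.Perm (Fin 3), (∑ i, G (F i ∘ σ)) = ∑ i, G (F i) := fun σ => hF σ G
  unfold val symAvg
  rw [← Finset.mul_sum, Finset.sum_comm]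
  simp only [h3]
  simp [Finset.sum_const, Finset.card_univ, Fintype.card_perm]
  have e : ((3 : ℕ).factorial : ℝ) = 6 := by norm_num [Nat.factorial]
  rw [e]
  ring

/-- a composition of channels -/
theorem chanV_chanV (a b : ℝ) (v : Vec) : chanV a (chanV b v) = chanV (a * b) v := by
  funext i
  simp only [chanV]
  ring

/-- garbling: for a symmetric sublinear test function, the channel only loses -/
theorem chanV_le {G : Vec → ℝ} (hG : Sublin G) (hS : Symm G) {t : ℝ} (h0 : 0 ≤ t) (h1 : t ≤ 1)
    {w : Vec} (hw : 0 ≤ w) : G (chanV t w) ≤ G w := by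
  have e : chanV t w = t • w + ((1 - t) * (1 / 6)) • ∑ σ : Equiv.Perm (Fin 3), (w ∘ σ) := by
    funext i
    have hperm : (∑ σ : Equiv.Perm (Fin 3), (w ∘ σ)) i = 2 * (w 0 + w 1 + w 2) := by
      rw [Finset.sum_apply]
      simp only [Function.comp_apply]
      have hcard : ∀ j : Fin 3,
          (Finset.univ.filter (fun σ : Equiv.Perm (Fin 3) => σ i = j)).card = 2 := by
        revert i
        decide
      rw [← Finset.sum_fiberwise Finset.univ (fun σ : Equiv.Perm (Fin 3) => σ i)]
      have hj : ∀ j : Fin 3, ∑ σ ∈ Finset.univ.filter (fun σ : Equiv.Perm (Fin 3) => σ i = j), w (σ i)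
          = 2 * w j := by
        intro j
        rw [Finset.sum_congr rfl (g := fun _ => w j)
          (fun σ hσ => by rw [(Finset.mem_filter.mp hσ).2])]
        simp [hcard j]
      simp only [hj, Fin.sum_univ_three]
      ring
    simp only [chanV, Pi.add_apply, Pi.smul_apply, smul_eq_mul]
    rw [hperm]
    ring
  rw [e]
  have hnn : ∀ σ : Equiv.Perm (Fin 3), 0 ≤ w ∘ σ := fun σ i => hw (σ i)
  have hsum : 0 ≤ ∑ σ : Equiv.Perm (Fin 3), (w ∘ σ) := Finset.sum_nonneg fun σ _ => hnn σ
  have hc : (0 : ℝ) ≤ (1 - t) * (1 / 6) := by nlinarith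
  have h2 := hG.add_le _ _ (smul_nonneg h0 hw) (smul_nonneg hc hsum)
  rw [hG.smul_eq _ _ h0 hw, hG.smul_eq _ _ hc hsum] at h2
  have h3 := hG.sum_le Finset.univ (fun σ : Equiv.Perm (Fin 3) => w ∘ σ) fun σ _ => hnn σ
  simp only [hS _ w] at h3
  simp [Finset.sum_const, Finset.card_univ, Fintype.card_perm] at h3
  have e6 : ((3 : ℕ).factorial : ℝ) = 6 := by norm_num [Nat.factorial]
  rw [e6] at h3
  nlinarith [mul_le_mul_of_nonneg_left h3 hc]

/-- the comparison of the two channels -/
theorem chanV_garble {lam lam0 : ℝ} (h0 : -(1 / 2) ≤ lam0) (h1 : lam0 ≤ lam) (h2 : lam ≤ 0)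
    {G : Vec → ℝ} (hG : Sublin G) (hS : Symm G) {v : Vec} (hv : 0 ≤ v) :
    G (chanV lam v) ≤ G (chanV lam0 v) := by
  rcases eq_or_lt_of_le (le_trans h1 h2) with h | h
  · have : lam = 0 := by linarith
    subst this
    rw [h]
  · have ht0 : 0 ≤ lam / lam0 := div_nonneg_of_nonpos h2 h.le
    have ht1 : lam / lam0 ≤ 1 := by
      rw [div_le_one_of_neg h]
      exact h1
    have e : chanV lam v = chanV (lam / lam0) (chanV lam0 v) := by
      rw [chanV_chanV, div_mul_cancel₀ _ h.ne]
    rw [e]
    exact chanV_le hG hS ht0 ht1 (chanV_nonneg h0 (by linarith) hv)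

/-- the total vector of a power -/
theorem sum_powFam_of {ι : Type*} [Fintype ι] [DecidableEq ι] {F : ι → Vec} (hs : ∑ i, F i = 1) (k : ℕ) :
    ∑ s, powFam F k s = 1 := by
  simp only [powFam]
  have := Finset.prod_univ_sum (fun _ : Fin k => (Finset.univ : Finset ι)) (fun _ (s' : ι) => F s')
  rw [Fintype.piFinset_univ] at this
  rw [← this]
  simp [hs]

/-- adding factors of total vector one only gains -/
theorem val_powFam_le_of_le {ι : Type*} [Fintype ι] [DecidableEq ι] {F : ι → Vec} {G : Vec → ℝ} (hG : Sublin G)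
    (hF : ∀ i, 0 ≤ F i) (hs : ∑ i, F i = 1) {k l : ℕ} (hkl : k ≤ l) :
    val (powFam F k) G ≤ val (powFam F l) G := by
  obtain ⟨j, rfl⟩ := Nat.exists_eq_add_of_le hkl
  rw [val_powFam_add, val_prodFam]
  refine Finset.sum_le_sum fun a _ => ?_
  have h0 : 0 ≤ powFam F k a := powFam_nonneg hF k a
  have h1 := hG.sum_le Finset.univ (fun b => powFam F k a * powFam F j b) (fun b _ => by
    intro i
    simpa using mul_nonneg (h0 i) (powFam_nonneg hF j b i))
  rw [← Finset.mul_sum, sum_powFam_of hs, mul_one] at h1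
  exact h1

/-- The channel of smaller eigenvalue is a post-processing. -/
theorem val_Xv_mono_lam {d : ℕ} {lam lam0 : ℝ} (h0 : -(1 / 2) ≤ lam0) (h1 : lam0 ≤ lam) (h2 : lam ≤ 0)
    (n : ℕ) (G : Vec → ℝ) (hG : Sublin G) (hGs : Symm G) :
    val (Xv d lam n) G ≤ val (Xv d lam0 n) G := by
  classical
  have hlam0 : -(1 / 2) ≤ lam := h0.trans h1
  have hlam1 : lam ≤ 1 := by linarith
  have hlam01 : lam0 ≤ 1 := by linarith
  induction n generalizing G with
  | zero =>
    apply le_of_eq
    rfl
  | succ n ih =>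
    rw [val_Xv_succ, val_Xv_succ]
    have hMv : ∀ G', NSub G' → val (Mv d lam n) G' ≤ val (Mv d lam0 n) G' := by
      apply dom_of_symm (famInv_Mv n) (Φ := val (Mv d lam0 n))
      · intro H _
        exact val_symAvg_of_famInv (famInv_Mv n) H
      · intro G' hG' hS'
        have hmono : val (Mv d lam n) G' ≤ val (Xv d lam n) (fun v => G' (chanV lam0 v)) := by
          refine Finset.sum_le_sum fun s _ => ?_
          exact chanV_garble h0 h1 h2 hG'.toSublin hS' (Xv_nonneg hlam0 hlam1 n s)
        have hsub : Sublin (fun v => G' (chanL lam0 v)) :=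
          hG'.toSublin.comp_linear (chanL lam0) fun v hv => chanV_nonneg h0 hlam01 hv
        have hsym : Symm (fun v => G' (chanV lam0 v)) := by
          intro σ v
          show G' (chanV lam0 (v ∘ σ)) = G' (chanV lam0 v)
          rw [chanV_perm]
          exact hS' σ _
        exact hmono.trans (ih _ hsub hsym)
    have hM := val_powFam_mono (fun s => Mv_nonneg hlam0 hlam1 n s)
      (fun s => Mv_nonneg h0 hlam01 n s) hMv d
    have hle := val_le_of_nsub (F := powFam (Mv d lam n) d) (E := powFam (Mv d lam0 n) d) (m := 1)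
      (powFam_nonneg (fun s => Mv_nonneg hlam0 hlam1 n s) d)
      (powFam_nonneg (fun s => Mv_nonneg h0 hlam01 n s) d)
      (sum_powFam_of (Mv_sum n) d)
      (fun j => by
        have := sum_powFam_of (Mv_sum (d := d) (lam := lam0) n) d
        rw [← Finset.sum_apply, this]
        rfl)
      (fun G' hG' _ => hM G' hG') G hG hGs
    simpa using hle

/-- Fewer children give less information. -/
theorem val_Xv_mono_d {d d' : ℕ} (hdd : d' ≤ d) {lam : ℝ} (h0 : -(1 / 2) ≤ lam) (h1 : lam ≤ 1)
    (n : ℕ) (G : Vec → ℝ) (hG : Sublin G) (hGs : Symm G) :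
    val (Xv d' lam n) G ≤ val (Xv d lam n) G := by
  classical
  induction n generalizing G with
  | zero =>
    apply le_of_eq
    rfl
  | succ n ih =>
    rw [val_Xv_succ, val_Xv_succ]
    have hMv : ∀ G', NSub G' → val (Mv d' lam n) G' ≤ val (Mv d lam n) G' := by
      apply dom_of_symm (famInv_Mv n) (Φ := val (Mv d lam n))
      · intro H _
        exact val_symAvg_of_famInv (famInv_Mv n) H
      · intro G' hG' hS'
        have hsub : Sublin (fun v => G' (chanL lam v)) :=
          hG'.toSublin.comp_linear (chanL lam) fun v hv => chanV_nonneg h0 h1 hv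
        have hsym : Symm (fun v => G' (chanV lam v)) := by
          intro σ v
          show G' (chanV lam (v ∘ σ)) = G' (chanV lam v)
          rw [chanV_perm]
          exact hS' σ _
        exact ih _ hsub hsym
    have hM := val_powFam_mono (fun s => Mv_nonneg h0 h1 n s)
      (fun s => Mv_nonneg h0 h1 n s) hMv d'
    have hle := val_le_of_nsub (F := powFam (Mv d' lam n) d') (E := powFam (Mv d lam n) d') (m := 1)
      (powFam_nonneg (fun s => Mv_nonneg h0 h1 n s) d')
      (powFam_nonneg (fun s => Mv_nonneg h0 h1 n s) d')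
      (sum_powFam_of (Mv_sum n) d')
      (fun j => by
        have := sum_powFam_of (Mv_sum (d := d) (lam := lam) n) d'
        rw [← Finset.sum_apply, this]
        rfl)
      (fun G' hG' _ => hM G' hG') G hG hGs
    have h3 : val (powFam (Mv d' lam n) d') G ≤ val (powFam (Mv d lam n) d') G := by
      simpa using hle
    refine h3.trans ?_
    exact val_powFam_le_of_le hG (fun s => Mv_nonneg h0 h1 n s) (Mv_sum n) hdd

/-- The consequence for the reconstruction error. -/
theorem reconError_mono {d d' : ℕ} (hdd : d' ≤ d) {lam lam0 : ℝ} (h0 : -(1 / 2) ≤ lam0) (h1 : lam0 ≤ lam)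
    (h2 : lam ≤ 0) (n : ℕ) :
    Vale.Agent.Lib.P154.reconError d' 3 lam n ≤ Vale.Agent.Lib.P154.reconError d 3 lam0 n := by
  have hl : -(1 / 2) ≤ lam := h0.trans h1
  have hl1 : lam ≤ 1 := by linarith
  have hl01 : lam0 ≤ 1 := by linarith
  rw [reconError_eq_val hl hl1, reconError_eq_val h0 hl01]
  exact (val_Xv_mono_d hdd hl hl1 n Gabs Gabs_sublin Gabs_symm).trans
    (val_Xv_mono_lam h0 h1 h2 n Gabs Gabs_sublin Gabs_symm)

end Vale.Agent.Lib.P154.Chain
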