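import Vale.Agent.Lib.P154.Tree
import Vale.Agent.Lib.P154.Neg.Main1
import Vale.Agent.Lib.P154.Chain.D4.Main
import Vale.Agent.Lib.P154.Chain.D5.Main
import Vale.Agent.Lib.P154.Chain.D6.Main
import Vale.Agent.Lib.P154.Chain.D7.Main
import Vale.Agent.Lib.P154.Chain.D8.Main

/-!
Nonreconstruction at and below the Kesten-Stigum bound for the three-state Potts channel on every
`d`-ary tree, for all admissible eigenvalues: the end of the proof.
-/

namespace Vale.Agent.Lib.P154.Chain

open Filter Topology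

theorem reconError_nonneg {d : ℕ} {lam : ℝ} (h0 : -(1 / 2) ≤ lam) (h1 : lam ≤ 1) (n : ℕ) :
    0 ≤ reconError d 3 lam n := by
  rw [reconError_eq_val h0 h1]
  refine Finset.sum_nonneg (fun s _ => ?_)
  unfold Gabs
  positivity

/-- the degrees at most `4`: from the chain at degree `4` and eigenvalue `-1/2` -/
theorem tendsto_reconError_corner {d : ℕ} (hd4 : d ≤ 4) {lam : ℝ} (h0 : -(1 / 2) ≤ lam) (h1 : lam ≤ 0) :
    Tendsto (reconError d 3 lam) atTop (𝓝 0) := by
  have hc : Tendsto (reconError 4 3 (-(1 / 2))) atTop (𝓝 0) :=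
    D4.tendsto_main (by norm_num) (by norm_num)
  exact squeeze_zero (fun n => reconError_nonneg h0 (by linarith) n)
    (fun n => reconError_mono hd4 (le_refl _) h0 h1 n) hc

/-- The theorem: `q = 3`, every `d >= 2`, every admissible eigenvalue with `d lam^2 <= 1`. -/
theorem tendsto_reconError_all {d : ℕ} (hd : 2 ≤ d) {lam : ℝ} (h0 : -(1 / 2) ≤ lam)
    (hKS : (d : ℝ) * lam ^ 2 ≤ 1) : Tendsto (reconError d 3 lam) atTop (𝓝 0) := by
  rcases le_total 0 lam with hp | hn
  · exact tendsto_reconError hd hp hKS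
  by_cases hs : -(1 / 3) ≤ lam
  · rcases lt_or_eq_of_le hn with hn' | hn'
    · exact Neg.dary_neg hd hs hn' hKS
    · exact tendsto_reconError hd (by rw [hn']) hKS
  have hs' : lam < -(1 / 3) := not_le.mp hs
  have hsq : (1 / 3 : ℝ) ^ 2 < lam ^ 2 := by nlinarith
  have hd8 : d ≤ 8 := by
    by_contra hc
    have hc' : (9 : ℝ) ≤ (d : ℝ) := by
      have : 9 ≤ d := by omega
      exact_mod_cast this
    nlinarith
  by_cases hd4 : d ≤ 4
  · exact tendsto_reconError_corner hd4 h0 hn
  · have hd5 : 5 ≤ d := by omega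
    interval_cases d
    · exact D5.tendsto_main hn hKS
    · exact D6.tendsto_main hn hKS
    · exact D7.tendsto_main hn hKS
    · exact D8.tendsto_main hn hKS

end Vale.Agent.Lib.P154.Chain
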