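import Vale.Agent.Lib.P154.Chain.Fam
import Vale.Agent.Lib.P154.NegTailRec
import Vale.Agent.Lib.P154.Tree

/-!
From a family dominating the posteriors at some depth, with small moments, to nonreconstruction.
-/

namespace Vale.Agent.Lib.P154.Chain

open scoped BigOperators
open Filter Topology
open Vale.Agent.Lib.P154

/-- the law of the normalized vectors of a family, weighted by their mass, as a functional -/
noncomputable def famEx {ι : Type*} [Fintype ι] (F : ι → Vec) : Ex3 := fun f =>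
  ∑ i, ((F i 0 + F i 1 + F i 2) / 3) *
    f (F i 0 / (F i 0 + F i 1 + F i 2)) (F i 1 / (F i 0 + F i 1 + F i 2)) (F i 2 / (F i 0 + F i 1 + F i 2))

/-- the term of `famEx` as a function of the vector -/
noncomputable def famH (f : Fn3) (v : Vec) : ℝ :=
  ((v 0 + v 1 + v 2) / 3) * f (v 0 / (v 0 + v 1 + v 2)) (v 1 / (v 0 + v 1 + v 2)) (v 2 / (v 0 + v 1 + v 2))

theorem famEx_eq_val {ι : Type*} [Fintype ι] (F : ι → Vec) (f : Fn3) : famEx F f = val F (famH f) := rfl

/-- a vanishing total makes the coordinates vanish -/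
theorem coords_eq_zero {v : Vec} (hv : 0 ≤ v) (h : v 0 + v 1 + v 2 = 0) :
    v 0 = 0 ∧ v 1 = 0 ∧ v 2 = 0 := by
  have a0 : 0 ≤ v 0 := hv 0
  have a1 : 0 ≤ v 1 := hv 1
  have a2 : 0 ≤ v 2 := hv 2
  exact ⟨by linarith, by linarith, by linarith⟩

theorem famH_prod {u v : Vec} (hu : 0 ≤ u) (hv : 0 ≤ v) (f : Fn3) :
    famH f (u * v) = ((u 0 + u 1 + u 2) / 3) * (((v 0 + v 1 + v 2) / 3) *
      wt f (u 0 / (u 0 + u 1 + u 2)) (u 1 / (u 0 + u 1 + u 2)) (u 2 / (u 0 + u 1 + u 2))
        (v 0 / (v 0 + v 1 + v 2)) (v 1 / (v 0 + v 1 + v 2)) (v 2 / (v 0 + v 1 + v 2))) := by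
  have a0 : 0 ≤ u 0 := hu 0
  have a1 : 0 ≤ u 1 := hu 1
  have a2 : 0 ≤ u 2 := hu 2
  have b0 : 0 ≤ v 0 := hv 0
  have b1 : 0 ≤ v 1 := hv 1
  have b2 : 0 ≤ v 2 := hv 2
  simp only [famH, Pi.mul_apply]
  by_cases hSu : u 0 + u 1 + u 2 = 0
  · obtain ⟨z0, z1, z2⟩ := coords_eq_zero hu hSu
    rw [hSu, z0, z1, z2]
    simp
  by_cases hSv : v 0 + v 1 + v 2 = 0
  · obtain ⟨z0, z1, z2⟩ := coords_eq_zero hv hSv
    rw [hSv, z0, z1, z2]
    simp
  set Su := u 0 + u 1 + u 2 with hSudef
  set Sv := v 0 + v 1 + v 2 with hSvdef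
  set D := u 0 * v 0 + u 1 * v 1 + u 2 * v 2 with hD
  have hsum : u 0 / Su * (v 0 / Sv) + u 1 / Su * (v 1 / Sv) + u 2 / Su * (v 2 / Sv) = D / (Su * Sv) := by
    rw [hD]
    field_simp
  unfold wt
  rw [hsum]
  have c0 : u 0 / Su * (v 0 / Sv) / (D / (Su * Sv)) = u 0 * v 0 / D := by
    by_cases hD0 : D = 0
    · simp [hD0]
    · field_simp
  have c1 : u 1 / Su * (v 1 / Sv) / (D / (Su * Sv)) = u 1 * v 1 / D := by
    by_cases hD0 : D = 0
    · simp [hD0]
    · field_simp
  have c2 : u 2 / Su * (v 2 / Sv) / (D / (Su * Sv)) = u 2 * v 2 / D := by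
    by_cases hD0 : D = 0
    · simp [hD0]
    · field_simp
  rw [c0, c1, c2]
  field_simp

theorem famH_chan (lam : ℝ) (v : Vec) (f : Fn3) :
    famH f (chanV lam v) = ((v 0 + v 1 + v 2) / 3) *
      f (chanPt lam (v 0 / (v 0 + v 1 + v 2))) (chanPt lam (v 1 / (v 0 + v 1 + v 2)))
        (chanPt lam (v 2 / (v 0 + v 1 + v 2))) := by
  simp only [famH]
  rw [chanV_sum]
  by_cases hS : v 0 + v 1 + v 2 = 0
  · rw [hS]
    simp
  have e : ∀ x : ℝ, (lam * x + (1 - lam) / 3 * (v 0 + v 1 + v 2)) / (v 0 + v 1 + v 2)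
      = chanPt lam (x / (v 0 + v 1 + v 2)) := by
    intro x
    unfold chanPt
    field_simp
  simp only [chanV, e]

section
variable {ι κ : Type*} [Fintype ι] [Fintype κ]

theorem famEx_symExp {F : ι → Vec} (h0 : ∀ i, 0 ≤ F i) (hs : ∑ i, F i = 1) (hinv : FamInv F) :
    SymExp (famEx F) Simp where
  add f g := by
    unfold famEx
    rw [← Finset.sum_add_distrib]
    exact Finset.sum_congr rfl fun i _ => by ring
  smul t f := by
    unfold famEx
    rw [Finset.mul_sum]
    exact Finset.sum_congr rfl fun i _ => by ring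
  nonneg f hf := by
    unfold famEx
    refine Finset.sum_nonneg fun i _ => ?_
    have a0 : 0 ≤ F i 0 := h0 i 0
    have a1 : 0 ≤ F i 1 := h0 i 1
    have a2 : 0 ≤ F i 2 := h0 i 2
    have hS : 0 ≤ F i 0 + F i 1 + F i 2 := by positivity
    rcases hS.eq_or_lt with h | h
    · rw [← h]
      simp
    · apply mul_nonneg (by positivity)
      apply hf
      refine ⟨div_nonneg a0 hS, div_nonneg a1 hS, div_nonneg a2 hS, ?_⟩
      field_simp
  one := by
    unfold famEx
    simp only [mul_one]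
    have s0 : ∑ i, F i 0 = 1 := by
      have := congrFun hs 0
      simpa [Finset.sum_apply] using this
    have s1 : ∑ i, F i 1 = 1 := by
      have := congrFun hs 1
      simpa [Finset.sum_apply] using this
    have s2 : ∑ i, F i 2 = 1 := by
      have := congrFun hs 2
      simpa [Finset.sum_apply] using this
    rw [← Finset.sum_div, Finset.sum_add_distrib, Finset.sum_add_distrib, s0, s1, s2]
    norm_num
  swap f := by
    have h := hinv (Equiv.swap 0 1) (famH f)
    rw [famEx_eq_val F f, ← h]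
    unfold val famEx famH
    refine Finset.sum_congr rfl fun i _ => ?_
    have e0 : (F i ∘ Equiv.swap (0 : Fin 3) 1) 0 = F i 1 := by simp
    have e1 : (F i ∘ Equiv.swap (0 : Fin 3) 1) 1 = F i 0 := by simp
    have e2 : (F i ∘ Equiv.swap (0 : Fin 3) 1) 2 = F i 2 := by
      simp only [Function.comp_apply]
      rw [Equiv.swap_apply_of_ne_of_ne (by decide) (by decide)]
    beta_reduce
    rw [e0, e1, e2, add_comm (F i 1) (F i 0)]
  cyc f := by
    have h := hinv (finRotate 3) (famH f)
    rw [famEx_eq_val F f, ← h]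
    unfold val famEx famH
    refine Finset.sum_congr rfl fun i _ => ?_
    have e0 : (F i ∘ finRotate 3) 0 = F i 1 := rfl
    have e1 : (F i ∘ finRotate 3) 1 = F i 2 := rfl
    have e2 : (F i ∘ finRotate 3) 2 = F i 0 := rfl
    have hS : F i 1 + F i 2 + F i 0 = F i 0 + F i 1 + F i 2 := by ring
    beta_reduce
    rw [e0, e1, e2, hS]

theorem famEx_prod {F : ι → Vec} {F' : κ → Vec} (h0 : ∀ i, 0 ≤ F i) (h0' : ∀ i, 0 ≤ F' i)
    (f : Fn3) :
    famEx (prodFam F F') f = bprod (famEx F) (famEx F') f := by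
  unfold bprod famEx prodFam
  rw [Fintype.sum_prod_type]
  refine Finset.sum_congr rfl fun i _ => ?_
  rw [Finset.mul_sum]
  refine Finset.sum_congr rfl fun j _ => ?_
  exact famH_prod (h0 i) (h0' j) f

theorem famEx_chan (lam : ℝ) (F : ι → Vec) (f : Fn3) :
    famEx (fun i => chanV lam (F i)) f = chan lam (famEx F) f := by
  unfold chan famEx
  exact Finset.sum_congr rfl fun i _ => famH_chan lam (F i) f

theorem famEx_pow [DecidableEq ι] {F : ι → Vec} (h0 : ∀ i, 0 ≤ F i) (k : ℕ) (f : Fn3) :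
    famEx (powFam F k) f = Pk (famEx F) k f := by
  induction k generalizing f with
  | zero =>
    show _ = f (1 / 3) (1 / 3) (1 / 3)
    unfold famEx powFam
    simp
    norm_num
  | succ k ih =>
    have e1 : famEx (powFam F (k + 1)) f = famEx (prodFam (powFam F k) (powFam F 1)) f :=
      val_powFam_add F k 1 (famH f)
    have e2 : famEx (powFam F 1) = famEx F := funext fun g => val_powFam_one F (famH g)
    have e3 : famEx (powFam F k) = Pk (famEx F) k := funext ih
    rw [e1, famEx_prod (powFam_nonneg h0 k) (powFam_nonneg h0 1), e2, e3]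
    rfl

/-- a pointwise value of the test function of the reconstruction error -/
theorem val_Gabs {F : ι → Vec} (h0 : ∀ i, 0 ≤ F i) :
    val F Gabs = famEx F (fun a b c => 1 / 2 * (|a - 1 / 3| + |b - 1 / 3| + |c - 1 / 3|)) := by
  unfold val famEx
  refine Finset.sum_congr rfl fun i _ => ?_
  have a0 : 0 ≤ F i 0 := h0 i 0
  have a1 : 0 ≤ F i 1 := h0 i 1
  have a2 : 0 ≤ F i 2 := h0 i 2
  simp only [Gabs, Fin.sum_univ_three]
  have hS : 0 ≤ F i 0 + F i 1 + F i 2 := by positivity
  rcases hS.eq_or_lt with h | h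
  · obtain ⟨z0, z1, z2⟩ := coords_eq_zero (h0 i) h.symm
    rw [z0, z1, z2]
    simp
  · have key : ∀ x : ℝ, |x / 3 - (F i 0 + F i 1 + F i 2) / 9|
        = (F i 0 + F i 1 + F i 2) / 3 * |x / (F i 0 + F i 1 + F i 2) - 1 / 3| := by
      intro x
      have e : x / 3 - (F i 0 + F i 1 + F i 2) / 9
          = (F i 0 + F i 1 + F i 2) / 3 * (x / (F i 0 + F i 1 + F i 2) - 1 / 3) := by
        field_simp
        ring
      rw [e, abs_mul, abs_of_pos (by positivity : 0 < (F i 0 + F i 1 + F i 2) / 3)]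
    rw [key, key, key]
    ring

end

/-- a finite family of vectors -/
structure FF where
  ι : Type
  fin : Fintype ι
  F : ι → Vec

attribute [instance] FF.fin

/-- the next generation of a family -/
noncomputable def FF.next (d : ℕ) (lam : ℝ) (A : FF) : FF :=
  letI := Classical.decEq A.ι
  ⟨Fin d → A.ι, inferInstance, powFam (fun i => chanV lam (A.F i)) d⟩

/-- the generations of a family -/
noncomputable def FF.iter (d : ℕ) (lam : ℝ) (A : FF) : ℕ → FF
  | 0 => A
  | j + 1 => FF.next d lam (FF.iter d lam A j)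

/-- a good family: nonnegative, total one, invariant -/
structure FF.Good (A : FF) : Prop where
  nonneg : ∀ i, 0 ≤ A.F i
  total : ∑ i, A.F i = 1
  inv : FamInv A.F

theorem famInv_chan {ι : Type*} [Fintype ι] {F : ι → Vec} (lam : ℝ) (h : FamInv F) :
    FamInv (fun i => chanV lam (F i)) := by
  intro σ H
  have := h σ (fun v => H (chanV lam v))
  unfold val at this ⊢
  simp only [← chanV_perm]
  exact this

theorem sum_chan {ι : Type*} [Fintype ι] {F : ι → Vec} (lam : ℝ) (h : ∑ i, F i = 1) :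
    ∑ i, chanV lam (F i) = 1 := by
  have e : ∀ s, chanV lam (F s) = chanL lam (F s) := fun _ => rfl
  simp only [e]
  rw [← map_sum, h]
  exact chanV_one lam

theorem FF.next_good {d : ℕ} {lam : ℝ} (h0 : -(1 / 2) ≤ lam) (h1 : lam ≤ 1) {A : FF} (hA : A.Good) :
    (FF.next d lam A).Good := by
  classical
  refine ⟨?_, ?_, ?_⟩
  · exact powFam_nonneg (fun i => chanV_nonneg h0 h1 (hA.nonneg i)) d
  · exact sum_powFam_of (sum_chan lam hA.total) d
  · exact famInv_powFam (famInv_chan lam hA.inv) d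

theorem FF.iter_good {d : ℕ} {lam : ℝ} (h0 : -(1 / 2) ≤ lam) (h1 : lam ≤ 1) {A : FF} (hA : A.Good)
    (j : ℕ) : (FF.iter d lam A j).Good := by
  induction j with
  | zero => exact hA
  | succ j ih => exact FF.next_good h0 h1 ih

theorem FF.iter_famEx {d : ℕ} {lam : ℝ} (h0 : -(1 / 2) ≤ lam) (h1 : lam ≤ 1) {A : FF} (hA : A.Good)
    (j : ℕ) (f : Fn3) : famEx (FF.iter d lam A j).F f = tailIter d lam (famEx A.F) j f := by
  classical
  induction j generalizing f with
  | zero => rfl
  | succ j ih =>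
    have hg := FF.iter_good (d := d) h0 h1 hA j
    have e1 : famEx (FF.iter d lam A (j + 1)).F f
        = famEx (powFam (fun i => chanV lam ((FF.iter d lam A j).F i)) d) f := rfl
    rw [e1, famEx_pow (fun i => chanV_nonneg h0 h1 (hg.nonneg i))]
    have e2 : famEx (fun i => chanV lam ((FF.iter d lam A j).F i))
        = chan lam (tailIter d lam (famEx A.F) j) := by
      funext g
      rw [famEx_chan]
      show famEx (FF.iter d lam A j).F _ = tailIter d lam (famEx A.F) j _
      exact ih _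
    rw [e2]
    rfl

/-- The domination propagates. -/
theorem FF.iter_dom {d N : ℕ} {lam : ℝ} (h0 : -(1 / 2) ≤ lam) (h1 : lam ≤ 1) {A : FF} (hA : A.Good)
    (hdom : ∀ G, Sublin G → Symm G → val (Xv d lam N) G ≤ val A.F G) (j : ℕ) :
    ∀ G, Sublin G → Symm G → val (Xv d lam (N + j)) G ≤ val (FF.iter d lam A j).F G := by
  classical
  induction j with
  | zero => exact hdom
  | succ j ih =>
    intro G hG hS
    have hg := FF.iter_good (d := d) h0 h1 hA j
    have e1 : val (Xv d lam (N + (j + 1))) G = val (powFam (Mv d lam (N + j)) d) G :=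
      val_Xv_succ d lam (N + j) G
    have e2 : val (FF.iter d lam A (j + 1)).F G
        = val (powFam (fun i => chanV lam ((FF.iter d lam A j).F i)) d) G := rfl
    rw [e1, e2]
    have hMv : ∀ G', NSub G' → val (Mv d lam (N + j)) G'
        ≤ val (fun i => chanV lam ((FF.iter d lam A j).F i)) G' := by
      apply dom_of_symm (famInv_Mv (N + j))
        (Φ := val (fun i => chanV lam ((FF.iter d lam A j).F i)))
      · intro H _
        exact val_symAvg_of_famInv (famInv_chan lam hg.inv) H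
      · intro G' hG' hS'
        have hsub : Sublin (fun v => G' (chanL lam v)) :=
          hG'.toSublin.comp_linear (chanL lam) fun v hv => chanV_nonneg h0 h1 hv
        have hsym : Symm (fun v => G' (chanV lam v)) := by
          intro σ v
          show G' (chanV lam (v ∘ σ)) = G' (chanV lam v)
          rw [chanV_perm]
          exact hS' σ _
        exact ih _ hsub hsym
    have hM := val_powFam_mono (fun s => Mv_nonneg h0 h1 (N + j) s)
      (fun i => chanV_nonneg h0 h1 (hg.nonneg i)) hMv d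
    have hle := val_le_of_nsub (F := powFam (Mv d lam (N + j)) d)
      (E := powFam (fun i => chanV lam ((FF.iter d lam A j).F i)) d) (m := 1)
      (powFam_nonneg (fun s => Mv_nonneg h0 h1 (N + j) s) d)
      (powFam_nonneg (fun i => chanV_nonneg h0 h1 (hg.nonneg i)) d)
      (sum_powFam_of (Mv_sum (N + j)) d)
      (fun k => by
        have := sum_powFam_of (sum_chan lam hg.total) d
        rw [← Finset.sum_apply, this]
        rfl)
      (fun G' hG' _ => hM G' hG') G hG hS
    simpa using hle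

/-- The end of the proof for a given `(d, lam)`: a family dominating the posteriors at some depth,
for the eigenvalue `lam0`, with moments in the class of the tail, gives nonreconstruction at every
`lam` between `lam0` and `0` with `d lam^2 <= 1`. -/
theorem tendsto_of_handoff {d N : ℕ} (hd : 1 ≤ d) {lam0 lam : ℝ} (h00 : -(1 / 2) ≤ lam0) (h01 : lam0 ≤ lam)
    (h02 : lam ≤ 0) (hKS : (d : ℝ) * lam ^ 2 ≤ 1) {A : FF} (hA : A.Good)
    (hdom : ∀ G, Sublin G → Symm G → val (Xv d lam0 N) G ≤ val A.F G)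
    {M0 lb kap bp bm c : ℚ} (hc : 0 < c) (hM0 : 0 < M0)
    (hlb : 0 ≤ lb) (hk : 0 ≤ kap) (hbp : 0 ≤ bp) (hbm : 0 ≤ bm) (hM01 : M0 ≤ 1 / 10)
    (hcM : c * M0 ≤ 1) (hlam : -(lb : ℝ) ≤ lam)
    (hchk : Env.check d M0 lb kap bp bm c = true)
    (hcl : InClass kap bp bm (famEx A.F) M0) :
    Tendsto (reconError d 3 lam) atTop (𝓝 0) := by
  have hl0 : -(1 / 2) ≤ lam := h00.trans h01
  have hl1 : lam ≤ 1 := by linarith
  have hdom' : ∀ G, Sublin G → Symm G → val (Xv d lam N) G ≤ val A.F G := fun G hG hs =>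
    (val_Xv_mono_lam h00 h01 h02 N G hG hs).trans (hdom G hG hs)
  have hE0 : SymExp (famEx A.F) Simp := famEx_symExp hA.nonneg hA.total hA.inv
  have hT := tail_tendsto hd hc hM0 hlb hk hbp hbm hM01 hcM hchk hl0 h02 hlam hKS hE0 hcl
  have hbound : ∀ j, reconError d 3 lam (N + j)
      ≤ tailIter d lam (famEx A.F) j (fun a b c => 1 / 2 * (|a - 1 / 3| + |b - 1 / 3| + |c - 1 / 3|)) := by
    intro j
    rw [reconError_eq_val hl0 hl1, ← FF.iter_famEx hl0 hl1 hA j,
      ← val_Gabs (FF.iter_good hl0 hl1 hA j).nonneg]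
    exact FF.iter_dom hl0 hl1 hA hdom' j Gabs Gabs_sublin Gabs_symm
  have hnn : ∀ n, 0 ≤ reconError d 3 lam n := by
    intro n
    rw [reconError_eq_val hl0 hl1]
    refine Finset.sum_nonneg fun s _ => ?_
    unfold Gabs
    positivity
  have hSym := tailIter_symExp (d := d) hl0 h02 hE0
  rw [Metric.tendsto_atTop] at hT ⊢
  intro ε hε
  set e := ε / 4 with he
  have hepos : 0 < e := by positivity
  obtain ⟨J, hJ⟩ := hT (8 * e * e) (by positivity)
  refine ⟨N + J, fun n hn => ?_⟩
  obtain ⟨j, rfl⟩ := Nat.exists_eq_add_of_le (le_trans (Nat.le_add_right N J) hn)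
  have hjJ : J ≤ j := by omega
  have hb := hJ j hjJ
  rw [Real.dist_eq, sub_zero] at hb ⊢
  rw [abs_of_nonneg (hnn _)]
  have hp := hSym j
  have hI : tailIter d lam (famEx A.F) j I2 < 8 * e * e := (abs_lt.mp hb).2
  have hle := hp.mono (f := fun a b c => 1 / 2 * (|a - 1 / 3| + |b - 1 / 3| + |c - 1 / 3|))
    (g := fun a b c => 3 / 2 * e + 1 / (8 * e) * I2 a b c)
    (fun a b c _ => abs_bound (a := a) (b := b) (c := c) hepos)
  have e1 := hp.add (fun _ _ _ => 3 / 2 * e) (fun a b c => 1 / (8 * e) * I2 a b c)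
  have e2 := hp.smul (1 / (8 * e)) I2
  have e3 := hp.const (3 / 2 * e)
  rw [e1, e2, e3] at hle
  have h8 : 1 / (8 * e) * tailIter d lam (famEx A.F) j I2 < e := by
    rw [div_mul_eq_mul_div, one_mul, div_lt_iff₀ (by positivity)]
    linarith
  have := hbound j
  have he3 : ε = 4 * e := by rw [he]; ring
  linarith

end Vale.Agent.Lib.P154.Chain
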