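import Vale.Agent.Lib.P154.Chain.Step
import Vale.Agent.Lib.P154.Chain.Tail

/-!
The hand-off: from the invariant of the chain to a family with small moments.
-/

namespace Vale.Agent.Lib.P154.Chain

open scoped BigOperators
open Vale.Agent.Lib.P154

/-- the family at the hand-off: the listed cells with all their images, the rest at the vertices -/
noncomputable def handFam (g : GP) (l : LP) (xs : List (XL × ℕ)) : FF where
  ι := (Fin xs.length × Equiv.Perm (Fin 3)) ⊕ Fin 3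
  fin := inferInstance
  F := fun i => match i with
    | Sum.inl (k, σ) =>
        (((orbN (xs.get k).1.n0 (xs.get k).1.n1 (xs.get k).1.n2 * (xs.get k).2 : ℕ) : ℝ) / 6
          * ((2 : ℝ) ^ g.bw)⁻¹) • (xRay g l (xs.get k).1 ∘ σ)
    | Sum.inr j => (1 - ListMass g l xs []) • Pi.single j 1

/-- the fold of the moments over a list of leaves with their digits -/
noncomputable def accList (g : GP) (l : LP) (Hm : ℕ) (xs : List (XL × ℕ)) (A : Acc) : Acc :=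
  xs.foldl (fun A x =>
    accStep Hm (dlt l) (Nat.mul (orbN x.1.n0 x.1.n1 x.1.n2) x.2)
      (pw l.ra l.rb l.K x.1.n0 (Nat.mul g.d l.O)) (pw l.ra l.rb l.K x.1.n1 (Nat.mul g.d l.O))
      (pw l.ra l.rb l.K x.1.n2 (Nat.mul g.d l.O)) A) A

theorem forceAcc_eq (A : Acc) (k : Acc → Bool) : forceAcc A k = k A := by
  unfold forceAcc
  simp only [seqN_eq]

/-- the fold in the tree is the fold in the list -/
theorem accT_eq (g : GP) (l : LP) (Hm : ℕ) (T : XT) (pos b w : ℕ) (A : Acc) (k : Acc → Bool) :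
    accT g l Hm T w A k = k (accList g l Hm (XT.pairs g.B T pos b w) A) := by
  induction T generalizing pos b w A k with
  | nil => rfl
  | lf p1 M1 p2 M2 p3 M3 t1 q1 t2 q2 t3 q3 n0 n1 n2 =>
    show forceAcc _ k = _
    rw [forceAcc_eq]
    rfl
  | nd kk q1 q2 l' r il ir =>
    show accT g l Hm l' (w % (1 <<< kk)) A (fun A' => accT g l Hm r (w >>> kk) A' k) = _
    rw [il (pos := pos) (b := b + q1)]
    simp only [ir (pos := pos + kk) (b := b + q2)]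
    rw [XT.pairs]
    unfold accList
    rw [List.foldl_append]

/-- the meaning of the check at the hand-off -/
theorem handOK_spec {g : GP} {l : LP} {h : HP} {ops : Ops} {Tp : PT} {Tx : XT} {Tz : ZL} {st : ℕ}
    (hh : handOK g l h ops Tp Tx Tz st = true) :
    let W := (powN g.bw (maskOf g.B g.bw (LP.N g l)) (asm (2 ^ g.wd) g.u st Tp) (fT g st <<< LP.eo g l)
      ops (asm (2 ^ g.wd) g.u st Tp) (fT g st <<< LP.eo g l)).1
    sumZ (2 ^ g.wd) g.u st Tz 0 + fT g st <<< g.H ≤ 2 ^ (g.bw + g.H)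
      ∧ keptOf g.d (sumZ (2 ^ g.wd) g.u st Tz 0) (fT g st <<< g.H) ≤ 2 ^ (g.d * (g.bw + g.H))
      ∧ accOK g h (accList g l h.Hm (XT.pairs g.B Tx 0 0 W) ⟨0, 0, 0, 0, 0, 0, 0⟩) = true := by
  intro W
  unfold handOK at hh
  simp only [seqN_eq, band_eq_true] at hh
  obtain ⟨h1, h2, h3⟩ := hh
  rw [goPow_eq, accT_eq g l h.Hm Tx 0 0] at h3
  have a1 := Nat.le_of_ble_eq_true h1
  have a2 := Nat.le_of_ble_eq_true h2
  have e1 : Nat.shiftLeft 1 (Nat.add g.bw g.H) = 2 ^ (g.bw + g.H) := by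
    show 1 <<< (g.bw + g.H) = _
    exact Nat.one_shiftLeft _
  have e2 : Nat.shiftLeft 1 (Nat.mul g.d (Nat.add g.bw g.H)) = 2 ^ (g.d * (g.bw + g.H)) := by
    show 1 <<< (g.d * (g.bw + g.H)) = _
    exact Nat.one_shiftLeft _
  rw [e1] at a1
  rw [e2] at a2
  exact ⟨a1, a2, h3⟩

/-! ### The family -/

private lemma val_handFam (g : GP) (l : LP) (xs : List (XL × ℕ)) (H : Vec → ℝ) :
    val (handFam g l xs).F H =
      ∑ k : Fin xs.length, ∑ σ : Equiv.Perm (Fin 3),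
        H ((((orbN (xs.get k).1.n0 (xs.get k).1.n1 (xs.get k).1.n2 * (xs.get k).2 : ℕ) : ℝ) / 6
          * ((2 : ℝ) ^ g.bw)⁻¹) • (xRay g l (xs.get k).1 ∘ σ))
      + ∑ j : Fin 3, H ((1 - ListMass g l xs []) • Pi.single j 1) := by
  show ∑ i : (Fin xs.length × Equiv.Perm (Fin 3)) ⊕ Fin 3, H ((handFam g l xs).F i) = _
  rw [Fintype.sum_sum_type, Fintype.sum_prod_type]
  rfl

private lemma sum_get {α : Type*} (xs : List α) (φ : α → ℝ) :
    ∑ k : Fin xs.length, φ (xs.get k) = (xs.map φ).sum := by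
  rw [← List.sum_ofFn]
  congr 1
  conv_rhs => rw [← List.ofFn_get xs]
  rw [List.map_ofFn]
  rfl

private lemma sum_perm_coord (v : Fin 3 → ℝ) (c : Fin 3) :
    ∑ σ : Equiv.Perm (Fin 3), v (σ c) = 2 * (v 0 + v 1 + v 2) := by
  have h2 : ∀ i j : Fin 3,
      (Finset.univ.filter (fun σ : Equiv.Perm (Fin 3) => σ i = j)).card = 2 := by decide
  rw [← Finset.sum_fiberwise Finset.univ (fun σ : Equiv.Perm (Fin 3) => σ c)]
  have hj : ∀ j : Fin 3, ∑ σ ∈ Finset.univ.filter (fun σ : Equiv.Perm (Fin 3) => σ c = j), v (σ c)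
      = 2 * v j := by
    intro j
    rw [Finset.sum_congr rfl (g := fun _ => v j)]
    · rw [Finset.sum_const, h2, nsmul_eq_mul]
      norm_num
    · intro σ hσ
      rw [(Finset.mem_filter.mp hσ).2]
  simp only [hj, Fin.sum_univ_three]
  ring

private lemma xRay_nonneg {g : GP} {l : LP} (hl : latOK g l = true) (a : XL) : 0 ≤ xRay g l a := by
  obtain ⟨-, -, hr, -⟩ := latOK_props hl
  exact ray_nonneg hr _

private lemma xRay_pos {g : GP} {l : LP} (hl : latOK g l = true) (a : XL) (i : Fin 3) :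
    0 < xRay g l a i := by
  obtain ⟨-, -, hr, -⟩ := latOK_props hl
  exact ray_pos hr _ _

private lemma single_comp (σ : Equiv.Perm (Fin 3)) (j : Fin 3) :
    ((Pi.single j 1 : Vec) ∘ σ) = Pi.single (σ⁻¹ j) 1 := by
  funext i
  simp only [Function.comp_apply, Pi.single_apply]
  by_cases h : σ i = j
  · have : i = σ⁻¹ j := by
      rw [← h]
      simp
    rw [if_pos h, if_pos this]
  · have : i ≠ σ⁻¹ j := by
      intro e
      apply h
      rw [e]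
      simp
    rw [if_neg h, if_neg this]

private lemma ListMass_nil (g : GP) (l : LP) (xs : List (XL × ℕ)) :
    ListMass g l xs [] = ∑ k : Fin xs.length,
      ((orbN (xs.get k).1.n0 (xs.get k).1.n1 (xs.get k).1.n2 * (xs.get k).2 : ℕ) : ℝ) / 6
          * ((2 : ℝ) ^ g.bw)⁻¹ * (2 * (xRay g l (xs.get k).1 0 + xRay g l (xs.get k).1 1
            + xRay g l (xs.get k).1 2)) := by
  unfold ListMass
  simp only [List.map_nil, List.sum_nil, add_zero]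
  rw [← sum_get xs, Finset.mul_sum]
  refine Finset.sum_congr rfl fun k _ => ?_
  ring

/-- the hand-off family is good and dominates the posteriors -/
theorem handFam_good {g : GP} {l : LP} {xs : List (XL × ℕ)} (hg : gpOK g = true) (hl : latOK g l = true)
    (hm : ListMass g l xs [] ≤ 1) : (handFam g l xs).Good := by
  refine ⟨?_, ?_, ?_⟩
  · rintro (⟨k, σ⟩ | j) c
    · show 0 ≤ (((orbN (xs.get k).1.n0 (xs.get k).1.n1 (xs.get k).1.n2 * (xs.get k).2 : ℕ) : ℝ) / 6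
          * ((2 : ℝ) ^ g.bw)⁻¹) * xRay g l (xs.get k).1 (σ c)
      exact mul_nonneg (by positivity) (xRay_nonneg hl (xs.get k).1 (σ c))
    · show 0 ≤ (1 - ListMass g l xs []) * (Pi.single j 1 : Vec) c
      apply mul_nonneg (by linarith)
      simp only [Pi.single_apply]
      split_ifs <;> norm_num
  · funext c
    have e : (∑ i, (handFam g l xs).F i) c = val (handFam g l xs).F (fun v => v c) := by
      rw [Finset.sum_apply]
      rfl
    rw [e, val_handFam]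
    have h1 : ∑ j : Fin 3, ((1 - ListMass g l xs []) • (Pi.single j 1 : Vec)) c =
        1 - ListMass g l xs [] := by
      simp only [Pi.smul_apply, smul_eq_mul, Pi.single_apply]
      rw [← Finset.mul_sum, Finset.sum_ite_eq]
      simp
    rw [h1]
    have h2 : ∑ k : Fin xs.length, ∑ σ : Equiv.Perm (Fin 3),
        ((((orbN (xs.get k).1.n0 (xs.get k).1.n1 (xs.get k).1.n2 * (xs.get k).2 : ℕ) : ℝ) / 6
          * ((2 : ℝ) ^ g.bw)⁻¹) • (xRay g l (xs.get k).1 ∘ σ)) c = ListMass g l xs [] := by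
      rw [ListMass_nil]
      refine Finset.sum_congr rfl fun k _ => ?_
      simp only [Pi.smul_apply, smul_eq_mul, Function.comp_apply]
      rw [← Finset.mul_sum, sum_perm_coord]
    rw [h2]
    show ListMass g l xs [] + (1 - ListMass g l xs []) = 1
    ring
  · intro σ H
    have e1 : val (fun i => (handFam g l xs).F i ∘ σ) H =
        ∑ i : (Fin xs.length × Equiv.Perm (Fin 3)) ⊕ Fin 3, H ((handFam g l xs).F i ∘ σ) := rfl
    rw [e1, Fintype.sum_sum_type, Fintype.sum_prod_type, val_handFam]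
    congr 1
    · refine Finset.sum_congr rfl fun k _ => ?_
      rw [← Equiv.sum_comp (Equiv.mulRight σ)
        (fun τ : Equiv.Perm (Fin 3) => H ((((orbN (xs.get k).1.n0 (xs.get k).1.n1 (xs.get k).1.n2
          * (xs.get k).2 : ℕ) : ℝ) / 6 * ((2 : ℝ) ^ g.bw)⁻¹) • (xRay g l (xs.get k).1 ∘ τ)))]
      refine Finset.sum_congr rfl fun τ _ => ?_
      rfl
    · rw [← Equiv.sum_comp (σ⁻¹ : Equiv.Perm (Fin 3))
        (fun j : Fin 3 => H ((1 - ListMass g l xs []) • (Pi.single j 1 : Vec)))]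
      refine Finset.sum_congr rfl fun j _ => ?_
      have e2 : (handFam g l xs).F (Sum.inr j) ∘ σ = (1 - ListMass g l xs []) • (Pi.single (σ⁻¹ j) 1 : Vec) := by
        show ((1 - ListMass g l xs []) • (Pi.single j 1 : Vec)) ∘ σ = _
        rw [← single_comp]
        rfl
      rw [e2]

/-- the value of the family on a symmetric sublinear test function -/
theorem val_handFam_eq {g : GP} {l : LP} {xs : List (XL × ℕ)} (hl : latOK g l = true)
    (hm : ListMass g l xs [] ≤ 1) (G : Vec → ℝ) (hG : Sublin G) (hs : Symm G) :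
    ListVal g l xs [] G + 3 * (1 - ListMass g l xs []) * G (Pi.single 0 1) = val (handFam g l xs).F G := by
  rw [val_handFam]
  have hcard : (Finset.univ : Finset (Equiv.Perm (Fin 3))).card = 6 := by decide
  have hv : ∀ i : Fin 3, G (Pi.single i 1) = G (Pi.single 0 1) := by
    intro i
    have e : (Pi.single (0 : Fin 3) 1 : Vec) ∘ (Equiv.swap i 0) = Pi.single i 1 := by
      rw [single_comp]
      congr 1
      simp
    rw [← e, hs]
  have hsingle : ∀ j : Fin 3, (0 : Vec) ≤ (Pi.single j 1 : Vec) := by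
    intro j c
    simp only [Pi.zero_apply, Pi.single_apply]
    split_ifs <;> norm_num
  have h2 : ∑ j : Fin 3, G ((1 - ListMass g l xs []) • (Pi.single j 1 : Vec)) =
      3 * (1 - ListMass g l xs []) * G (Pi.single 0 1) := by
    have : ∀ j : Fin 3, G ((1 - ListMass g l xs []) • (Pi.single j 1 : Vec)) =
        (1 - ListMass g l xs []) * G (Pi.single 0 1) := by
      intro j
      rw [hG.smul_eq _ _ (by linarith) (hsingle j), hv]
    simp only [this, Fin.sum_univ_three]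
    ring
  rw [h2]
  congr 1
  unfold ListVal
  simp only [List.map_nil, List.sum_nil, add_zero]
  rw [← sum_get xs, Finset.mul_sum]
  refine Finset.sum_congr rfl fun k _ => ?_
  have h3 : ∀ σ : Equiv.Perm (Fin 3),
      G ((((orbN (xs.get k).1.n0 (xs.get k).1.n1 (xs.get k).1.n2 * (xs.get k).2 : ℕ) : ℝ) / 6
          * ((2 : ℝ) ^ g.bw)⁻¹) • (xRay g l (xs.get k).1 ∘ σ)) =
        ((orbN (xs.get k).1.n0 (xs.get k).1.n1 (xs.get k).1.n2 * (xs.get k).2 : ℕ) : ℝ) / 6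
          * ((2 : ℝ) ^ g.bw)⁻¹ * G (xRay g l (xs.get k).1) := by
    intro σ
    rw [hG.smul_eq _ _ (by positivity), hs]
    intro c
    exact xRay_nonneg hl _ (σ c)
  simp only [h3, Finset.sum_const, hcard, nsmul_eq_mul]
  push_cast
  ring

theorem handFam_dom {g : GP} {l : LP} {n : ℕ} {xs : List (XL × ℕ)}
    (hg : gpOK g = true) (hl : latOK g l = true) (hm : ListMass g l xs [] ≤ 1)
    (h : ∀ G, NSub G → Symm G → val (Xv g.d (lamOf g) (n + 1)) G ≤ ListVal g l xs [] G)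
    (G : Vec → ℝ) (hG : Sublin G) (hs : Symm G) :
    val (Xv g.d (lamOf g) (n + 1)) G ≤ val (handFam g l xs).F G := by
  refine (xlevel_sublin hg hl h G hG hs).trans (le_of_eq ?_)
  rw [val_handFam]
  have hcard : (Finset.univ : Finset (Equiv.Perm (Fin 3))).card = 6 := by decide
  have hv : ∀ i : Fin 3, G (Pi.single i 1) = G (Pi.single 0 1) := by
    intro i
    have e : (Pi.single (0 : Fin 3) 1 : Vec) ∘ (Equiv.swap i 0) = Pi.single i 1 := by
      rw [single_comp]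
      congr 1
      simp
    rw [← e, hs]
  have hsingle : ∀ j : Fin 3, (0 : Vec) ≤ (Pi.single j 1 : Vec) := by
    intro j c
    simp only [Pi.zero_apply, Pi.single_apply]
    split_ifs <;> norm_num
  have h2 : ∑ j : Fin 3, G ((1 - ListMass g l xs []) • (Pi.single j 1 : Vec)) =
      3 * (1 - ListMass g l xs []) * G (Pi.single 0 1) := by
    have : ∀ j : Fin 3, G ((1 - ListMass g l xs []) • (Pi.single j 1 : Vec)) =
        (1 - ListMass g l xs []) * G (Pi.single 0 1) := by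
      intro j
      rw [hG.smul_eq _ _ (by linarith) (hsingle j), hv]
    simp only [this, Fin.sum_univ_three]
    ring
  rw [h2]
  congr 1
  unfold ListVal
  simp only [List.map_nil, List.sum_nil, add_zero]
  rw [← sum_get xs, Finset.mul_sum]
  refine Finset.sum_congr rfl fun k _ => ?_
  have h3 : ∀ σ : Equiv.Perm (Fin 3),
      G ((((orbN (xs.get k).1.n0 (xs.get k).1.n1 (xs.get k).1.n2 * (xs.get k).2 : ℕ) : ℝ) / 6
          * ((2 : ℝ) ^ g.bw)⁻¹) • (xRay g l (xs.get k).1 ∘ σ)) =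
        ((orbN (xs.get k).1.n0 (xs.get k).1.n1 (xs.get k).1.n2 * (xs.get k).2 : ℕ) : ℝ) / 6
          * ((2 : ℝ) ^ g.bw)⁻¹ * G (xRay g l (xs.get k).1) := by
    intro σ
    rw [hG.smul_eq _ _ (by positivity), hs]
    intro c
    exact xRay_nonneg hl _ (σ c)
  simp only [h3, Finset.sum_const, hcard, nsmul_eq_mul]
  push_cast
  ring

/-! ### Moments of the family -/

private lemma famH_smul (f : Fn3) {t : ℝ} (ht : 0 ≤ t) (v : Vec) : famH f (t • v) = t * famH f v := by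
  rcases ht.eq_or_lt with h | h
  · rw [← h]
    simp [famH]
  · unfold famH
    simp only [Pi.smul_apply, smul_eq_mul]
    have e : t * v 0 + t * v 1 + t * v 2 = t * (v 0 + v 1 + v 2) := by ring
    rw [e, mul_div_mul_left _ _ h.ne', mul_div_mul_left _ _ h.ne', mul_div_mul_left _ _ h.ne']
    ring

private lemma famH_perm {f : Fn3} (hs : ∀ a b c, f b a c = f a b c) (hc : ∀ a b c, f b c a = f a b c)
    (σ : Equiv.Perm (Fin 3)) (v : Vec) : famH f (v ∘ σ) = famH f v := by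
  have key : ∀ σ : Equiv.Perm (Fin 3), (σ 0 = 0 ∧ σ 1 = 1 ∧ σ 2 = 2) ∨ (σ 0 = 1 ∧ σ 1 = 0 ∧ σ 2 = 2)
      ∨ (σ 0 = 0 ∧ σ 1 = 2 ∧ σ 2 = 1) ∨ (σ 0 = 2 ∧ σ 1 = 1 ∧ σ 2 = 0)
      ∨ (σ 0 = 1 ∧ σ 1 = 2 ∧ σ 2 = 0) ∨ (σ 0 = 2 ∧ σ 1 = 0 ∧ σ 2 = 1) := by decide
  unfold famH
  simp only [Function.comp_apply]
  rcases key σ with ⟨h0, h1, h2⟩ | ⟨h0, h1, h2⟩ | ⟨h0, h1, h2⟩ | ⟨h0, h1, h2⟩ | ⟨h0, h1, h2⟩ | ⟨h0, h1, h2⟩
  · rw [h0, h1, h2]
  · rw [h0, h1, h2]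
    have e : v 1 + v 0 + v 2 = v 0 + v 1 + v 2 := by ring
    rw [e, hs]
  · rw [h0, h1, h2]
    have e : v 0 + v 2 + v 1 = v 0 + v 1 + v 2 := by ring
    rw [e]
    congr 1
    generalize v 0 / (v 0 + v 1 + v 2) = a
    generalize v 1 / (v 0 + v 1 + v 2) = b
    generalize v 2 / (v 0 + v 1 + v 2) = c
    rw [hs c a b, hc b c a, hc a b c]
  · rw [h0, h1, h2]
    have e : v 2 + v 1 + v 0 = v 0 + v 1 + v 2 := by ring
    rw [e]
    congr 1
    generalize v 0 / (v 0 + v 1 + v 2) = a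
    generalize v 1 / (v 0 + v 1 + v 2) = b
    generalize v 2 / (v 0 + v 1 + v 2) = c
    rw [hs b c a, hc a b c]
  · rw [h0, h1, h2]
    have e : v 1 + v 2 + v 0 = v 0 + v 1 + v 2 := by ring
    rw [e, hc]
  · rw [h0, h1, h2]
    have e : v 2 + v 0 + v 1 = v 0 + v 1 + v 2 := by ring
    rw [e]
    congr 1
    generalize v 0 / (v 0 + v 1 + v 2) = a
    generalize v 1 / (v 0 + v 1 + v 2) = b
    generalize v 2 / (v 0 + v 1 + v 2) = c
    rw [hc b c a, hc a b c]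

theorem famEx_hand {g : GP} {l : LP} {xs : List (XL × ℕ)} (hl : latOK g l = true)
    (hm : ListMass g l xs [] ≤ 1) {f : Fn3} (hs : ∀ a b c, f b a c = f a b c)
    (hc : ∀ a b c, f b c a = f a b c) :
    famEx (handFam g l xs).F f = ((2 : ℝ) ^ g.bw)⁻¹ *
        (xs.map (fun x => ((orbN x.1.n0 x.1.n1 x.1.n2 * x.2 : ℕ) : ℝ) * famH f (xRay g l x.1))).sum
      + (1 - ListMass g l xs []) * f 1 0 0 := by
  rw [famEx_eq_val, val_handFam]
  have hcard : (Finset.univ : Finset (Equiv.Perm (Fin 3))).card = 6 := by decide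
  congr 1
  · rw [← sum_get xs, Finset.mul_sum]
    refine Finset.sum_congr rfl fun k _ => ?_
    have h3 : ∀ σ : Equiv.Perm (Fin 3),
        famH f ((((orbN (xs.get k).1.n0 (xs.get k).1.n1 (xs.get k).1.n2 * (xs.get k).2 : ℕ) : ℝ) / 6
            * ((2 : ℝ) ^ g.bw)⁻¹) • (xRay g l (xs.get k).1 ∘ σ)) =
          ((orbN (xs.get k).1.n0 (xs.get k).1.n1 (xs.get k).1.n2 * (xs.get k).2 : ℕ) : ℝ) / 6
            * ((2 : ℝ) ^ g.bw)⁻¹ * famH f (xRay g l (xs.get k).1) := by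
      intro σ
      rw [famH_smul f (by positivity), famH_perm hs hc]
    simp only [h3, Finset.sum_const, hcard, nsmul_eq_mul]
    push_cast
    ring
  · have hv : ∀ j : Fin 3, famH f ((1 - ListMass g l xs []) • (Pi.single j 1 : Vec)) =
        (1 - ListMass g l xs []) * (1 / 3 * f 1 0 0) := by
      intro j
      rw [famH_smul f (by linarith)]
      congr 1
      have e : (Pi.single (0 : Fin 3) 1 : Vec) ∘ (Equiv.swap j 0) = Pi.single j 1 := by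
        rw [single_comp]
        congr 1
        simp
      rw [← e, famH_perm hs hc]
      unfold famH
      have e0 : (Pi.single (0 : Fin 3) 1 : Vec) 0 = 1 := by simp
      have e1 : (Pi.single (0 : Fin 3) 1 : Vec) 1 = 0 := by simp
      have e2 : (Pi.single (0 : Fin 3) 1 : Vec) 2 = 0 := by simp
      rw [e0, e1, e2]
      norm_num
    simp only [hv, Fin.sum_univ_three]
    ring

theorem cdiv_ge (a b : ℕ) (hb : 0 < b) : (a : ℝ) / b ≤ (cdiv a b : ℝ) := by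
  have hb' : (0 : ℝ) < b := by exact_mod_cast hb
  rw [div_le_iff₀ hb']
  unfold cdiv
  have h1 := Nat.div_add_mod (a + b - 1) b
  have h2 := Nat.mod_lt (a + b - 1) hb
  have h3 : a ≤ (a + b - 1) / b * b := by
    have : b * ((a + b - 1) / b) = (a + b - 1) / b * b := Nat.mul_comm _ _
    omega
  exact_mod_cast h3

private lemma famH_I2 {v : Vec} {a b c D : ℝ} (ha : 0 < a) (hb : 0 < b) (hc : 0 < c) (hD : 0 < D)
    (h0 : v 0 = a / D) (h1 : v 1 = b / D) (h2 : v 2 = c / D) :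
    famH I2 v = (3 * (a ^ 2 + b ^ 2 + c ^ 2) - (a + b + c) ^ 2) / (9 * (a + b + c) * D) := by
  unfold famH I2
  rw [h0, h1, h2]
  have hS : a + b + c ≠ 0 := by positivity
  have hSD : a / D + b / D + c / D = (a + b + c) / D := by ring
  rw [hSD]
  field_simp
  ring

private lemma famH_I2sq {v : Vec} {a b c D : ℝ} (ha : 0 < a) (hb : 0 < b) (hc : 0 < c) (hD : 0 < D)
    (h0 : v 0 = a / D) (h1 : v 1 = b / D) (h2 : v 2 = c / D) :
    famH I2sq v = (3 * (a ^ 2 + b ^ 2 + c ^ 2) - (a + b + c) ^ 2) ^ 2 / (27 * D * (a + b + c) ^ 3) := by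
  unfold famH I2sq I2
  rw [h0, h1, h2]
  have hS : a + b + c ≠ 0 := by positivity
  have hSD : a / D + b / D + c / D = (a + b + c) / D := by ring
  rw [hSD]
  field_simp
  ring

private lemma famH_I3 {v : Vec} {a b c D : ℝ} (ha : 0 < a) (hb : 0 < b) (hc : 0 < c) (hD : 0 < D)
    (h0 : v 0 = a / D) (h1 : v 1 = b / D) (h2 : v 2 = c / D) :
    famH I3 v = (9 * (a ^ 3 + b ^ 3 + c ^ 3) + 2 * (a + b + c) ^ 3) / (27 * D * (a + b + c) ^ 2)
      - (9 * (a ^ 2 + b ^ 2 + c ^ 2) * (a + b + c)) / (27 * D * (a + b + c) ^ 2) := by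
  unfold famH I3
  rw [h0, h1, h2]
  have hS : a + b + c ≠ 0 := by positivity
  have hSD : a / D + b / D + c / D = (a + b + c) / D := by ring
  rw [hSD]
  field_simp
  ring

/-- the bounds that a step of the accumulators gives -/
structure AccB (Y s2 s4 s3 sm : ℝ) (A B : Acc) : Prop where
  mu : Y * s2 ≤ (B.mu : ℝ) - A.mu
  qu : Y * s4 ≤ (B.qu : ℝ) - A.qu
  up : Y * s3 ≤ ((B.aP : ℝ) - A.aP) - ((B.aM : ℝ) - A.aM)
  lo : ((B.bP : ℝ) - A.bP) - ((B.bM : ℝ) - A.bM) ≤ Y * s3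
  ml : (B.ml : ℝ) - A.ml ≤ Y * sm

theorem accStep_bounds (Hm D c v0 v1 v2 : ℕ) (A : Acc) (h0 : 0 < v0) (h1 : 0 < v1) (h2 : 0 < v2)
    (hD : 0 < D) {v : Vec} (e0 : v 0 = (v0 : ℝ) / D) (e1 : v 1 = (v1 : ℝ) / D) (e2 : v 2 = (v2 : ℝ) / D) :
    AccB ((2 : ℝ) ^ Hm) ((c : ℝ) * famH I2 v) ((c : ℝ) * famH I2sq v) ((c : ℝ) * famH I3 v)
      ((c : ℝ) * ((v 0 + v 1 + v 2) / 3)) A (accStep Hm D c v0 v1 v2 A) := by
  have a0 : (0 : ℝ) < v0 := by exact_mod_cast h0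
  have a1 : (0 : ℝ) < v1 := by exact_mod_cast h1
  have a2 : (0 : ℝ) < v2 := by exact_mod_cast h2
  have aD : (0 : ℝ) < D := by exact_mod_cast hD
  have cc : (0 : ℝ) ≤ c := Nat.cast_nonneg _
  set S : ℕ := v0 + v1 + v2 with hS
  set Q2 : ℕ := v0 ^ 2 + v1 ^ 2 + v2 ^ 2 with hQ2
  set Q3 : ℕ := v0 ^ 3 + v1 ^ 3 + v2 ^ 3 with hQ3
  have hSpos : 0 < S := by omega
  have aS : (0 : ℝ) < S := by exact_mod_cast hSpos
  have eS : (S : ℝ) = (v0 : ℝ) + v1 + v2 := by rw [hS]; push_cast; ring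
  have eQ2 : (Q2 : ℝ) = (v0 : ℝ) ^ 2 + (v1 : ℝ) ^ 2 + (v2 : ℝ) ^ 2 := by rw [hQ2]; push_cast; ring
  have eQ3 : (Q3 : ℝ) = (v0 : ℝ) ^ 3 + (v1 : ℝ) ^ 3 + (v2 : ℝ) ^ 3 := by rw [hQ3]; push_cast; ring
  have hT : S ^ 2 ≤ 3 * Q2 := by
    have : ((S ^ 2 : ℕ) : ℝ) ≤ ((3 * Q2 : ℕ) : ℝ) := by
      push_cast
      rw [eS, eQ2]
      nlinarith [sq_nonneg ((v0 : ℝ) - v1), sq_nonneg ((v1 : ℝ) - v2), sq_nonneg ((v0 : ℝ) - v2)]
    exact_mod_cast this
  set T2 : ℕ := 3 * Q2 - S ^ 2 with hT2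
  have eT2 : (T2 : ℝ) = 3 * (Q2 : ℝ) - (S : ℝ) ^ 2 := by
    rw [hT2, Nat.cast_sub hT]
    push_cast
    ring
  set Y : ℕ := 2 ^ Hm with hY
  have eY : (Y : ℝ) = (2 : ℝ) ^ Hm := by rw [hY]; push_cast; ring
  set Np : ℕ := 9 * Q3 + 2 * S ^ 3 with hNp
  set Nm : ℕ := 9 * Q2 * S with hNm
  set den3 : ℕ := 27 * D * S ^ 2 with hden
  have hden0 : 0 < den3 := by positivity
  have eden : (den3 : ℝ) = 27 * (D : ℝ) * (S : ℝ) ^ 2 := by rw [hden]; push_cast; ring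
  have eNp : (Np : ℝ) = 9 * (Q3 : ℝ) + 2 * (S : ℝ) ^ 3 := by rw [hNp]; push_cast; ring
  have eNm : (Nm : ℝ) = 9 * (Q2 : ℝ) * (S : ℝ) := by rw [hNm]; push_cast; ring
  have hI2 : famH I2 v = (T2 : ℝ) / (9 * (S : ℝ) * D) := by
    rw [famH_I2 a0 a1 a2 aD e0 e1 e2, eT2, eS, eQ2]
  have hI2sq : famH I2sq v = (T2 : ℝ) ^ 2 / (27 * (D : ℝ) * (S : ℝ) ^ 3) := by
    rw [famH_I2sq a0 a1 a2 aD e0 e1 e2, eT2, eS, eQ2]
  have hI3 : famH I3 v = (Np : ℝ) / den3 - (Nm : ℝ) / den3 := by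
    rw [famH_I3 a0 a1 a2 aD e0 e1 e2, eden, eNp, eNm, eS, eQ2, eQ3]
  have hmass : (v 0 + v 1 + v 2) / 3 = (S : ℝ) / (3 * D) := by
    rw [e0, e1, e2, eS]
    field_simp
  have c1 : (Y * Np : ℝ) / den3 ≤ (cdiv (Y * Np) den3 : ℝ) := by
    have := cdiv_ge (Y * Np) den3 hden0
    push_cast at this
    exact this
  have c2 : (Y * Nm : ℝ) / den3 ≤ (cdiv (Y * Nm) den3 : ℝ) := by
    have := cdiv_ge (Y * Nm) den3 hden0
    push_cast at this
    exact this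
  have f1 : (((Y * Np) / den3 : ℕ) : ℝ) ≤ (Y * Np : ℝ) / den3 := by
    have := Nat.cast_div_le (α := ℝ) (m := Y * Np) (n := den3)
    push_cast at this
    exact this
  have f2 : (((Y * Nm) / den3 : ℕ) : ℝ) ≤ (Y * Nm : ℝ) / den3 := by
    have := Nat.cast_div_le (α := ℝ) (m := Y * Nm) (n := den3)
    push_cast at this
    exact this
  refine ⟨?_, ?_, ?_, ?_, ?_⟩
  · show _ ≤ ((A.mu + c * cdiv (Y * T2) (9 * S * D) : ℕ) : ℝ) - A.mu
    have := cdiv_ge (Y * T2) (9 * S * D) (by positivity)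
    push_cast at this ⊢
    rw [hI2, ← eY]
    have e : (Y : ℝ) * ((c : ℝ) * ((T2 : ℝ) / (9 * (S : ℝ) * D))) =
        (c : ℝ) * ((Y : ℝ) * T2 / (9 * (S : ℝ) * D)) := by ring
    rw [e]
    have := mul_le_mul_of_nonneg_left this cc
    linarith
  · show _ ≤ ((A.qu + c * cdiv (Y * T2 ^ 2) (27 * D * S ^ 3) : ℕ) : ℝ) - A.qu
    have := cdiv_ge (Y * T2 ^ 2) (27 * D * S ^ 3) (by positivity)
    push_cast at this ⊢
    rw [hI2sq, ← eY]
    have e : (Y : ℝ) * ((c : ℝ) * ((T2 : ℝ) ^ 2 / (27 * (D : ℝ) * (S : ℝ) ^ 3))) =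
        (c : ℝ) * ((Y : ℝ) * (T2 : ℝ) ^ 2 / (27 * (D : ℝ) * (S : ℝ) ^ 3)) := by ring
    rw [e]
    have := mul_le_mul_of_nonneg_left this cc
    linarith
  · show _ ≤ (((A.aP + c * cdiv (Y * Np) den3 : ℕ) : ℝ) - A.aP)
      - (((A.aM + c * ((Y * Nm) / den3) : ℕ) : ℝ) - A.aM)
    rw [hI3, ← eY]
    have e : (Y : ℝ) * ((c : ℝ) * ((Np : ℝ) / den3 - (Nm : ℝ) / den3)) =
        (c : ℝ) * ((Y * Np : ℝ) / den3) - (c : ℝ) * ((Y * Nm : ℝ) / den3) := by ring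
    rw [e]
    have t1 := mul_le_mul_of_nonneg_left c1 cc
    have t2 := mul_le_mul_of_nonneg_left f2 cc
    rw [Nat.cast_add A.aP, Nat.cast_add A.aM, Nat.cast_mul c, Nat.cast_mul c]
    linarith
  · show (((A.bP + c * ((Y * Np) / den3) : ℕ) : ℝ) - A.bP)
      - (((A.bM + c * cdiv (Y * Nm) den3 : ℕ) : ℝ) - A.bM) ≤ _
    rw [hI3, ← eY]
    have e : (Y : ℝ) * ((c : ℝ) * ((Np : ℝ) / den3 - (Nm : ℝ) / den3)) =
        (c : ℝ) * ((Y * Np : ℝ) / den3) - (c : ℝ) * ((Y * Nm : ℝ) / den3) := by ring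
    rw [e]
    have t1 := mul_le_mul_of_nonneg_left f1 cc
    have t2 := mul_le_mul_of_nonneg_left c2 cc
    rw [Nat.cast_add A.bP, Nat.cast_add A.bM, Nat.cast_mul c, Nat.cast_mul c]
    linarith
  · show ((A.ml + c * ((Y * S) / (3 * D)) : ℕ) : ℝ) - A.ml ≤ _
    rw [hmass, ← eY]
    have f3 : (((Y * S) / (3 * D) : ℕ) : ℝ) ≤ (Y * S : ℝ) / (3 * D) := by
      have := Nat.cast_div_le (α := ℝ) (m := Y * S) (n := 3 * D)
      push_cast at this
      exact this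
    have t1 := mul_le_mul_of_nonneg_left f3 cc
    have e : (Y : ℝ) * ((c : ℝ) * ((S : ℝ) / (3 * D))) = (c : ℝ) * ((Y * S : ℝ) / (3 * D)) := by ring
    rw [e, Nat.cast_add A.ml, Nat.cast_mul c]
    linarith

theorem accList_bounds {g : GP} {l : LP} (hg : gpOK g = true) (hl : latOK g l = true) (Hm : ℕ)
    (xs : List (XL × ℕ)) (A : Acc)
    (hD : ∀ x ∈ xs, x.1.n1 ≤ x.1.n0 ∧ x.1.n2 ≤ x.1.n1 ∧ x.1.n0 + x.1.n1 + x.1.n2 = 3 * (g.d * l.O)
      ∧ x.1.n0 ≤ 2 * (g.d * l.O)) :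
    AccB ((2 : ℝ) ^ Hm)
      ((xs.map (fun x => ((orbN x.1.n0 x.1.n1 x.1.n2 * x.2 : ℕ) : ℝ) * famH I2 (xRay g l x.1))).sum)
      ((xs.map (fun x => ((orbN x.1.n0 x.1.n1 x.1.n2 * x.2 : ℕ) : ℝ) * famH I2sq (xRay g l x.1))).sum)
      ((xs.map (fun x => ((orbN x.1.n0 x.1.n1 x.1.n2 * x.2 : ℕ) : ℝ) * famH I3 (xRay g l x.1))).sum)
      ((xs.map (fun x => ((orbN x.1.n0 x.1.n1 x.1.n2 * x.2 : ℕ) : ℝ)
        * ((xRay g l x.1 0 + xRay g l x.1 1 + xRay g l x.1 2) / 3))).sum)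
      A (accList g l Hm xs A) := by
  obtain ⟨hra, hrb, hr, hK, -, -⟩ := latOK_props hl
  induction xs generalizing A with
  | nil =>
    refine ⟨?_, ?_, ?_, ?_, ?_⟩ <;> simp [accList]
  | cons x xs ih =>
    have hx := hD x (List.mem_cons_self ..)
    obtain ⟨h1, h2, h3, h4⟩ := hx
    have hpw : ∀ n : ℕ, 0 < pw l.ra l.rb l.K n (Nat.mul g.d l.O) := by
      intro n
      unfold pw
      exact Nat.mul_pos (Nat.pow_pos hra) (Nat.pow_pos hrb)
    have hray := xRay_eq hg hl (a := x.1) h4 (by omega) (by omega)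
    have hd0 : (0 : ℝ) < dlt l := by exact_mod_cast dlt_pos l hra hrb
    have hB := accStep_bounds Hm (dlt l) (Nat.mul (orbN x.1.n0 x.1.n1 x.1.n2) x.2)
      (pw l.ra l.rb l.K x.1.n0 (Nat.mul g.d l.O)) (pw l.ra l.rb l.K x.1.n1 (Nat.mul g.d l.O))
      (pw l.ra l.rb l.K x.1.n2 (Nat.mul g.d l.O)) A (hpw _) (hpw _) (hpw _) (dlt_pos l hra hrb)
      (v := xRay g l x.1) (by rw [hray]; rfl) (by rw [hray]; rfl) (by rw [hray]; rfl)
    have hI := ih (accStep Hm (dlt l) (Nat.mul (orbN x.1.n0 x.1.n1 x.1.n2) x.2)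
      (pw l.ra l.rb l.K x.1.n0 (Nat.mul g.d l.O)) (pw l.ra l.rb l.K x.1.n1 (Nat.mul g.d l.O))
      (pw l.ra l.rb l.K x.1.n2 (Nat.mul g.d l.O)) A) (fun y hy => hD y (List.mem_cons_of_mem _ hy))
    have e : accList g l Hm (x :: xs) A = accList g l Hm xs (accStep Hm (dlt l)
      (Nat.mul (orbN x.1.n0 x.1.n1 x.1.n2) x.2)
      (pw l.ra l.rb l.K x.1.n0 (Nat.mul g.d l.O)) (pw l.ra l.rb l.K x.1.n1 (Nat.mul g.d l.O))
      (pw l.ra l.rb l.K x.1.n2 (Nat.mul g.d l.O)) A) := rfl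
    rw [e]
    simp only [List.map_cons, List.sum_cons]
    have em : ((orbN x.1.n0 x.1.n1 x.1.n2 * x.2 : ℕ) : ℝ) =
      ((Nat.mul (orbN x.1.n0 x.1.n1 x.1.n2) x.2 : ℕ) : ℝ) := rfl
    rw [em]
    refine ⟨?_, ?_, ?_, ?_, ?_⟩
    · have := hB.mu
      have := hI.mu
      rw [mul_add]
      linarith
    · have := hB.qu
      have := hI.qu
      rw [mul_add]
      linarith
    · have := hB.up
      have := hI.up
      rw [mul_add]
      linarith
    · have := hB.lo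
      have := hI.lo
      rw [mul_add]
      linarith
    · have := hB.ml
      have := hI.ml
      rw [mul_add]
      linarith

private lemma aux_le {Y X E C D : ℝ} (hY : 0 < Y) (hD : 0 < D) (h1 : Y * E ≤ X) (h2 : X * D ≤ C * Y) :
    E * D ≤ C := by
  have h3 : Y * (E * D) ≤ Y * C := by
    calc Y * (E * D) = (Y * E) * D := by ring
      _ ≤ X * D := mul_le_mul_of_nonneg_right h1 hD.le
      _ ≤ C * Y := h2
      _ = Y * C := by ring
  exact le_of_mul_le_mul_left h3 hY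

private lemma aux_ge {Y X E C D : ℝ} (hY : 0 < Y) (hD : 0 < D) (h1 : X ≤ Y * E) (h2 : -C * Y ≤ X * D) :
    -C ≤ E * D := by
  have h3 : Y * (-C) ≤ Y * (E * D) := by
    calc Y * (-C) = -C * Y := by ring
      _ ≤ X * D := h2
      _ ≤ (Y * E) * D := mul_le_mul_of_nonneg_right h1 hD.le
      _ = Y * (E * D) := by ring
  exact le_of_mul_le_mul_left h3 hY

private lemma class_real {Yb Yr s2 s3 s4 sm bmu bqu baP baM bbP bbM bml Mn Md kN kD pN pD qN qD : ℝ}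
    (hYb : 0 < Yb) (hYr : 0 < Yr) (h1m : 0 ≤ 1 - Yb⁻¹ * sm)
    (hmu : Yr * s2 ≤ bmu) (hqu : Yr * s4 ≤ bqu) (hup : Yr * s3 ≤ baP - baM) (hlo : bbP - bbM ≤ Yr * s3)
    (hml : bml ≤ Yr * sm)
    (hMd : 0 < Md) (hkD : 0 < kD) (hpD : 0 < pD) (hqD : 0 < qD)
    (c2 : (3 * bmu + 2 * (Yb * Yr - bml)) * Md ≤ 3 * Mn * (Yb * Yr))
    (c3 : (9 * bqu + 4 * (Yb * Yr - bml)) * Md ^ 2 * kD ≤ 9 * kN * Mn ^ 2 * (Yb * Yr))
    (c4 : (9 * baP + 2 * (Yb * Yr - bml)) * Md ^ 2 * pD ≤ 9 * baM * Md ^ 2 * pD + 9 * pN * Mn ^ 2 * (Yb * Yr))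
    (c5 : bbM * Md ^ 2 * qD ≤ bbP * Md ^ 2 * qD + qN * Mn ^ 2 * (Yb * Yr)) :
    Yb⁻¹ * s2 + (1 - Yb⁻¹ * sm) * (2 / 3) ≤ Mn / Md
    ∧ Yb⁻¹ * s3 + (1 - Yb⁻¹ * sm) * (2 / 9) ≤ pN / pD * (Mn / Md) ^ 2
    ∧ -(qN / qD * (Mn / Md) ^ 2) ≤ Yb⁻¹ * s3 + (1 - Yb⁻¹ * sm) * (2 / 9)
    ∧ Yb⁻¹ * s4 + (1 - Yb⁻¹ * sm) * (4 / 9) ≤ kN / kD * (Mn / Md) ^ 2 := by
  set Y := Yb * Yr with hY
  have hY0 : 0 < Y := by positivity
  have hYE : ∀ s : ℝ, Y * (Yb⁻¹ * s) = Yr * s := by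
    intro s
    rw [hY]
    field_simp
  have hrho : Y * (1 - Yb⁻¹ * sm) ≤ Y - bml := by
    rw [mul_sub, mul_one, hYE]
    linarith
  have hrho0 : 0 ≤ Y * (1 - Yb⁻¹ * sm) := by positivity
  have hMd2 : 0 < Md ^ 2 := by positivity
  have expand : ∀ s t : ℝ, Y * (Yb⁻¹ * s + (1 - Yb⁻¹ * sm) * t) = Yr * s + t * (Y * (1 - Yb⁻¹ * sm)) := by
    intro s t
    rw [mul_add, hYE]
    ring
  have e2 : pN / pD * (Mn / Md) ^ 2 = (pN * Mn ^ 2) / (Md ^ 2 * pD) := by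
    field_simp
  have e3 : qN / qD * (Mn / Md) ^ 2 = (qN * Mn ^ 2) / (Md ^ 2 * qD) := by
    field_simp
  have e4 : kN / kD * (Mn / Md) ^ 2 = (kN * Mn ^ 2) / (Md ^ 2 * kD) := by
    field_simp
  refine ⟨?_, ?_, ?_, ?_⟩
  · rw [le_div_iff₀ hMd]
    refine aux_le hY0 hMd (X := bmu + 2 / 3 * (Y - bml)) ?_ ?_
    · rw [expand]
      have := mul_le_mul_of_nonneg_left hrho (by norm_num : (0 : ℝ) ≤ 2 / 3)
      linarith
    · linarith
  · rw [e2, le_div_iff₀ (by positivity)]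
    refine aux_le hY0 (by positivity) (X := baP - baM + 2 / 9 * (Y - bml)) ?_ ?_
    · rw [expand]
      have := mul_le_mul_of_nonneg_left hrho (by norm_num : (0 : ℝ) ≤ 2 / 9)
      linarith
    · have e : (baP - baM + 2 / 9 * (Y - bml)) * (Md ^ 2 * pD) =
          ((9 * baP + 2 * (Y - bml)) * Md ^ 2 * pD - 9 * baM * Md ^ 2 * pD) / 9 := by ring
      rw [e]
      linarith
  · rw [e3, ← neg_div, div_le_iff₀ (by positivity)]
    refine aux_ge hY0 (by positivity) (X := bbP - bbM) ?_ ?_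
    · rw [expand]
      have := mul_nonneg (by norm_num : (0 : ℝ) ≤ 2 / 9) hrho0
      linarith
    · have e : (bbP - bbM) * (Md ^ 2 * qD) = bbP * Md ^ 2 * qD - bbM * Md ^ 2 * qD := by ring
      rw [e]
      linarith
  · rw [e4, le_div_iff₀ (by positivity)]
    refine aux_le hY0 (by positivity) (X := bqu + 4 / 9 * (Y - bml)) ?_ ?_
    · rw [expand]
      have := mul_le_mul_of_nonneg_left hrho (by norm_num : (0 : ℝ) ≤ 4 / 9)
      linarith
    · have e : (bqu + 4 / 9 * (Y - bml)) * (Md ^ 2 * kD) =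
          ((9 * bqu + 4 * (Y - bml)) * Md ^ 2 * kD) / 9 := by ring
      rw [e]
      linarith

private lemma accOK_real {g : GP} {h : HP} {B : Acc} (hchk : accOK g h B = true) :
    (B.ml : ℝ) ≤ 2 ^ g.bw * 2 ^ h.Hm
    ∧ (3 * (B.mu : ℝ) + 2 * (2 ^ g.bw * 2 ^ h.Hm - B.ml)) * h.Md ≤ 3 * h.Mn * (2 ^ g.bw * 2 ^ h.Hm)
    ∧ (9 * (B.qu : ℝ) + 4 * (2 ^ g.bw * 2 ^ h.Hm - B.ml)) * (h.Md : ℝ) ^ 2 * h.kapD ≤
        9 * h.kapN * (h.Mn : ℝ) ^ 2 * (2 ^ g.bw * 2 ^ h.Hm)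
    ∧ (9 * (B.aP : ℝ) + 2 * (2 ^ g.bw * 2 ^ h.Hm - B.ml)) * (h.Md : ℝ) ^ 2 * h.bpD ≤
        9 * B.aM * (h.Md : ℝ) ^ 2 * h.bpD + 9 * h.bpN * (h.Mn : ℝ) ^ 2 * (2 ^ g.bw * 2 ^ h.Hm)
    ∧ (B.bM : ℝ) * (h.Md : ℝ) ^ 2 * h.bmD ≤
        B.bP * (h.Md : ℝ) ^ 2 * h.bmD + h.bmN * (h.Mn : ℝ) ^ 2 * (2 ^ g.bw * 2 ^ h.Hm) := by
  simp only [accOK, Bool.and_eq_true, decide_eq_true_eq] at hchk
  obtain ⟨⟨⟨⟨c1, c2⟩, c3⟩, c4⟩, c5⟩ := hchk
  have eY : ((2 ^ (g.bw + h.Hm) : ℕ) : ℝ) = 2 ^ g.bw * 2 ^ h.Hm := by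
    rw [pow_add]
    push_cast
    ring
  have c1' : (B.ml : ℝ) ≤ ((2 ^ (g.bw + h.Hm) : ℕ) : ℝ) := Nat.cast_le.mpr c1
  have erho : ((2 ^ (g.bw + h.Hm) - B.ml : ℕ) : ℝ) = 2 ^ g.bw * 2 ^ h.Hm - B.ml := by
    rw [Nat.cast_sub c1, eY]
  rw [eY] at c1'
  generalize 2 ^ (g.bw + h.Hm) - B.ml = r at c2 c3 c4 erho
  generalize 2 ^ (g.bw + h.Hm) = Yn at c2 c3 c4 c5 eY
  refine ⟨c1', ?_, ?_, ?_, ?_⟩
  · have := (Nat.cast_le (α := ℝ)).mpr c2
    push_cast at this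
    rw [erho, eY] at this
    exact this
  · have := (Nat.cast_le (α := ℝ)).mpr c3
    push_cast at this
    rw [erho, eY] at this
    exact this
  · have := (Nat.cast_le (α := ℝ)).mpr c4
    push_cast at this
    rw [erho, eY] at this
    exact this
  · have := (Nat.cast_le (α := ℝ)).mpr c5
    push_cast at this
    rw [eY] at this
    exact this

/-- the moments of the hand-off family, from the accumulators -/
theorem handFam_class {g : GP} {l : LP} {h : HP} {xs : List (XL × ℕ)} (hg : gpOK g = true)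
    (hl : latOK g l = true) (hm : ListMass g l xs [] ≤ 1) (hd : 0 < h.Md) (hk : 0 < h.kapD)
    (hbp : 0 < h.bpD) (hbm : 0 < h.bmD)
    (hchk : accOK g h (accList g l h.Hm xs ⟨0, 0, 0, 0, 0, 0, 0⟩) = true)
    (hD : ∀ x ∈ xs, x.1.n1 ≤ x.1.n0 ∧ x.1.n2 ≤ x.1.n1 ∧ x.1.n0 + x.1.n1 + x.1.n2 = 3 * (g.d * l.O)
      ∧ x.1.n0 ≤ 2 * (g.d * l.O)) :
    InClass ((h.kapN : ℝ) / h.kapD) ((h.bpN : ℝ) / h.bpD) ((h.bmN : ℝ) / h.bmD) (famEx (handFam g l xs).F)
      ((h.Mn : ℝ) / h.Md) := by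
  have hB := accList_bounds hg hl h.Hm xs ⟨0, 0, 0, 0, 0, 0, 0⟩ hD
  obtain ⟨-, c2, c3, c4, c5⟩ := accOK_real hchk
  have hm' : ListMass g l xs [] = ((2 : ℝ) ^ g.bw)⁻¹ * (xs.map (fun x => ((orbN x.1.n0 x.1.n1 x.1.n2 * x.2 : ℕ) : ℝ)
        * ((xRay g l x.1 0 + xRay g l x.1 1 + xRay g l x.1 2) / 3))).sum := by
    unfold ListMass
    simp
  have h1m : 0 ≤ 1 - ((2 : ℝ) ^ g.bw)⁻¹ * (xs.map (fun x => ((orbN x.1.n0 x.1.n1 x.1.n2 * x.2 : ℕ) : ℝ)
        * ((xRay g l x.1 0 + xRay g l x.1 1 + xRay g l x.1 2) / 3))).sum := by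
    rw [← hm']
    linarith
  have hmu := hB.mu
  have hqu := hB.qu
  have hup := hB.up
  have hlo := hB.lo
  have hml := hB.ml
  simp only [Nat.cast_zero, sub_zero] at hmu hqu hup hlo hml
  obtain ⟨a1, a2, a3, a4⟩ := class_real (by positivity) (by positivity) h1m hmu hqu hup hlo hml
    (by exact_mod_cast hd) (by exact_mod_cast hk) (by exact_mod_cast hbp) (by exact_mod_cast hbm)
    c2 c3 c4 c5
  have hI2s : ∀ a b c, I2 b a c = I2 a b c := I2_swap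
  have hI2c : ∀ a b c, I2 b c a = I2 a b c := I2_cyc
  have hI3s : ∀ a b c, I3 b a c = I3 a b c := I3_swap
  have hI3c : ∀ a b c, I3 b c a = I3 a b c := I3_cyc
  have hQs : ∀ a b c, I2sq b a c = I2sq a b c := by
    intro a b c
    unfold I2sq
    rw [I2_swap]
  have hQc : ∀ a b c, I2sq b c a = I2sq a b c := by
    intro a b c
    unfold I2sq
    rw [I2_cyc]
  have E2 := famEx_hand (xs := xs) hl hm hI2s hI2c
  have E3 := famEx_hand (xs := xs) hl hm hI3s hI3c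
  have E4 := famEx_hand (xs := xs) hl hm hQs hQc
  have v2 : I2 1 0 0 = 2 / 3 := by unfold I2; norm_num
  have v3 : I3 1 0 0 = 2 / 9 := by unfold I3; norm_num
  have v4 : I2sq 1 0 0 = 4 / 9 := by unfold I2sq I2; norm_num
  rw [v2, hm'] at E2
  rw [v3, hm'] at E3
  rw [v4, hm'] at E4
  refine ⟨?_, ?_, ?_, ?_⟩
  · rw [E2]
    exact a1
  · rw [E3]
    exact a2
  · rw [E3]
    exact a3
  · rw [E4]
    exact a4

private lemma list_sum_nonpos {L : List ℝ} (h : ∀ y ∈ L, y ≤ 0) : L.sum ≤ 0 := by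
  induction L with
  | nil => simp
  | cons a L ih =>
    rw [List.sum_cons]
    have h1 := h a (List.mem_cons_self ..)
    have h2 := ih (fun y hy => h y (List.mem_cons_of_mem _ hy))
    linarith

/-- The hand-off. -/
theorem handoff {g : GP} {l : LP} {h : HP} {D1 D2 : ℕ} {vl : XL} {ops : Ops} {Tp : PT} {Tx Te : XT} {Tz : ZL}
    {n st : ℕ} (hchk : checkSeg g l l D1 D2 vl Tp Tx Te Tz = true) (hops : Ops.expo ops 1 = g.d)
    (hinv : Inv g l n st)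
    (hd : 0 < h.Md) (hk : 0 < h.kapD) (hbp : 0 < h.bpD) (hbm : 0 < h.bmD)
    (hh : handOK g l h ops Tp Tx Tz st = true) :
    ∃ A : FF, A.Good ∧ (∀ G, Sublin G → Symm G → val (Xv g.d (lamOf g) (n + 1)) G ≤ val A.F G)
      ∧ InClass ((h.kapN : ℝ) / h.kapD) ((h.bpN : ℝ) / h.bpD) ((h.bmN : ℝ) / h.bmD) (famEx A.F)
          ((h.Mn : ℝ) / h.Md) := by
  obtain ⟨hg, hl, -, -, hpt, hcx, hce, -⟩ := checkSeg_props hchk
  obtain ⟨a1, a2, a3⟩ := handOK_spec hh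
  set R := powN g.bw (maskOf g.B g.bw (LP.N g l)) (asm (2 ^ g.wd) g.u st Tp) (fT g st <<< LP.eo g l)
      ops (asm (2 ^ g.wd) g.u st Tp) (fT g st <<< LP.eo g l) with hR
  have hnums : GenNums g l ops Tp st R.1 R.2 := ⟨hR.symm ▸ rfl⟩
  obtain ⟨hX1, hX2⟩ := chkX_sound Tx 0 0 _ hcx
  obtain ⟨hE1, hE2⟩ := chkE_sound Te 0 0 _ hce
  have hxl : ∀ a ∈ XT.leaves Tx 0 0, a.pos = g.B * (a.n0 + LP.L g l * a.n1)
      ∧ a.n0 + a.n1 + a.n2 = 3 * (g.d * l.O) ∧ a.n1 ≤ a.n0 ∧ a.n2 ≤ a.n1 ∧ a.n0 ≤ 2 * (g.d * l.O) :=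
    fun a ha => xLeaf_ex (hX1 a ha).1
  have hel : ∀ a ∈ XT.leaves Te 0 0, a.pos = g.B * (a.n0 + LP.L g l * a.n1)
      ∧ a.n0 + a.n1 + a.n2 = 3 * (g.d * l.O) ∧ a.n2 ≤ a.n1 ∧ a.n1 ≤ 2 * (g.d * l.O)
      ∧ a.n0 ≤ 2 * (g.d * l.O) := fun a ha => eLeaf_ex (hE1 a ha).1
  obtain ⟨hdom, hmass⟩ := xlevel hg hl hpt hops hinv hnums a1 hX2 hE2 hxl hel
  set xs := XT.pairs g.B Tx 0 0 R.1 with hxs
  set es := XT.pairs g.B Te 0 0 R.2 with hes
  have hE0 : (0 : ℝ) < (2 : ℝ) ^ (g.d * (g.bw + g.H)) := by positivity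
  have hm1 : ListMass g l xs es ≤ 1 := by
    have h1 : ListMass g l xs es * (2 : ℝ) ^ (g.d * (g.bw + g.H)) ≤ 1 * (2 : ℝ) ^ (g.d * (g.bw + g.H)) := by
      refine hmass.trans ?_
      rw [one_mul]
      exact_mod_cast a2
    exact le_of_mul_le_mul_right h1 hE0
  have hes0 : 0 ≤ (es.map (fun x => ((orbE x.1.n1 x.1.n2 * x.2 : ℕ) : ℝ)
        * ((xRay g l x.1 1 + xRay g l x.1 2) / 3))).sum := by
    apply List.sum_nonneg
    intro y hy
    obtain ⟨x, -, rfl⟩ := List.mem_map.mp hy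
    have b1 := xRay_pos hl x.1 1
    have b2 := xRay_pos hl x.1 2
    positivity
  have hm : ListMass g l xs [] ≤ 1 := by
    refine le_trans ?_ hm1
    unfold ListMass
    simp only [List.map_nil, List.sum_nil, add_zero]
    apply mul_le_mul_of_nonneg_left _ (by positivity)
    linarith
  have hdom' : ∀ G, NSub G → Symm G → val (Xv g.d (lamOf g) (n + 1)) G ≤ ListVal g l xs [] G := by
    intro G hG hs
    refine (hdom G hG hs).trans ?_
    unfold ListVal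
    simp only [List.map_nil, List.sum_nil, add_zero]
    apply mul_le_mul_of_nonneg_left _ (by positivity)
    have hes1 : (es.map (fun x => ((orbE x.1.n1 x.1.n2 * x.2 : ℕ) : ℝ) * G (eRay g l x.1))).sum ≤ 0 := by
      apply list_sum_nonpos
      intro y hy
      obtain ⟨x, -, rfl⟩ := List.mem_map.mp hy
      apply mul_nonpos_of_nonneg_of_nonpos (Nat.cast_nonneg _)
      apply hG.nonpos
      intro i
      exact mul_nonneg (xRay_nonneg hl x.1 i) (mask_nonneg 0 i)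
    linarith
  have hD : ∀ x ∈ xs, x.1.n1 ≤ x.1.n0 ∧ x.1.n2 ≤ x.1.n1 ∧ x.1.n0 + x.1.n1 + x.1.n2 = 3 * (g.d * l.O)
      ∧ x.1.n0 ≤ 2 * (g.d * l.O) := by
    intro x hx
    have hmem : x.1 ∈ XT.leaves Tx 0 0 := by
      rw [← XT.pairs_fst g.B Tx 0 0 R.1]
      exact List.mem_map.mpr ⟨x, hx, rfl⟩
    obtain ⟨-, b2, b3, b4, b5⟩ := hxl x.1 hmem
    exact ⟨b3, b4, b2, b5⟩
  exact ⟨handFam g l xs, handFam_good hg hl hm, handFam_dom hg hl hm hdom',
    handFam_class hg hl hm hd hk hbp hbm a3 hD⟩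

/-- the numerical conditions of the tail for the parameters of a chain -/
noncomputable def tailOK (g : GP) (h : HP) : Bool :=
  let M0 : ℚ := (h.Mn : ℚ) / h.Md
  let lb : ℚ := (g.ln : ℚ) / g.ld
  let kap : ℚ := (h.kapN : ℚ) / h.kapD
  let bp : ℚ := (h.bpN : ℚ) / h.bpD
  let bm : ℚ := (h.bmN : ℚ) / h.bmD
  decide (0 < M0) && decide (0 ≤ kap) && decide (0 ≤ bp) && decide (0 ≤ bm) && decide (M0 ≤ 1 / 10)
    && decide ((1 / 20 : ℚ) * M0 ≤ 1) && Env.check g.d M0 lb kap bp bm (1 / 20)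

/-- The end of a chain: its hand-off gives nonreconstruction for all eigenvalues between the one of the
chain and `0`, under the Kesten-Stigum bound. -/
theorem tendsto_of_chain {g : GP} {h : HP} {N : ℕ} (hg : gpOK g = true)
    (hex : ∃ A : FF, A.Good ∧ (∀ G, Sublin G → Symm G → val (Xv g.d (lamOf g) N) G ≤ val A.F G)
      ∧ InClass ((h.kapN : ℝ) / h.kapD) ((h.bpN : ℝ) / h.bpD) ((h.bmN : ℝ) / h.bmD) (famEx A.F)
          ((h.Mn : ℝ) / h.Md))
    (ht : tailOK g h = true) {lam : ℝ} (h0 : lamOf g ≤ lam) (h02 : lam ≤ 0)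
    (hKS : (g.d : ℝ) * lam ^ 2 ≤ 1) :
    Filter.Tendsto (reconError g.d 3 lam) Filter.atTop (nhds 0) := by
  obtain ⟨A, hA, hdom, hcl⟩ := hex
  obtain ⟨hgd, hld, hlam0, hlam1, -⟩ := gpOK_props hg
  simp only [tailOK, Bool.and_eq_true, decide_eq_true_eq] at ht
  obtain ⟨⟨⟨⟨⟨⟨t1, t2⟩, t3⟩, t4⟩, t5⟩, t6⟩, t7⟩ := ht
  refine tendsto_of_handoff (d := g.d) (N := N) hgd hlam0 h0 h02 hKS hA hdom
    (M0 := (h.Mn : ℚ) / h.Md) (lb := (g.ln : ℚ) / g.ld) (kap := (h.kapN : ℚ) / h.kapD)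
    (bp := (h.bpN : ℚ) / h.bpD) (bm := (h.bmN : ℚ) / h.bmD) (c := 1 / 20) (by norm_num) t1
    (by positivity) t2 t3 t4 t5 t6 ?_ t7 ?_
  · have : lamOf g = -((g.ln : ℝ) / g.ld) := rfl
    push_cast
    rw [← this]
    exact h0
  · push_cast
    exact hcl

end Vale.Agent.Lib.P154.Chain
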