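import Vale.Agent.Lib.P154.Chain.Lat
import Vale.Agent.Lib.P154.Chain.Check

/-!
The Kronecker evaluation of measures and the semantics of the arithmetic program.
-/

namespace Vale.Agent.Lib.P154.Chain

open scoped BigOperators

/-- the Kronecker evaluation -/
noncomputable def phi (B L : ℕ) (w : Meas) : ℕ :=
  w.coeff.sum (fun n c => c * 2 ^ (B * (n 0 + L * n 1)))

section phi

variable {B L : ℕ}

theorem phi_add (w w' : Meas) : phi B L (w + w') = phi B L w + phi B L w' := by
  unfold phi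
  rw [AddMonoidAlgebra.coeff_add]
  exact Finsupp.sum_add_index' (by simp) (by intros; ring)

theorem phi_single (n : Ex) (c : ℕ) : phi B L ⟨Finsupp.single n c⟩ = c * 2 ^ (B * (n 0 + L * n 1)) := by
  unfold phi
  exact Finsupp.sum_single_index (by simp)

theorem phi_zero : phi B L 0 = 0 := by
  unfold phi
  simp

theorem phi_mul (w w' : Meas) : phi B L (w * w') = phi B L w * phi B L w' := by
  induction w using AddMonoidAlgebra.induction_linear with
  | zero => simp [phi_zero]
  | add x y hx hy => rw [add_mul, phi_add, phi_add, hx, hy, add_mul]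
  | single m r =>
    induction w' using AddMonoidAlgebra.induction_linear with
    | zero => simp [phi_zero]
    | add x y hx hy => rw [mul_add, phi_add, phi_add, hx, hy, mul_add]
    | single m' r' =>
      rw [AddMonoidAlgebra.single_mul_single]
      have h (n : Ex) (c : ℕ) : phi B L (AddMonoidAlgebra.single n c)
          = c * 2 ^ (B * (n 0 + L * n 1)) := phi_single n c
      rw [h, h, h]
      have e : B * ((m + m') 0 + L * (m + m') 1) =
          B * (m 0 + L * m 1) + B * (m' 0 + L * m' 1) := by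
        simp only [Pi.add_apply]
        ring
      rw [e, pow_add]
      ring

/-- a packed number: fields below the width are read back exactly -/
theorem packed_field {wd T : ℕ} (F : ℕ → ℕ) (hF : ∀ t ≤ T, F t < 2 ^ wd) {t : ℕ} (ht : t ≤ T) :
    ((∑ i ∈ Finset.range (T + 1), F i * 2 ^ (wd * i)) >>> (wd * t)) % 2 ^ wd = F t := by
  -- the low part
  have hlow : ∀ s, s ≤ T + 1 → ∑ i ∈ Finset.range s, F i * 2 ^ (wd * i) < 2 ^ (wd * s) := by
    intro s
    induction s with
    | zero => simp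
    | succ s ih =>
      intro hs
      rw [Finset.sum_range_succ]
      have h1 := ih (by omega)
      have h2 : F s + 1 ≤ 2 ^ wd := hF s (by omega)
      have e : 2 ^ (wd * (s + 1)) = 2 ^ wd * 2 ^ (wd * s) := by
        rw [mul_add, mul_one, pow_add]; ring
      rw [e]
      calc ∑ i ∈ Finset.range s, F i * 2 ^ (wd * i) + F s * 2 ^ (wd * s)
          < 2 ^ (wd * s) + F s * 2 ^ (wd * s) := by omega
        _ = (F s + 1) * 2 ^ (wd * s) := by ring
        _ ≤ _ := Nat.mul_le_mul_right _ h2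
  -- the high part
  obtain ⟨H, hH⟩ : ∃ H, ∑ i ∈ Finset.Ico (t + 1) (T + 1), F i * 2 ^ (wd * i) =
      2 ^ (wd * (t + 1)) * H := by
    have : 2 ^ (wd * (t + 1)) ∣ ∑ i ∈ Finset.Ico (t + 1) (T + 1), F i * 2 ^ (wd * i) := by
      apply Finset.dvd_sum
      intro i hi
      rw [Finset.mem_Ico] at hi
      apply Dvd.dvd.mul_left
      exact pow_dvd_pow 2 (Nat.mul_le_mul_left _ hi.1)
    exact this
  have hsplit : ∑ i ∈ Finset.range (T + 1), F i * 2 ^ (wd * i) =
      ∑ i ∈ Finset.range t, F i * 2 ^ (wd * i) + 2 ^ (wd * t) * (F t + 2 ^ wd * H) := by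
    rw [← Finset.sum_range_add_sum_Ico _ (show t + 1 ≤ T + 1 by omega), hH,
      Finset.sum_range_succ]
    have e : 2 ^ (wd * (t + 1)) = 2 ^ (wd * t) * 2 ^ wd := by
      rw [mul_add, mul_one, pow_add]
    rw [e]
    ring
  have hl := hlow t (by omega)
  rw [hsplit, Nat.shiftRight_eq_div_pow, Nat.add_mul_div_left _ _ (by positivity),
    Nat.div_eq_of_lt hl, zero_add, Nat.add_mul_mod_self_left, Nat.mod_eq_of_lt (hF t ht)]

private def idx (L : ℕ) (n : Ex) : ℕ := n 0 + L * n 1

private lemma idx_inj {K L : ℕ} {m n : Ex} (hLpos : 0 < L)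
    (hm : m 0 + m 1 + m 2 = K) (hm0 : m 0 < L) (hn : n 0 + n 1 + n 2 = K) (hn0 : n 0 < L)
    (h : idx L m = idx L n) : m = n := by
  unfold idx at h
  have h0 : m 0 = n 0 := by
    have := congrArg (· % L) h
    simp only [Nat.add_mul_mod_self_left, Nat.mod_eq_of_lt hm0, Nat.mod_eq_of_lt hn0] at this
    exact this
  have h1 : m 1 = n 1 := by
    have : L * m 1 = L * n 1 := by omega
    exact Nat.eq_of_mul_eq_mul_left hLpos this
  have h2 : m 2 = n 2 := by omega
  funext i
  fin_cases i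
  · exact h0
  · exact h1
  · exact h2

/-- the digit at index `i` of a weighted family over a finite set -/
private def digS (L : ℕ) (s : Finset Ex) (c : Ex → ℕ) (i : ℕ) : ℕ :=
  ∑ m ∈ s.filter (fun m => idx L m = i), c m

private lemma sum_eq_digS (B L T : ℕ) (s : Finset Ex) (c : Ex → ℕ) (hT : ∀ m ∈ s, idx L m ≤ T) :
    ∑ m ∈ s, c m * 2 ^ (B * idx L m) =
      ∑ i ∈ Finset.range (T + 1), digS L s c i * 2 ^ (B * i) := by
  have hmaps : ∀ m ∈ s, idx L m ∈ Finset.range (T + 1) := fun m hm =>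
    Finset.mem_range.mpr (Nat.lt_succ_of_le (hT m hm))
  rw [← Finset.sum_fiberwise_of_maps_to hmaps]
  refine Finset.sum_congr rfl fun i _ => ?_
  unfold digS
  rw [Finset.sum_mul]
  refine Finset.sum_congr rfl fun m hm => ?_
  rw [(Finset.mem_filter.mp hm).2]

private lemma digS_eq_of_mem {L : ℕ} {s : Finset Ex} (hinj : ∀ a ∈ s, ∀ b ∈ s, idx L a = idx L b → a = b)
    (c : Ex → ℕ) {m : Ex} (hm : m ∈ s) : digS L s c (idx L m) = c m := by
  unfold digS
  have : s.filter (fun a => idx L a = idx L m) = {m} := by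
    ext a
    simp only [Finset.mem_filter, Finset.mem_singleton]
    constructor
    · rintro ⟨ha, h⟩
      exact hinj a ha m hm h
    · rintro rfl
      exact ⟨hm, rfl⟩
  rw [this, Finset.sum_singleton]

private lemma digS_eq_zero {L : ℕ} {s : Finset Ex} (c : Ex → ℕ) {i : ℕ}
    (hi : ∀ a ∈ s, idx L a ≠ i) : digS L s c i = 0 := by
  unfold digS
  rw [Finset.filter_false_of_mem hi, Finset.sum_empty]

private lemma digS_comp {L : ℕ} {s : Finset Ex} (hinj : ∀ a ∈ s, ∀ b ∈ s, idx L a = idx L b → a = b)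
    (c : Ex → ℕ) (g : ℕ → ℕ) (hg : g 0 = 0) (i : ℕ) :
    digS L s (fun m => g (c m)) i = g (digS L s c i) := by
  by_cases h : ∃ a ∈ s, idx L a = i
  · obtain ⟨a, ha, rfl⟩ := h
    rw [digS_eq_of_mem hinj _ ha, digS_eq_of_mem hinj _ ha]
  · push Not at h
    rw [digS_eq_zero _ h, digS_eq_zero _ h, hg]

private lemma digS_le_sum {L : ℕ} {s : Finset Ex} (c : Ex → ℕ) (i : ℕ) :
    digS L s c i ≤ ∑ m ∈ s, c m := by
  unfold digS
  exact Finset.sum_le_sum_of_subset (Finset.filter_subset _ _)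

private lemma phi_eq_sum (B L : ℕ) (w : Meas) :
    phi B L w = ∑ m ∈ w.coeff.support, w.coeff m * 2 ^ (B * idx L m) := rfl

private lemma tot_eq_sum (w : Meas) : tot w = ∑ m ∈ w.coeff.support, w.coeff m := rfl

private lemma supp_facts {O k d L : ℕ} {w : Meas} (hs : Supp O k w) (hk : k ≤ d)
    (hL : L = 2 * d * O + 1) {m : Ex} (hm : m ∈ w.coeff.support) :
    m 0 + m 1 + m 2 = 3 * (k * O) ∧ m 0 < L ∧ idx L m ≤ 2 * d * O + L * (2 * d * O) := by
  have h := hs m (Finsupp.mem_support_iff.mp hm)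
  have h1 : k * O ≤ d * O := Nat.mul_le_mul_right _ hk
  have h2 : 2 * (k * O) ≤ 2 * d * O := by
    rw [mul_assoc]; omega
  have h3 := h.2 0
  have h4 := h.2 1
  refine ⟨h.1, by omega, ?_⟩
  unfold idx
  exact Nat.add_le_add (by omega) (Nat.mul_le_mul_left _ (by omega))

/-- The digit lemma: the digit of the evaluation at the index of `n` is the coefficient of `n`, when
the support lies at level `k` with `L = 2 d O + 1`, `k <= d`, and the total fits in a digit. -/
theorem phi_digit {O k d : ℕ} {w : Meas} (hs : Supp O k w) (hk : k ≤ d) (hL : L = 2 * d * O + 1)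
    (ht : tot w < 2 ^ B) (n : Ex) (hn : n 0 + n 1 + n 2 = 3 * (k * O)) (hn0 : n 0 < L) :
    (phi B L w >>> (B * (n 0 + L * n 1))) % 2 ^ B = w.coeff n := by
  classical
  set s := w.coeff.support with hsdef
  have hLpos : 0 < L := by omega
  have hinj : ∀ a ∈ s, ∀ b ∈ s, idx L a = idx L b → a = b := by
    intro a ha b hb h
    obtain ⟨h1, h2, -⟩ := supp_facts hs hk hL ha
    obtain ⟨h3, h4, -⟩ := supp_facts hs hk hL hb
    exact idx_inj hLpos h1 h2 h3 h4 h
  set T := idx L n + (2 * d * O + L * (2 * d * O)) with hT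
  have hTs : ∀ m ∈ s, idx L m ≤ T := by
    intro m hm
    have := (supp_facts hs hk hL hm).2.2
    omega
  have hphi : phi B L w = ∑ i ∈ Finset.range (T + 1), digS L s (fun m => w.coeff m) i * 2 ^ (B * i) := by
    rw [phi_eq_sum, ← sum_eq_digS B L T s _ hTs]
  have hdig : ∀ i, digS L s (fun m => w.coeff m) i < 2 ^ B := fun i =>
    (digS_le_sum _ i).trans_lt ht
  have hval : digS L s (fun m => w.coeff m) (idx L n) = w.coeff n := by
    by_cases hnm : n ∈ s
    · exact digS_eq_of_mem hinj _ hnm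
    · have h0 : w.coeff n = 0 := by
        rwa [Finsupp.mem_support_iff, not_not] at hnm
      rw [h0]
      apply digS_eq_zero
      intro a ha h
      obtain ⟨h1, h2, -⟩ := supp_facts hs hk hL ha
      exact hnm ((idx_inj hLpos h1 h2 hn hn0 h) ▸ ha)
  have hread := packed_field (wd := B) (T := T) (digS L s (fun m => w.coeff m))
    (fun t _ => hdig t) (t := idx L n) (by omega)
  rw [← hphi, hval] at hread
  exact hread

private lemma maskOf_eq (B bw N : ℕ) (hB : 0 < B) :
    maskOf B bw N = (∑ i ∈ Finset.range N, (2 ^ B) ^ i) * (2 ^ (B - bw) - 1) := by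
  have h2 : 2 ≤ 2 ^ B := by
    calc 2 = 2 ^ 1 := rfl
      _ ≤ 2 ^ B := Nat.pow_le_pow_right (by norm_num) hB
  rw [Nat.geomSum_eq h2]
  unfold maskOf
  show ((1 <<< (B * N) - 1) / (1 <<< B - 1)) * (1 <<< (B - bw) - 1) = _
  simp only [Nat.one_shiftLeft, pow_mul]

private lemma maskOf_succ (B bw N : ℕ) (hB : 0 < B) :
    maskOf B bw (N + 1) = 2 ^ B * maskOf B bw N + (2 ^ (B - bw) - 1) := by
  rw [maskOf_eq B bw _ hB, maskOf_eq B bw _ hB, Finset.sum_range_succ', add_mul, Finset.sum_mul,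
    Finset.sum_mul, Finset.mul_sum, pow_zero, one_mul]
  congr 1
  refine Finset.sum_congr rfl fun i _ => ?_
  rw [pow_succ]
  ring

private lemma trunc_step {B bw : ℕ} (hb : bw ≤ B) {A : ℕ} (hA : A < 2 ^ B) (X M : ℕ) :
    trunc bw (2 ^ B * M + (2 ^ (B - bw) - 1)) (2 ^ B * X + A) =
      2 ^ B * trunc bw M X + A / 2 ^ bw := by
  have ha : A / 2 ^ bw < 2 ^ (B - bw) := by
    rw [Nat.div_lt_iff_lt_mul (by positivity)]
    rw [← pow_add, Nat.sub_add_cancel hb]
    exact hA
  have ha' : A / 2 ^ bw < 2 ^ B :=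
    ha.trans_le (Nat.pow_le_pow_right (by norm_num) (Nat.sub_le _ _))
  have hm : 2 ^ (B - bw) - 1 < 2 ^ B := by
    have : 2 ^ (B - bw) ≤ 2 ^ B := Nat.pow_le_pow_right (by norm_num) (Nat.sub_le _ _)
    have : 0 < 2 ^ (B - bw) := by positivity
    omega
  show ((2 ^ B * X + A) >>> bw) &&& (2 ^ B * M + (2 ^ (B - bw) - 1)) =
    2 ^ B * ((X >>> bw) &&& M) + A / 2 ^ bw
  apply Nat.eq_of_testBit_eq
  intro j
  rw [Nat.testBit_and, Nat.testBit_shiftRight, Nat.testBit_two_pow_mul_add _ hA,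
    Nat.testBit_two_pow_mul_add _ hm, Nat.testBit_two_pow_mul_add _ ha', Nat.testBit_div_two_pow,
    Nat.testBit_two_pow_sub_one]
  by_cases hj : j < B
  · by_cases hj2 : j < B - bw
    · have hj3 : bw + j < B := by omega
      simp [hj, hj2, hj3, add_comm]
    · have hj4 : (A / 2 ^ bw).testBit j = false :=
        Nat.testBit_lt_two_pow (ha.trans_le (Nat.pow_le_pow_right (by norm_num) (by omega)))
      rw [Nat.testBit_div_two_pow] at hj4
      simp [hj, hj2, hj4]
  · have hj5 : ¬ bw + j < B := by omega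
    simp only [hj, hj5, if_false]
    rw [Nat.testBit_and, Nat.testBit_shiftRight]
    have e : bw + j - B = bw + (j - B) := by omega
    rw [e]

private lemma trunc_digits {B bw : ℕ} (hb : bw ≤ B) (N : ℕ) (F : ℕ → ℕ) (hF : ∀ i, F i < 2 ^ B) :
    trunc bw (maskOf B bw N) (∑ i ∈ Finset.range N, F i * 2 ^ (B * i)) =
      ∑ i ∈ Finset.range N, (F i / 2 ^ bw) * 2 ^ (B * i) := by
  rcases Nat.eq_zero_or_pos B with hB | hB
  · subst hB
    have h0 : ∀ i, F i = 0 := fun i => by
      have := hF i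
      simp at this
      exact this
    simp [h0, trunc]
  induction N generalizing F with
  | zero => simp [trunc]
  | succ N ih =>
    have e1 : ∀ G : ℕ → ℕ, ∑ i ∈ Finset.range (N + 1), G i * 2 ^ (B * i) =
        2 ^ B * (∑ i ∈ Finset.range N, G (i + 1) * 2 ^ (B * i)) + G 0 := by
      intro G
      rw [Finset.sum_range_succ', Finset.mul_sum]
      simp only [mul_zero, pow_zero, mul_one]
      congr 1
      refine Finset.sum_congr rfl fun i _ => ?_
      rw [mul_add, mul_one, pow_add]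
      ring
    rw [e1 F, maskOf_succ B bw N hB, trunc_step hb (hF 0), ih (fun i => F (i + 1)) (fun i => hF _)]
    rw [e1 (fun i => F i / 2 ^ bw)]

/-- The truncation lemma: `trunc` computes the evaluation of the truncated measure. -/
theorem trunc_phi {O k d bw N : ℕ} {w : Meas} (hs : Supp O k w) (hk : k ≤ d) (hL : L = 2 * d * O + 1)
    (hN : N = 2 * d * O + L * (2 * d * O) + 1) (ht : tot w < 2 ^ B) (hb : bw ≤ B) :
    trunc bw (maskOf B bw N) (phi B L w) = phi B L (tr bw w) := by
  classical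
  set s := w.coeff.support with hsdef
  have hLpos : 0 < L := by omega
  have hinj : ∀ a ∈ s, ∀ b ∈ s, idx L a = idx L b → a = b := by
    intro a ha b hb h
    obtain ⟨h1, h2, -⟩ := supp_facts hs hk hL ha
    obtain ⟨h3, h4, -⟩ := supp_facts hs hk hL hb
    exact idx_inj hLpos h1 h2 h3 h4 h
  obtain ⟨T, hT⟩ : ∃ T, N = T + 1 := ⟨2 * d * O + L * (2 * d * O), hN⟩
  have hTs : ∀ m ∈ s, idx L m ≤ T := by
    intro m hm
    have := (supp_facts hs hk hL hm).2.2
    omega
  have hphi : phi B L w = ∑ i ∈ Finset.range N, digS L s (fun m => w.coeff m) i * 2 ^ (B * i) := by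
    rw [phi_eq_sum, hT, ← sum_eq_digS B L T s _ hTs]
  have hdig : ∀ i, digS L s (fun m => w.coeff m) i < 2 ^ B := fun i =>
    (digS_le_sum _ i).trans_lt ht
  have hcoeff : ∀ m, (tr bw w).coeff m = w.coeff m / 2 ^ bw := fun m => rfl
  have htr : phi B L (tr bw w) =
      ∑ m ∈ s, (w.coeff m / 2 ^ bw) * 2 ^ (B * idx L m) := by
    rw [phi_eq_sum]
    have hsub : (tr bw w).coeff.support ⊆ s := by
      intro m hm
      rw [Finsupp.mem_support_iff, hcoeff] at hm
      rw [hsdef, Finsupp.mem_support_iff]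
      intro h0
      rw [h0] at hm
      simp at hm
    rw [← Finset.sum_subset hsub]
    · refine Finset.sum_congr rfl fun m _ => ?_
      rw [hcoeff]
    · intro m _ hm
      rw [Finsupp.notMem_support_iff, hcoeff] at hm
      rw [hm, zero_mul]
  rw [hphi, trunc_digits hb N _ hdig, htr, sum_eq_digS B L T s _ hTs, hT]
  refine Finset.sum_congr rfl fun i _ => ?_
  rw [digS_comp hinj (fun m => w.coeff m) (fun c => c / 2 ^ bw) (by simp)]

end phi

/-! ### The trees -/

theorem seqN_eq {b : Type} (v : Nat) (k : Nat → b) : seqN v k = k v := by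
  unfold seqN
  cases Nat.ble 0 v <;> rfl

/-- a leaf of an assembly tree with its absolute data -/
structure PL where
  pos : Nat
  p : Nat
  o : Nat
  t : Nat
  q : Nat
  y0 : Nat
  y1 : Nat
  y2 : Nat

/-- the leaves of an assembly tree with their absolute positions -/
def PT.leaves : PT → Nat → List PL
  | .nil, _ => []
  | .lf p o t q y0 y1 y2, pos => [⟨pos, p, o, t, q, y0, y1, y2⟩]
  | .nd k l r, pos => PT.leaves l pos ++ PT.leaves r (pos + k)

theorem asm_eq (mw u st : ℕ) (T : PT) (pos : ℕ) :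
    asm mw u st T * 2 ^ pos
      = ((PT.leaves T pos).map (fun a => fieldC mw u st a.p a.o * 2 ^ a.pos)).sum := by
  induction T generalizing pos with
  | nil => simp [asm, PT.leaves]
  | lf p o t q y0 y1 y2 => simp [asm, PT.leaves]
  | nd k l r il ir =>
    have e : asm mw u st (PT.nd k l r) = asm mw u st l + asm mw u st r * 2 ^ k := by
      show Nat.add (asm mw u st l) (Nat.shiftLeft (asm mw u st r) k) = _
      show _ + (asm mw u st r) <<< k = _
      rw [Nat.shiftLeft_eq]
    rw [e, PT.leaves, List.map_append, List.sum_append, ← il, ← ir, pow_add]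
    ring

/-- the list of fields of a `ZL` -/
def ZL.toList : ZL → List (Nat × Nat × Nat)
  | .nil => []
  | .cons p o Z tl => (p, o, Z) :: ZL.toList tl

theorem sumZ_eq (mw u st : ℕ) (T : ZL) (acc : ℕ) :
    sumZ mw u st T acc
      = acc + ((ZL.toList T).map (fun a => a.2.2 * fieldC mw u st a.1 a.2.1)).sum := by
  induction T generalizing acc with
  | nil => simp [sumZ, ZL.toList]
  | cons p o Z tl ih =>
    have e : sumZ mw u st (ZL.cons p o Z tl) acc =
        seqN (Nat.add acc (Nat.mul Z (fieldC mw u st p o))) (fun a => sumZ mw u st tl a) := rfl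
    rw [e, seqN_eq, ih, ZL.toList, List.map_cons, List.sum_cons]
    show acc + Z * fieldC mw u st p o + _ = _
    ring

/-- the leaves of a traversal tree with absolute positions -/
def XT.leaves : XT → Nat → Nat → List XL
  | .nil, _, _ => []
  | .lf p1 M1 p2 M2 p3 M3 t1 q1 t2 q2 t3 q3 n0 n1 n2, pos, b =>
      [⟨pos, b + p1, M1, b + p2, M2, b + p3, M3, t1, q1, t2, q2, t3, q3, n0, n1, n2⟩]
  | .nd k q1 q2 l r, pos, b => XT.leaves l pos (b + q1) ++ XT.leaves r (pos + k) (b + q2)

/-- the digits read at the leaves of a traversal tree -/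
def XT.pairs (B : ℕ) : XT → ℕ → ℕ → ℕ → List (XL × ℕ)
  | .nil, _, _, _ => []
  | .lf p1 M1 p2 M2 p3 M3 t1 q1 t2 q2 t3 q3 n0 n1 n2, pos, b, w =>
      [(⟨pos, b + p1, M1, b + p2, M2, b + p3, M3, t1, q1, t2, q2, t3, q3, n0, n1, n2⟩, w % 2 ^ B)]
  | .nd k q1 q2 l r, pos, b, w =>
      XT.pairs B l pos (b + q1) (w % (1 <<< k)) ++ XT.pairs B r (pos + k) (b + q2) (w >>> k)

theorem XT.pairs_fst (B : ℕ) (T : XT) (pos b w : ℕ) :
    (XT.pairs B T pos b w).map Prod.fst = XT.leaves T pos b := by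
  induction T generalizing pos b w with
  | nil => rfl
  | lf p1 M1 p2 M2 p3 M3 t1 q1 t2 q2 t3 q3 n0 n1 n2 => rfl
  | nd k q1 q2 l r il ir =>
    rw [XT.pairs, XT.leaves, List.map_append, il, ir]

/-- the term of a leaf -/
def XL.term (a : XL) : ℕ := a.M1 * 2 ^ a.P1 + a.M2 * 2 ^ a.P2 + a.M3 * 2 ^ a.P3

theorem goX_eq (B : ℕ) (T : XT) (pos b w : ℕ) :
    goX (2 ^ B) T w * 2 ^ b = ((XT.pairs B T pos b w).map (fun x => x.2 * x.1.term)).sum := by
  induction T generalizing pos b w with
  | nil =>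
    simp [goX, XT.pairs]
  | lf p1 M1 p2 M2 p3 M3 t1 q1 t2 q2 t3 q3 n0 n1 n2 =>
    have e : goX (2 ^ B) (XT.lf p1 M1 p2 M2 p3 M3 t1 q1 t2 q2 t3 q3 n0 n1 n2) w =
        (w % 2 ^ B) * (M1 * 2 ^ p1 + M2 * 2 ^ p2 + M3 * 2 ^ p3) := by
      show (w % 2 ^ B) * (M1 <<< p1 + M2 <<< p2 + M3 <<< p3) = _
      simp only [Nat.shiftLeft_eq]
    rw [e, XT.pairs]
    simp only [List.map_cons, List.map_nil, List.sum_cons, List.sum_nil, add_zero, XL.term]
    rw [pow_add, pow_add, pow_add]
    ring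
  | nd k q1 q2 l r il ir =>
    have e : goX (2 ^ B) (XT.nd k q1 q2 l r) w =
        goX (2 ^ B) l (w % (1 <<< k)) * 2 ^ q1 + goX (2 ^ B) r (w >>> k) * 2 ^ q2 := by
      show (goX (2 ^ B) l (w % (1 <<< k))) <<< q1 + (goX (2 ^ B) r (w >>> k)) <<< q2 = _
      simp only [Nat.shiftLeft_eq]
    rw [e, XT.pairs, List.map_append, List.sum_append, ← il, ← ir, pow_add, pow_add]
    ring

private lemma mod_mod_two_pow_le (a j B : ℕ) : a % 2 ^ j % 2 ^ B ≤ a % 2 ^ B := by
  rcases le_total B j with h | h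
  · rw [Nat.mod_mod_of_dvd _ (pow_dvd_pow 2 h)]
  · calc a % 2 ^ j % 2 ^ B ≤ a % 2 ^ j := Nat.mod_le _ _
      _ = a % 2 ^ B % 2 ^ j := (Nat.mod_mod_of_dvd _ (pow_dvd_pow 2 h)).symm
      _ ≤ a % 2 ^ B := Nat.mod_le _ _

private lemma pairs_digit_aux (B : ℕ) (T : XT) (pos b w : ℕ) (x : XL × ℕ)
    (hx : x ∈ XT.pairs B T pos b w) :
    pos ≤ x.1.pos ∧ x.2 ≤ (w >>> (x.1.pos - pos)) % 2 ^ B := by
  induction T generalizing pos b w with
  | nil => simp [XT.pairs] at hx
  | lf p1 M1 p2 M2 p3 M3 t1 q1 t2 q2 t3 q3 n0 n1 n2 =>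
    simp only [XT.pairs, List.mem_singleton] at hx
    subst hx
    simp
  | nd k q1 q2 l r il ir =>
    rw [XT.pairs, List.mem_append] at hx
    rcases hx with hx | hx
    · obtain ⟨h1, h2⟩ := il _ _ _ hx
      refine ⟨h1, h2.trans ?_⟩
      -- truncation on the left
      set s := x.1.pos - pos
      rw [Nat.one_shiftLeft, Nat.shiftRight_eq_div_pow, Nat.shiftRight_eq_div_pow]
      rcases le_total s k with hs | hs
      · have e : w % 2 ^ k / 2 ^ s = (w / 2 ^ s) % 2 ^ (k - s) := by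
          rw [← Nat.mod_mul_right_div_self, ← pow_add, Nat.add_sub_cancel' hs]
        rw [e]
        exact mod_mod_two_pow_le _ _ _
      · have : w % 2 ^ k / 2 ^ s = 0 := by
          apply Nat.div_eq_of_lt
          exact (Nat.mod_lt _ (by positivity)).trans_le (Nat.pow_le_pow_right (by norm_num) hs)
        rw [this]
        simp
    · obtain ⟨h1, h2⟩ := ir _ _ _ hx
      refine ⟨by omega, h2.trans (le_of_eq ?_)⟩
      have e : x.1.pos - pos = k + (x.1.pos - (pos + k)) := by omega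
      rw [e, Nat.shiftRight_add]

/-- the digit read at a leaf is at most the digit of the number -/
theorem pairs_digit_le (B : ℕ) (T : XT) (W : ℕ) (x : XL × ℕ)
    (hx : x ∈ XT.pairs B T 0 0 W) : x.2 ≤ (W >>> x.1.pos) % 2 ^ B := by
  have := (pairs_digit_aux B T 0 0 W x hx).2
  simpa using this

/-- the truncated power on pairs of numbers -/
noncomputable def powN (bw MASK w1 e1 : ℕ) : Ops → ℕ → ℕ → ℕ × ℕ
  | .nil, w, e => (w, e)
  | .sq tl, w, e =>
      powN bw MASK w1 e1 tl (trunc bw MASK (w * w)) (trunc bw MASK (2 * w * e + e * e))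
  | .sqm tl, w, e =>
      let w2 := trunc bw MASK (w * w)
      let e2 := trunc bw MASK (2 * w * e + e * e)
      powN bw MASK w1 e1 tl (trunc bw MASK (w2 * w1)) (trunc bw MASK (w2 * e1 + e2 * w1 + e2 * e1))

theorem goPow_eq {β : Type} (bw MASK w1 e1 : ℕ) (T : Ops) (w e : ℕ) (k : ℕ → ℕ → β) :
    goPow bw MASK w1 e1 T w e k
      = k (powN bw MASK w1 e1 T w e).1 (powN bw MASK w1 e1 T w e).2 := by
  induction T generalizing w e with
  | nil => rfl
  | sq tl ih =>
    show seqN (trunc bw MASK (Nat.mul w w)) (fun w2 =>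
        seqN (trunc bw MASK (Nat.add (Nat.mul (Nat.mul 2 w) e) (Nat.mul e e))) (fun e2 =>
          goPow bw MASK w1 e1 tl w2 e2 k)) = _
    simp only [seqN_eq]
    exact ih _ _
  | sqm tl ih =>
    show seqN (trunc bw MASK (Nat.mul w w)) (fun w2 =>
        seqN (trunc bw MASK (Nat.add (Nat.mul (Nat.mul 2 w) e) (Nat.mul e e))) (fun e2 =>
          seqN (trunc bw MASK (Nat.mul w2 w1)) (fun w3 =>
            seqN (trunc bw MASK (Nat.add (Nat.add (Nat.mul w2 e1) (Nat.mul e2 w1)) (Nat.mul e2 e1)))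
              (fun e3 => goPow bw MASK w1 e1 tl w3 e3 k)))) = _
    simp only [seqN_eq]
    exact ih _ _

/-- the truncated power on pairs of measures -/
noncomputable def powM (bw : ℕ) (w1 e1 : Meas) : Ops → Meas → Meas → Meas × Meas
  | .nil, w, e => (w, e)
  | .sq tl, w, e =>
      powM bw w1 e1 tl (tr bw (w * w)) (tr bw (w * e + e * w + e * e))
  | .sqm tl, w, e =>
      let w2 := tr bw (w * w)
      let e2 := tr bw (w * e + e * w + e * e)
      powM bw w1 e1 tl (tr bw (w2 * w1)) (tr bw (w2 * e1 + e2 * w1 + e2 * e1))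

section powM

set_option linter.unusedSectionVars false

variable {ι : Type*} [Fintype ι] [DecidableEq ι] {d bw B O N L : ℕ} {r : ℝ}

/-- the properties of a pair at a level -/
private structure PairOK (bw O : ℕ) (r S F : ℝ) (M : ι → Vec) (k : ℕ) (w e : Meas) : Prop where
  inv : Inv3 w
  inve : InvE e
  sw : Supp O k w
  se : Supp O k e
  htot : tot w + tot e ≤ 2 ^ bw
  dom : Dom (powFam M k) (VP bw r O k w e)
  mw : ∀ j, massV bw r O k w j ≤ S ^ k
  me : ∀ j, massV bw r O k e j ≤ (S + F) ^ k - S ^ k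

private lemma pairOK_prod {S F : ℝ} (hr : 0 < r) {M : ι → Vec} (hM : ∀ i, 0 ≤ M i) {k k' : ℕ}
    {w e w' e' : Meas} (h : PairOK bw O r S F M k w e) (h' : PairOK bw O r S F M k' w' e') :
    PairOK bw O r S F M (k + k') (tr bw (w * w')) (tr bw (w * e' + e * w' + e * e')) where
  inv := inv3_tr (inv3_mul h.inv h'.inv)
  inve := invE_tr (invE_add (invE_add (invE_mul (invE_of_inv3 h.inv) h'.inve)
    (invE_mul h.inve (invE_of_inv3 h'.inv))) (invE_mul h.inve h'.inve))
  sw := supp_tr (supp_mul h.sw h'.sw)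
  se := supp_tr (supp_add (supp_add (supp_mul h.sw h'.se) (supp_mul h.se h'.sw))
    (supp_mul h.se h'.se))
  htot := by
    have h1 := tot_tr_le (bw := bw) (w * w')
    have h2 := tot_tr_le (bw := bw) (w * e' + e * w' + e * e')
    rw [tot_mul] at h1
    rw [tot_add, tot_add, tot_mul, tot_mul, tot_mul] at h2
    have h3 := h.htot
    have h4 := h'.htot
    have h5 : (tot w + tot e) * (tot w' + tot e') ≤ 2 ^ bw * 2 ^ bw := Nat.mul_le_mul h3 h4
    have h6 : 2 ^ bw * (tot (tr bw (w * w')) + tot (tr bw (w * e' + e * w' + e * e'))) ≤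
        2 ^ bw * 2 ^ bw := by
      rw [mul_add]
      calc _ ≤ tot w * tot w' + (tot w * tot e' + tot e * tot w' + tot e * tot e') :=
            Nat.add_le_add h1 h2
        _ = (tot w + tot e) * (tot w' + tot e') := by ring
        _ ≤ _ := h5
    exact Nat.le_of_mul_le_mul_left h6 (by positivity)
  dom := by
    intro G hG
    rw [val_powFam_add]
    exact dom_prod hr (powFam_nonneg hM k) (powFam_nonneg hM k') h.inv h'.inv h.dom h'.dom G hG
  mw := by
    intro j
    have h1 := massV_tr_le (bw := bw) (O := O) (k := k + k') hr (w * w') j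
    rw [massV_mul _ _ _ hr] at h1
    have h2 : ((2 : ℝ) ^ bw)⁻¹ * (2 ^ bw * (massV bw r O k w j * massV bw r O k' w' j)) =
        massV bw r O k w j * massV bw r O k' w' j := by
      rw [← mul_assoc, inv_mul_cancel₀ (by positivity), one_mul]
    rw [h2] at h1
    refine h1.trans ?_
    rw [pow_add]
    exact mul_le_mul (h.mw j) (h'.mw j) (massV_nonneg hr _ _)
      ((massV_nonneg hr _ _).trans (h.mw j))
  me := by
    intro j
    have h1 := massV_tr_le (bw := bw) (O := O) (k := k + k') hr (w * e' + e * w' + e * e') j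
    rw [massV_add, massV_add, massV_mul _ _ _ hr, massV_mul _ _ _ hr, massV_mul _ _ _ hr] at h1
    set a := massV bw r O k w j with ha
    set b := massV bw r O k e j with hb
    set a' := massV bw r O k' w' j with ha'
    set b' := massV bw r O k' e' j with hb'
    have h2 : ((2 : ℝ) ^ bw)⁻¹ * (2 ^ bw * (a * b') + 2 ^ bw * (b * a') + 2 ^ bw * (b * b')) =
        a * b' + b * a' + b * b' := by
      have : (2 : ℝ) ^ bw ≠ 0 := by positivity
      field_simp
    rw [h2] at h1
    refine h1.trans ?_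
    have a0 : 0 ≤ a := massV_nonneg hr _ _
    have b0 : 0 ≤ b := massV_nonneg hr _ _
    have a'0 : 0 ≤ a' := massV_nonneg hr _ _
    have b'0 : 0 ≤ b' := massV_nonneg hr _ _
    have ha1 := h.mw j
    have hb1 := h.me j
    have ha2 := h'.mw j
    have hb2 := h'.me j
    rw [pow_add, pow_add]
    set A := S ^ k
    set A' := S ^ k'
    set C := (S + F) ^ k
    set C' := (S + F) ^ k'
    have t1 : a * b' ≤ A * (C' - A') := mul_le_mul ha1 hb2 b'0 (a0.trans ha1)
    have t2 : b * a' ≤ (C - A) * A' := mul_le_mul hb1 ha2 a'0 (b0.trans hb1)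
    have t3 : b * b' ≤ (C - A) * (C' - A') := mul_le_mul hb1 hb2 b'0 (b0.trans hb1)
    nlinarith

private lemma le_expo (T : Ops) (k : ℕ) : k ≤ Ops.expo T k := by
  induction T generalizing k with
  | nil => exact le_rfl
  | sq tl ih =>
    have := ih (2 * k)
    show k ≤ Ops.expo tl (2 * k)
    omega
  | sqm tl ih =>
    have := ih (2 * k + 1)
    show k ≤ Ops.expo tl (2 * k + 1)
    omega

private lemma trunc_prod {S F : ℝ} (hL : L = 2 * d * O + 1)
    (hN : N = 2 * d * O + L * (2 * d * O) + 1) (hB : 2 * bw + 2 ≤ B) {M : ι → Vec} {k k' : ℕ}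
    (hkd : k + k' ≤ d) {w e w' e' : Meas} (h : PairOK bw O r S F M k w e)
    (h' : PairOK bw O r S F M k' w' e') :
    trunc bw (maskOf B bw N) (phi B L w * phi B L w') = phi B L (tr bw (w * w')) ∧
    trunc bw (maskOf B bw N) (phi B L w * phi B L e' + phi B L e * phi B L w'
        + phi B L e * phi B L e') = phi B L (tr bw (w * e' + e * w' + e * e')) := by
  have hb : bw ≤ B := by omega
  have hlt : 2 ^ bw * 2 ^ bw < 2 ^ B := by
    rw [← pow_add]
    exact Nat.pow_lt_pow_right (by norm_num) (by omega)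
  have h3 := h.htot
  have h4 := h'.htot
  have h5 : (tot w + tot e) * (tot w' + tot e') ≤ 2 ^ bw * 2 ^ bw := Nat.mul_le_mul h3 h4
  constructor
  · rw [← phi_mul]
    apply trunc_phi (supp_mul h.sw h'.sw) hkd hL hN _ hb
    rw [tot_mul]
    refine lt_of_le_of_lt ?_ hlt
    refine le_trans ?_ h5
    exact Nat.mul_le_mul (by omega) (by omega)
  · rw [← phi_mul, ← phi_mul, ← phi_mul, ← phi_add, ← phi_add]
    apply trunc_phi (supp_add (supp_add (supp_mul h.sw h'.se) (supp_mul h.se h'.sw))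
      (supp_mul h.se h'.se)) hkd hL hN _ hb
    rw [tot_add, tot_add, tot_mul, tot_mul, tot_mul]
    refine lt_of_le_of_lt ?_ hlt
    refine le_trans ?_ h5
    apply le_of_eq_of_le (b := tot w * tot e' + tot e * tot w' + tot e * tot e') rfl
    nlinarith [Nat.zero_le (tot w * tot w')]

private theorem powM_aux {S F : ℝ} (hr : 0 < r)
    (hL : L = 2 * d * O + 1) (hN : N = 2 * d * O + L * (2 * d * O) + 1) (hB : 2 * bw + 2 ≤ B)
    {M : ι → Vec} (hM : ∀ i, 0 ≤ M i) {w1 e1 : Meas}
    (h1 : PairOK bw O r S F M 1 w1 e1)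
    (T : Ops) (k : ℕ) (hk1 : 1 ≤ k) (hkd : Ops.expo T k ≤ d) (w e : Meas)
    (hp : PairOK bw O r S F M k w e) :
    powN bw (maskOf B bw N) (phi B L w1) (phi B L e1) T (phi B L w) (phi B L e)
        = (phi B L (powM bw w1 e1 T w e).1, phi B L (powM bw w1 e1 T w e).2)
      ∧ PairOK bw O r S F M (Ops.expo T k) (powM bw w1 e1 T w e).1 (powM bw w1 e1 T w e).2 := by
  induction T generalizing k w e with
  | nil => exact ⟨rfl, hp⟩
  | sq tl ih =>
    have hk2 : Ops.expo tl (2 * k) ≤ d := hkd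
    have hle := le_expo tl (2 * k)
    have hkk : k + k ≤ d := by omega
    obtain ⟨t1, t2⟩ := trunc_prod hL hN hB hkk hp hp
    have hnew : PairOK bw O r S F M (2 * k) (tr bw (w * w)) (tr bw (w * e + e * w + e * e)) := by
      rw [two_mul]
      exact pairOK_prod hr hM hp hp
    have e1' : 2 * phi B L w * phi B L e + phi B L e * phi B L e =
        phi B L w * phi B L e + phi B L e * phi B L w + phi B L e * phi B L e := by ring
    have hR := ih (2 * k) (by omega) hk2 _ _ hnew
    refine ⟨?_, hR.2⟩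
    show powN bw (maskOf B bw N) (phi B L w1) (phi B L e1) tl
      (trunc bw (maskOf B bw N) (phi B L w * phi B L w))
      (trunc bw (maskOf B bw N) (2 * phi B L w * phi B L e + phi B L e * phi B L e)) = _
    rw [e1', t1, t2]
    exact hR.1
  | sqm tl ih =>
    have hk2 : Ops.expo tl (2 * k + 1) ≤ d := hkd
    have hle := le_expo tl (2 * k + 1)
    have hkk : k + k ≤ d := by omega
    obtain ⟨t1, t2⟩ := trunc_prod hL hN hB hkk hp hp
    have hnew : PairOK bw O r S F M (2 * k) (tr bw (w * w)) (tr bw (w * e + e * w + e * e)) := by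
      rw [two_mul]
      exact pairOK_prod hr hM hp hp
    have hnew1 := pairOK_prod hr hM hnew h1
    obtain ⟨t3, t4⟩ := trunc_prod hL hN hB (show 2 * k + 1 ≤ d by omega) hnew h1
    have e1' : 2 * phi B L w * phi B L e + phi B L e * phi B L e =
        phi B L w * phi B L e + phi B L e * phi B L w + phi B L e * phi B L e := by ring
    have hR := ih (2 * k + 1) (by omega) hk2 _ _ hnew1
    refine ⟨?_, hR.2⟩
    show powN bw (maskOf B bw N) (phi B L w1) (phi B L e1) tl
      (trunc bw (maskOf B bw N) (trunc bw (maskOf B bw N) (phi B L w * phi B L w) * phi B L w1))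
      (trunc bw (maskOf B bw N)
        (trunc bw (maskOf B bw N) (phi B L w * phi B L w) * phi B L e1 +
          trunc bw (maskOf B bw N) (2 * phi B L w * phi B L e + phi B L e * phi B L e) * phi B L w1 +
          trunc bw (maskOf B bw N) (2 * phi B L w * phi B L e + phi B L e * phi B L e) * phi B L e1)) = _
    rw [e1', t1, t2, t3, t4]
    exact hR.1

/-- Everything the power of pairs preserves: the evaluations agree with the numbers, and domination,
support, invariance, totals and mass bounds hold at level `Ops.expo T k`, all along. Here `F` is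
the family at level `k` and `F1` the family at level `1`. -/
theorem powM_props {ι : Type*} [Fintype ι] [DecidableEq ι] {d bw B O N L : ℕ} {r : ℝ} (hr : 0 < r)
    (hL : L = 2 * d * O + 1) (hN : N = 2 * d * O + L * (2 * d * O) + 1) (hB : 2 * bw + 2 ≤ B)
    {M : ι → Vec} (hM : ∀ i, 0 ≤ M i)
    {w1 e1 : Meas} (h1 : Inv3 w1) (h1e : InvE e1) (s1 : Supp O 1 w1) (s1e : Supp O 1 e1)
    (ht1 : tot w1 + tot e1 ≤ 2 ^ bw)
    (hd1 : Dom (powFam M 1) (VP bw r O 1 w1 e1))
    (T : Ops) (k : ℕ) (hk1 : 1 ≤ k) (hkd : Ops.expo T k ≤ d) (w e : Meas)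
    (hw : Inv3 w) (he : InvE e) (sw : Supp O k w) (se : Supp O k e) (ht : tot w + tot e ≤ 2 ^ bw)
    (hd : Dom (powFam M k) (VP bw r O k w e))
    (S F : ℝ) (hS : ∀ j, massV bw r O 1 w1 j ≤ S) (hF : ∀ j, massV bw r O 1 e1 j ≤ F)
    (hS0 : 0 ≤ S) (hF0 : 0 ≤ F)
    (hmw : ∀ j, massV bw r O k w j ≤ S ^ k) (hme : ∀ j, massV bw r O k e j ≤ (S + F) ^ k - S ^ k) :
    let R := powM bw w1 e1 T w e
    let K := Ops.expo T k
    powN bw (maskOf B bw N) (phi B L w1) (phi B L e1) T (phi B L w) (phi B L e)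
        = (phi B L R.1, phi B L R.2)
      ∧ Inv3 R.1 ∧ InvE R.2 ∧ Supp O K R.1 ∧ Supp O K R.2 ∧ tot R.1 + tot R.2 ≤ 2 ^ bw
      ∧ Dom (powFam M K) (VP bw r O K R.1 R.2)
      ∧ (∀ j, massV bw r O K R.1 j ≤ S ^ K)
      ∧ (∀ j, massV bw r O K R.2 j ≤ (S + F) ^ K - S ^ K) := by
  intro R K
  have hp1 : PairOK bw O r S F M 1 w1 e1 :=
    ⟨h1, h1e, s1, s1e, ht1, hd1, fun j => by simpa using hS j, fun j => by simpa using hF j⟩
  have hp : PairOK bw O r S F M k w e := ⟨hw, he, sw, se, ht, hd, hmw, hme⟩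
  obtain ⟨h2, h3⟩ := powM_aux hr hL hN hB hM hp1 T k hk1 hkd w e hp
  exact ⟨h2, h3.inv, h3.inve, h3.sw, h3.se, h3.htot, h3.dom, h3.mw, h3.me⟩

end powM

end Vale.Agent.Lib.P154.Chain
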