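import Vale.Agent.Lib.P154.Chain.Fam

/-!
Measures on the exponent lattice: the value of a pair (plain atoms, atoms with a zeroed coordinate)
on a test function, products and truncation.
-/

namespace Vale.Agent.Lib.P154.Chain

open scoped BigOperators

/-- exponent vectors -/
abbrev Ex := Fin 3 → ℕ

/-- measures on the exponent lattice, with the convolution product -/
abbrev Meas := AddMonoidAlgebra ℕ Ex

/-- the ray of exponent `n` at level `k` -/
noncomputable def ray (r : ℝ) (O k : ℕ) (n : Ex) : Vec :=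
  fun i => r ^ ((n i : ℤ) - ((k * O : ℕ) : ℤ))

/-- the vector with coordinate `m` zeroed -/
noncomputable def mask (m : Fin 3) : Vec := fun i => if i = m then 0 else 1

/-- the permutation that brings coordinate `m` to `0` -/
def tau (m : Fin 3) : Equiv.Perm (Fin 3) := Equiv.swap 0 m

/-- the weighted sum over the atoms of a measure -/
noncomputable def atomsVal (w : Meas) (f : Ex → ℝ) : ℝ := w.coeff.sum (fun n c => (c : ℝ) * f n)

/-- The value of a pair on a test function, with unit `2^(-bw)` for one atom: the plain atoms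
`w(n) ray(n)` and for each `m` the atoms `e(n) ray(n o tau m) * mask m`. -/
noncomputable def VP (bw : ℕ) (r : ℝ) (O k : ℕ) (w e : Meas) (G : Vec → ℝ) : ℝ :=
  ((2 : ℝ) ^ bw)⁻¹ * (atomsVal w (fun n => G (ray r O k n))
    + ∑ m : Fin 3, atomsVal e (fun n => G (ray r O k (n ∘ tau m) * mask m)))

/-- the truncation of the coefficients -/
noncomputable def tr (bw : ℕ) (w : Meas) : Meas :=
  ⟨Finsupp.mapRange (fun c => c / 2 ^ bw) (Nat.zero_div _) w.coeff⟩

/-- invariance of a plain measure under the permutations -/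
def Inv3 (w : Meas) : Prop := ∀ (σ : Equiv.Perm (Fin 3)) (n : Ex), w.coeff (n ∘ σ) = w.coeff n

/-- invariance of a special measure under the exchange of the coordinates `1` and `2` -/
def InvE (e : Meas) : Prop := ∀ n : Ex, e.coeff (n ∘ Equiv.swap 1 2) = e.coeff n

/-- the support condition at level `k` -/
def Supp (O k : ℕ) (w : Meas) : Prop :=
  ∀ n : Ex, w.coeff n ≠ 0 → n 0 + n 1 + n 2 = 3 * (k * O) ∧ ∀ i, n i ≤ 2 * (k * O)

/-- the total of the coefficients -/
noncomputable def tot (w : Meas) : ℕ := w.coeff.sum (fun _ c => c)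

section rules

variable {bw O k k' : ℕ} {r : ℝ}

theorem ray_mul (hr : 0 < r) (n n' : Ex) :
    ray r O k n * ray r O k' n' = ray r O (k + k') (n + n') := by
  funext i
  simp only [ray, Pi.mul_apply, Pi.add_apply]
  rw [← zpow_add₀ hr.ne']
  congr 1
  push_cast
  ring

theorem ray_pos (hr : 0 < r) (n : Ex) (i : Fin 3) : 0 < ray r O k n i := by
  unfold ray
  exact zpow_pos hr _

theorem ray_nonneg (hr : 0 < r) (n : Ex) : 0 ≤ ray r O k n := fun i => (ray_pos hr n i).le

theorem ray_perm (σ : Equiv.Perm (Fin 3)) (n : Ex) : ray r O k (n ∘ σ) = ray r O k n ∘ σ := rfl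

theorem mask_nonneg (m : Fin 3) : 0 ≤ mask m := by
  intro i
  simp only [mask, Pi.zero_apply]
  split_ifs <;> norm_num

theorem mask_mul_self (m : Fin 3) : mask m * mask m = mask m := by
  funext i
  simp only [mask, Pi.mul_apply]
  split_ifs <;> norm_num

/-- two different masks leave a vertex -/
theorem mask_mul_ne {m m' : Fin 3} (h : m ≠ m') : ∃ i : Fin 3, mask m * mask m' = Pi.single i 1 := by
  obtain ⟨i, hi⟩ : ∃ i : Fin 3, ∀ j : Fin 3, j = i ↔ (j ≠ m ∧ j ≠ m') := by
    revert m m'
    decide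
  refine ⟨i, ?_⟩
  funext j
  have := hi j
  simp only [mask, Pi.mul_apply, Pi.single_apply]
  by_cases h1 : j = i
  · have h2 := this.1 h1
    rw [if_pos h1, if_neg h2.1, if_neg h2.2]
    norm_num
  · rw [if_neg h1]
    by_cases h3 : j = m
    · rw [if_pos h3]; norm_num
    · by_cases h4 : j = m'
      · rw [if_pos h4]; norm_num
      · exact absurd (this.2 ⟨h3, h4⟩) h1

theorem mask_perm (σ : Equiv.Perm (Fin 3)) (m : Fin 3) : mask m ∘ σ = mask (σ⁻¹ m) := by
  funext i
  simp only [mask, Function.comp_apply]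
  have : σ i = m ↔ i = σ⁻¹ m := by
    rw [Equiv.Perm.eq_inv_iff_eq]
  by_cases h : σ i = m
  · rw [if_pos h, if_pos (this.1 h)]
  · rw [if_neg h, if_neg (fun h' => h (this.2 h'))]

/-! ### Linear algebra of `atomsVal` -/

theorem atomsVal_congr (w : Meas) {f g : Ex → ℝ} (h : ∀ n, f n = g n) :
    atomsVal w f = atomsVal w g := by
  unfold atomsVal Finsupp.sum
  exact Finset.sum_congr rfl (fun n _ => by simp only [h n])

theorem atomsVal_const_mul (w : Meas) (c : ℝ) (f : Ex → ℝ) :
    atomsVal w (fun n => c * f n) = c * atomsVal w f := by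
  unfold atomsVal Finsupp.sum
  rw [Finset.mul_sum]
  exact Finset.sum_congr rfl (fun n _ => by ring)

theorem atomsVal_mul_const (w : Meas) (c : ℝ) (f : Ex → ℝ) :
    atomsVal w (fun n => f n * c) = atomsVal w f * c := by
  unfold atomsVal Finsupp.sum
  rw [Finset.sum_mul]
  exact Finset.sum_congr rfl (fun n _ => by ring)

theorem atomsVal_add_fun (w : Meas) (f g : Ex → ℝ) :
    atomsVal w (fun n => f n + g n) = atomsVal w f + atomsVal w g := by
  unfold atomsVal Finsupp.sum
  rw [← Finset.sum_add_distrib]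
  exact Finset.sum_congr rfl (fun n _ => by ring)

theorem atomsVal_sum_fun {ι : Type*} (w : Meas) (s : Finset ι) (F : ι → Ex → ℝ) :
    atomsVal w (fun n => ∑ i ∈ s, F i n) = ∑ i ∈ s, atomsVal w (F i) := by
  unfold atomsVal Finsupp.sum
  rw [Finset.sum_comm]
  refine Finset.sum_congr rfl (fun n _ => ?_)
  simp only
  rw [Finset.mul_sum]

theorem atomsVal_nonneg (w : Meas) {f : Ex → ℝ} (h : ∀ n, 0 ≤ f n) : 0 ≤ atomsVal w f := by
  unfold atomsVal Finsupp.sum
  exact Finset.sum_nonneg (fun n _ => mul_nonneg (Nat.cast_nonneg _) (h n))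

theorem atomsVal_add (w w' : Meas) (f : Ex → ℝ) :
    atomsVal (w + w') f = atomsVal w f + atomsVal w' f := by
  unfold atomsVal
  rw [AddMonoidAlgebra.coeff_add]
  refine Finsupp.sum_add_index' (fun n => by simp) (fun n a b => ?_)
  push_cast
  ring

/-- the sum over the atoms of a product -/
theorem atomsVal_mul (w w' : Meas) (f : Ex → ℝ) :
    atomsVal (w * w') f = atomsVal w (fun n => atomsVal w' (fun n' => f (n + n'))) := by
  classical
  unfold atomsVal
  rw [AddMonoidAlgebra.mul_def]
  have h1 : ∀ (S : Ex →₀ ℕ) (F : Ex → ℕ → Meas), (S.sum F).coeff = S.sum (fun a b => (F a b).coeff) := by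
    intro S F
    exact AddMonoidAlgebra.coeff_finsuppSum S F
  rw [h1, Finsupp.sum_sum_index (fun n => by simp) (fun n a b => by push_cast; ring)]
  refine Finset.sum_congr rfl (fun n _ => ?_)
  beta_reduce
  rw [h1, Finsupp.sum_sum_index (fun n => by simp) (fun n a b => by push_cast; ring)]
  have hs : ∀ (a : Ex) (c : ℕ), (AddMonoidAlgebra.single a c : Meas).coeff.sum
      (fun x (y : ℕ) => (y : ℝ) * f x) = c * f a := by
    intro a c
    rw [AddMonoidAlgebra.coeff_single, Finsupp.sum_single_index (by simp)]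
  simp only [hs]
  unfold Finsupp.sum
  rw [Finset.mul_sum]
  refine Finset.sum_congr rfl (fun n' _ => ?_)
  push_cast
  ring

theorem atomsVal_tr_ge (w : Meas) (f : Ex → ℝ) (hf : ∀ n, f n ≤ 0) :
    ((2 : ℝ) ^ bw)⁻¹ * atomsVal w f ≤ atomsVal (tr bw w) f := by
  unfold atomsVal tr
  rw [Finsupp.sum_mapRange_index (fun n => by simp)]
  unfold Finsupp.sum
  rw [Finset.mul_sum]
  refine Finset.sum_le_sum (fun n _ => ?_)
  have h1 : (((w.coeff n / 2 ^ bw : ℕ)) : ℝ) ≤ (w.coeff n : ℝ) / (2 : ℝ) ^ bw := by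
    have := Nat.cast_div_le (α := ℝ) (m := w.coeff n) (n := 2 ^ bw)
    push_cast at this
    exact this
  have h2 := mul_le_mul_of_nonpos_right h1 (hf n)
  calc ((2 : ℝ) ^ bw)⁻¹ * ((w.coeff n : ℝ) * f n) = (w.coeff n : ℝ) / (2 : ℝ) ^ bw * f n := by
        field_simp
    _ ≤ _ := h2

theorem atomsVal_tr_le (w : Meas) (f : Ex → ℝ) (hf : ∀ n, 0 ≤ f n) :
    atomsVal (tr bw w) f ≤ ((2 : ℝ) ^ bw)⁻¹ * atomsVal w f := by
  unfold atomsVal tr
  rw [Finsupp.sum_mapRange_index (fun n => by simp)]
  unfold Finsupp.sum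
  rw [Finset.mul_sum]
  refine Finset.sum_le_sum (fun n _ => ?_)
  have h1 : (((w.coeff n / 2 ^ bw : ℕ)) : ℝ) ≤ (w.coeff n : ℝ) / (2 : ℝ) ^ bw := by
    have := Nat.cast_div_le (α := ℝ) (m := w.coeff n) (n := 2 ^ bw)
    push_cast at this
    exact this
  have h2 := mul_le_mul_of_nonneg_right h1 (hf n)
  calc _ ≤ (w.coeff n : ℝ) / (2 : ℝ) ^ bw * f n := h2
    _ = ((2 : ℝ) ^ bw)⁻¹ * ((w.coeff n : ℝ) * f n) := by
        field_simp

theorem atomsVal_mono (w : Meas) {f g : Ex → ℝ} (h : ∀ n, f n ≤ g n) :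
    atomsVal w f ≤ atomsVal w g := by
  unfold atomsVal Finsupp.sum
  exact Finset.sum_le_sum (fun n _ => mul_le_mul_of_nonneg_left (h n) (Nat.cast_nonneg _))

/-- reindexing by a permutation for a measure invariant under this permutation -/
theorem atomsVal_perm_of {w : Meas} {σ : Equiv.Perm (Fin 3)}
    (hw : ∀ n : Ex, w.coeff (n ∘ σ) = w.coeff n) (f : Ex → ℝ) :
    atomsVal w (fun n => f (n ∘ σ)) = atomsVal w f := by
  classical
  unfold atomsVal Finsupp.sum
  have hinv : ∀ n : Ex, (n ∘ σ) ∘ (σ⁻¹ : Equiv.Perm (Fin 3)) = n := by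
    intro n
    funext i
    simp
  have hinv' : ∀ n : Ex, (n ∘ (σ⁻¹ : Equiv.Perm (Fin 3))) ∘ σ = n := by
    intro n
    funext i
    simp
  refine Finset.sum_nbij' (fun n => n ∘ σ) (fun n => n ∘ (σ⁻¹ : Equiv.Perm (Fin 3))) ?_ ?_ ?_ ?_ ?_
  · intro n hn
    rw [Finsupp.mem_support_iff] at hn ⊢
    rwa [hw]
  · intro n hn
    rw [Finsupp.mem_support_iff] at hn ⊢
    have := hw (n ∘ (σ⁻¹ : Equiv.Perm (Fin 3)))
    rw [hinv'] at this
    rw [← this]
    exact hn
  · intro n _
    exact hinv n
  · intro n _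
    exact hinv' n
  · intro n _
    rw [hw]

/-- reindexing by a permutation for an invariant measure -/
theorem atomsVal_perm {w : Meas} (hw : Inv3 w) (σ : Equiv.Perm (Fin 3)) (f : Ex → ℝ) :
    atomsVal w (fun n => f (n ∘ σ)) = atomsVal w f :=
  atomsVal_perm_of (hw σ) f

theorem ray_mask_nonneg (hr : 0 < r) (n : Ex) (m : Fin 3) : 0 ≤ ray r O k n * mask m :=
  mul_nonneg (ray_nonneg hr n) (mask_nonneg m)

/-- the value of a pair is monotone in the test function -/
theorem VP_mono (hr : 0 < r) {w e : Meas} {G H : Vec → ℝ} (h : ∀ v : Vec, 0 ≤ v → G v ≤ H v) :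
    VP bw r O k w e G ≤ VP bw r O k w e H := by
  unfold VP
  refine mul_le_mul_of_nonneg_left ?_ (by positivity)
  refine add_le_add (atomsVal_mono _ (fun n => h _ (ray_nonneg hr n))) ?_
  exact Finset.sum_le_sum (fun m _ => atomsVal_mono _ (fun n => h _ (ray_mask_nonneg hr _ m)))

/-- Linear expansion of `VP`. -/
theorem VP_nsub {Φ : Vec → Vec → ℝ} (hr : 0 < r) {w e : Meas} (hΦ : ∀ v : Vec, 0 ≤ v → NSub (Φ v)) :
    NSub (fun u => VP bw r O k w e (fun v => Φ v u)) := by
  have hw : ∀ (x : Meas) (f : Ex → Vec), (∀ n, 0 ≤ f n) → NSub (fun u => atomsVal x (fun n => Φ (f n) u)) := by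
    intro x f hf
    unfold atomsVal Finsupp.sum
    refine NSub.finset_sum _ (fun n _ => ?_)
    exact (hΦ _ (hf n)).const_mul (Nat.cast_nonneg _)
  unfold VP
  have h1 := hw w (fun n => ray r O k n) (fun n => ray_nonneg hr n)
  have h2 : NSub (fun u => ∑ m : Fin 3, atomsVal e (fun n => Φ (ray r O k (n ∘ tau m) * mask m) u)) :=
    NSub.finset_sum _ (fun m _ => hw e _ (fun n => ray_mask_nonneg hr _ m))
  have hadd : NSub (fun u => atomsVal w (fun n => Φ (ray r O k n) u) +
      ∑ m : Fin 3, atomsVal e (fun n => Φ (ray r O k (n ∘ tau m) * mask m) u)) := by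
    refine { add_le := ?_, smul_eq := ?_, vertex := ?_ }
    · intro a b ha hb
      have := h1.add_le a b ha hb
      have := h2.add_le a b ha hb
      linarith
    · intro t a ht ha
      rw [h1.smul_eq t a ht ha, h2.smul_eq t a ht ha]
      ring
    · intro i
      rw [h1.vertex i, h2.vertex i]
      ring
  exact hadd.const_mul (by positivity)

/-- the product rule for the values: the inner value of a pair on `v -> G (u * v)` integrates to the
value of the truncated product. Products of different masks are multiples of vertices, where `G`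
vanishes. -/
theorem VP_mul (hr : 0 < r) {G : Vec → ℝ} (hG : NSub G) {w1 e1 w2 e2 : Meas} (h1 : Inv3 w1)
    (h2 : Inv3 w2) :
    VP bw r O k w1 e1 (fun u => VP bw r O k' w2 e2 (fun v => G (u * v)))
      ≤ VP bw r O (k + k') (tr bw (w1 * w2)) (tr bw (w1 * e2 + e1 * w2 + e1 * e2)) G := by
  set c : ℝ := ((2 : ℝ) ^ bw)⁻¹ with hc
  have hc0 : 0 ≤ c := by positivity
  -- the two test functions of the result
  set f0 : Ex → ℝ := fun N => G (ray r O (k + k') N) with hf0
  set fm : Fin 3 → Ex → ℝ := fun m N => G (ray r O (k + k') (N ∘ tau m) * mask m) with hfm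
  have hf0le : ∀ n, f0 n ≤ 0 := fun n => hG.nonpos (ray_nonneg hr n)
  have hfmle : ∀ m n, fm m n ≤ 0 := fun m n => hG.nonpos (ray_mask_nonneg hr _ m)
  -- the four parts
  have hA : atomsVal w1 (fun n => atomsVal w2 (fun n' => G (ray r O k n * ray r O k' n'))) =
      atomsVal (w1 * w2) f0 := by
    rw [atomsVal_mul]
    refine atomsVal_congr _ (fun n => atomsVal_congr _ (fun n' => ?_))
    rw [hf0]
    simp only
    rw [ray_mul hr]
  have hB : ∀ m : Fin 3, atomsVal w1 (fun n => atomsVal e2 (fun n' =>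
        G (ray r O k n * (ray r O k' (n' ∘ tau m) * mask m)))) = atomsVal (w1 * e2) (fm m) := by
    intro m
    rw [atomsVal_mul, ← atomsVal_perm h1 (tau m)]
    refine atomsVal_congr _ (fun n => atomsVal_congr _ (fun n' => ?_))
    rw [hfm]
    simp only
    rw [← mul_assoc, ray_mul hr]
    rfl
  have hC : ∀ m : Fin 3, atomsVal e1 (fun n => atomsVal w2 (fun n' =>
        G (ray r O k (n ∘ tau m) * mask m * ray r O k' n'))) = atomsVal (e1 * w2) (fm m) := by
    intro m
    rw [atomsVal_mul]
    refine atomsVal_congr _ (fun n => ?_)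
    rw [← atomsVal_perm h2 (tau m)]
    refine atomsVal_congr _ (fun n' => ?_)
    rw [hfm]
    simp only
    rw [mul_right_comm, ray_mul hr]
    rfl
  have hD : ∀ m m' : Fin 3, atomsVal e1 (fun n => atomsVal e2 (fun n' =>
        G (ray r O k (n ∘ tau m) * mask m * (ray r O k' (n' ∘ tau m') * mask m')))) =
        if m = m' then atomsVal (e1 * e2) (fm m) else 0 := by
    intro m m'
    by_cases hm : m = m'
    · subst hm
      rw [if_pos rfl, atomsVal_mul]
      refine atomsVal_congr _ (fun n => atomsVal_congr _ (fun n' => ?_))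
      rw [hfm]
      simp only
      rw [mul_mul_mul_comm, ray_mul hr, mask_mul_self]
      rfl
    · rw [if_neg hm]
      obtain ⟨i, hi⟩ := mask_mul_ne hm
      have hzero : ∀ n n' : Ex, G (ray r O k (n ∘ tau m) * mask m * (ray r O k' (n' ∘ tau m') * mask m')) = 0 := by
        intro n n'
        rw [mul_mul_mul_comm, hi, ray_mul hr]
        have hv : ray r O (k + k') (n ∘ tau m + n' ∘ tau m') * (Pi.single i 1 : Vec) =
            (ray r O (k + k') (n ∘ tau m + n' ∘ tau m') i) • (Pi.single i 1 : Vec) := by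
          funext j
          simp only [Pi.mul_apply, Pi.smul_apply, smul_eq_mul, Pi.single_apply]
          by_cases hj : j = i
          · subst hj
            simp
          · simp [hj]
        rw [hv, hG.smul_eq _ _ (ray_pos hr _ i).le (by
          intro j
          simp only [Pi.single_apply, Pi.zero_apply]
          split_ifs <;> norm_num), hG.vertex i]
        simp
      have : (fun n => atomsVal e2 (fun n' =>
          G (ray r O k (n ∘ tau m) * mask m * (ray r O k' (n' ∘ tau m') * mask m')))) = fun _ => 0 := by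
        funext n
        simp only [hzero]
        unfold atomsVal Finsupp.sum
        simp
      rw [this]
      unfold atomsVal Finsupp.sum
      simp
  -- the left-hand side
  have hL : VP bw r O k w1 e1 (fun u => VP bw r O k' w2 e2 (fun v => G (u * v))) =
      c * (c * (atomsVal (w1 * w2) f0 +
        ∑ m : Fin 3, atomsVal (w1 * e2 + e1 * w2 + e1 * e2) (fm m))) := by
    unfold VP
    rw [← hc]
    congr 1
    rw [atomsVal_const_mul]
    have e1' : ∀ m : Fin 3, atomsVal e1 (fun n =>
        c * (atomsVal w2 (fun n' => G (ray r O k (n ∘ tau m) * mask m * ray r O k' n')) +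
          ∑ m' : Fin 3, atomsVal e2 (fun n' =>
            G (ray r O k (n ∘ tau m) * mask m * (ray r O k' (n' ∘ tau m') * mask m'))))) =
        c * (atomsVal (e1 * w2) (fm m) + atomsVal (e1 * e2) (fm m)) := by
      intro m
      rw [atomsVal_const_mul, atomsVal_add_fun, atomsVal_sum_fun, hC m]
      simp only [hD m]
      simp
    simp only [e1']
    rw [atomsVal_add_fun, atomsVal_sum_fun, hA]
    simp only [hB]
    rw [← Finset.mul_sum, mul_add, mul_add, add_assoc, ← mul_add]
    congr 2
    rw [← Finset.sum_add_distrib]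
    simp only [atomsVal_add]
    refine Finset.sum_congr rfl (fun m _ => ?_)
    ring
  rw [hL]
  unfold VP
  rw [← hc]
  refine mul_le_mul_of_nonneg_left ?_ hc0
  rw [mul_add, Finset.mul_sum]
  refine add_le_add (atomsVal_tr_ge _ _ hf0le) ?_
  exact Finset.sum_le_sum (fun m _ => atomsVal_tr_ge _ _ (hfmle m))

/-- The main rule: domination of two families by two pairs gives domination of the products by the
truncated product. -/
theorem dom_prod {ι κ : Type*} [Fintype ι] [Fintype κ] (hr : 0 < r) {F1 : ι → Vec} {F2 : κ → Vec}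
    (hF1 : ∀ i, 0 ≤ F1 i) (hF2 : ∀ i, 0 ≤ F2 i) {w1 e1 w2 e2 : Meas} (h1 : Inv3 w1) (h2 : Inv3 w2)
    (hd1 : Dom F1 (VP bw r O k w1 e1)) (hd2 : Dom F2 (VP bw r O k' w2 e2)) :
    Dom (prodFam F1 F2) (VP bw r O (k + k') (tr bw (w1 * w2)) (tr bw (w1 * e2 + e1 * w2 + e1 * e2))) := by
  intro G hG
  rw [val_prodFam]
  have hstep1 : val F1 (fun u => val F2 (fun v => G (u * v))) ≤
      val F1 (fun u => VP bw r O k' w2 e2 (fun v => G (u * v))) := by
    unfold val
    refine Finset.sum_le_sum (fun i _ => ?_)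
    have hN : NSub (fun v => G (F1 i * v)) := by
      have := hG.hadamard (hF1 i)
      simpa only [mul_comm] using this
    exact hd2 _ hN
  have hN2 : NSub (fun u => VP bw r O k' w2 e2 (fun v => G (u * v))) := by
    refine VP_nsub (Φ := fun v u => G (u * v)) hr (fun v hv => ?_)
    exact hG.hadamard hv
  exact hstep1.trans ((hd1 _ hN2).trans (VP_mul hr hG h1 h2))

/-- the perm-lemma behind `VP_perm` -/
theorem tau_perm_aux : ∀ (σ : Equiv.Perm (Fin 3)) (m : Fin 3),
    ∃ s : Equiv.Perm (Fin 3), (s = 1 ∨ s = Equiv.swap 1 2) ∧ tau m * σ = s * tau (σ⁻¹ m) := by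
  decide

/-- invariance under the permutations -/
theorem VP_perm {w e : Meas} (hw : Inv3 w) (he : InvE e) (σ : Equiv.Perm (Fin 3)) (H : Vec → ℝ) :
    VP bw r O k w e (fun v => H (v ∘ σ)) = VP bw r O k w e H := by
  unfold VP
  congr 2
  · exact atomsVal_perm hw σ (fun n => H (ray r O k n))
  · have hspecial : ∀ m : Fin 3, atomsVal e (fun n => H ((ray r O k (n ∘ tau m) * mask m) ∘ σ)) =
        atomsVal e (fun n => H (ray r O k (n ∘ tau (σ⁻¹ m)) * mask (σ⁻¹ m))) := by
      intro m
      obtain ⟨s, hs, hcomp⟩ := tau_perm_aux σ m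
      have hinv : ∀ n : Ex, e.coeff (n ∘ s) = e.coeff n := by
        intro n
        rcases hs with rfl | rfl
        · rfl
        · exact he n
      have e1 : ∀ n : Ex, (ray r O k (n ∘ tau m) * mask m) ∘ σ =
          ray r O k ((n ∘ s) ∘ tau (σ⁻¹ m)) * mask (σ⁻¹ m) := by
        intro n
        have h1 : (n ∘ s) ∘ tau (σ⁻¹ m) = (n ∘ tau m) ∘ σ := by
          funext i
          have := congrArg (fun p : Equiv.Perm (Fin 3) => p i) hcomp
          simp only [Equiv.Perm.mul_apply] at this
          simp only [Function.comp_apply]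
          rw [this]
        rw [h1, ray_perm, ← mask_perm]
        rfl
      simp only [e1]
      exact atomsVal_perm_of (σ := s) hinv (fun n => H (ray r O k (n ∘ tau (σ⁻¹ m)) * mask (σ⁻¹ m)))
    simp only [hspecial]
    exact Equiv.sum_comp (σ⁻¹ : Equiv.Perm (Fin 3))
      (fun m => atomsVal e (fun n => H (ray r O k (n ∘ tau m) * mask m)))

/-- symmetric test functions see one copy of the special atoms -/
theorem VP_symm {w e : Meas} {G : Vec → ℝ} (hG : Symm G) :
    VP bw r O k w e G = ((2 : ℝ) ^ bw)⁻¹ * (atomsVal w (fun n => G (ray r O k n))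
      + 3 * atomsVal e (fun n => G (ray r O k n * mask 0))) := by
  unfold VP
  congr 2
  have hm : ∀ m : Fin 3, atomsVal e (fun n => G (ray r O k (n ∘ tau m) * mask m)) =
      atomsVal e (fun n => G (ray r O k n * mask 0)) := by
    intro m
    refine atomsVal_congr _ (fun n => ?_)
    have h1 : ray r O k (n ∘ tau m) * mask m = (ray r O k n * mask 0) ∘ tau m := by
      have h2 : mask 0 ∘ tau m = mask m := by
        rw [mask_perm]
        congr 1
      rw [ray_perm]
      funext i
      have h3 := congrFun h2 i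
      simp only [Pi.mul_apply, Function.comp_apply] at h3 ⊢
      rw [h3]
    rw [h1, hG]
  simp only [hm]
  simp

/-! ### Invariance -/

theorem coeff_mul_comp (w w' : Meas) (σ : Equiv.Perm (Fin 3))
    (h : ∀ n : Ex, w.coeff (n ∘ σ) = w.coeff n) (h' : ∀ n : Ex, w'.coeff (n ∘ σ) = w'.coeff n)
    (n : Ex) : (w * w').coeff (n ∘ σ) = (w * w').coeff n := by
  classical
  rw [AddMonoidAlgebra.coeff_mul, AddMonoidAlgebra.coeff_mul]
  have hinv : ∀ n : Ex, (n ∘ σ) ∘ (σ⁻¹ : Equiv.Perm (Fin 3)) = n := by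
    intro n
    funext i
    simp
  have hinv' : ∀ n : Ex, (n ∘ (σ⁻¹ : Equiv.Perm (Fin 3))) ∘ σ = n := by
    intro n
    funext i
    simp
  have hsupp : ∀ (x : Meas), (∀ n : Ex, x.coeff (n ∘ σ) = x.coeff n) →
      ∀ a : Ex, (a ∘ σ) ∈ x.coeff.support ↔ a ∈ x.coeff.support := by
    intro x hx a
    rw [Finsupp.mem_support_iff, Finsupp.mem_support_iff, hx]
  have hadd : ∀ a b : Ex, a ∘ σ + b ∘ σ = n ∘ σ ↔ a + b = n := by
    intro a b
    constructor
    · intro hab
      have := congrArg (fun x : Ex => x ∘ (σ⁻¹ : Equiv.Perm (Fin 3))) hab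
      funext i
      have h2 := congrFun this i
      simpa using h2
    · rintro rfl
      rfl
  unfold Finsupp.sum
  symm
  refine Finset.sum_nbij' (fun a => a ∘ σ) (fun a => a ∘ (σ⁻¹ : Equiv.Perm (Fin 3))) ?_ ?_ ?_ ?_ ?_
  · intro a ha
    exact (hsupp w h a).2 ha
  · intro a ha
    apply (hsupp w h _).1
    rw [hinv']
    exact ha
  · intro a _
    exact hinv a
  · intro a _
    exact hinv' a
  · intro a _
    refine Finset.sum_nbij' (fun a => a ∘ σ) (fun a => a ∘ (σ⁻¹ : Equiv.Perm (Fin 3))) ?_ ?_ ?_ ?_ ?_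
    · intro b hb
      exact (hsupp w' h' b).2 hb
    · intro b hb
      apply (hsupp w' h' _).1
      rw [hinv']
      exact hb
    · intro b _
      exact hinv b
    · intro b _
      exact hinv' b
    · intro b _
      beta_reduce
      rw [h a, h' b]
      by_cases hab : a + b = n
      · rw [if_pos hab, if_pos ((hadd a b).2 hab)]
      · rw [if_neg hab, if_neg (fun h'' => hab ((hadd a b).1 h''))]

theorem inv3_mul {w w' : Meas} (h : Inv3 w) (h' : Inv3 w') : Inv3 (w * w') :=
  fun σ n => coeff_mul_comp w w' σ (h σ) (h' σ) n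

theorem inv3_tr {w : Meas} (h : Inv3 w) : Inv3 (tr bw w) := by
  intro σ n
  simp only [tr, Finsupp.mapRange_apply]
  rw [h σ n]

theorem invE_mul {w w' : Meas} (h : InvE w) (h' : InvE w') : InvE (w * w') :=
  fun n => coeff_mul_comp w w' _ h h' n

theorem invE_add {w w' : Meas} (h : InvE w) (h' : InvE w') : InvE (w + w') := by
  intro n
  rw [AddMonoidAlgebra.coeff_add, Finsupp.add_apply, Finsupp.add_apply, h n, h' n]

theorem invE_tr {w : Meas} (h : InvE w) : InvE (tr bw w) := by
  intro n
  simp only [tr, Finsupp.mapRange_apply]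
  rw [h n]

theorem invE_of_inv3 {w : Meas} (h : Inv3 w) : InvE w := fun n => h _ n

/-! ### Support -/

theorem supp_mul {w w' : Meas} (h : Supp O k w) (h' : Supp O k' w') : Supp O (k + k') (w * w') := by
  classical
  intro n hn
  rw [AddMonoidAlgebra.coeff_mul] at hn
  unfold Finsupp.sum at hn
  obtain ⟨a, ha, hn1⟩ := Finset.exists_ne_zero_of_sum_ne_zero hn
  obtain ⟨b, hb, hn2⟩ := Finset.exists_ne_zero_of_sum_ne_zero hn1
  have hab : a + b = n := by
    by_contra hcon
    beta_reduce at hn2
    rw [if_neg hcon] at hn2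
    exact hn2 rfl
  obtain ⟨h1, h2⟩ := h a (Finsupp.mem_support_iff.mp ha)
  obtain ⟨h3, h4⟩ := h' b (Finsupp.mem_support_iff.mp hb)
  subst hab
  refine ⟨?_, fun i => ?_⟩
  · simp only [Pi.add_apply]
    rw [add_mul]
    omega
  · simp only [Pi.add_apply]
    rw [add_mul]
    have := h2 i
    have := h4 i
    omega

theorem supp_add {w w' : Meas} (h : Supp O k w) (h' : Supp O k w') : Supp O k (w + w') := by
  intro n hn
  rw [AddMonoidAlgebra.coeff_add, Finsupp.add_apply] at hn
  by_cases h1 : w.coeff n = 0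
  · rw [h1, zero_add] at hn
    exact h' n hn
  · exact h n h1

theorem supp_tr {w : Meas} (h : Supp O k w) : Supp O k (tr bw w) := by
  intro n hn
  simp only [tr, Finsupp.mapRange_apply] at hn
  refine h n ?_
  intro h0
  rw [h0] at hn
  exact hn (Nat.zero_div _)

/-! ### Totals -/

theorem tot_add (w w' : Meas) : tot (w + w') = tot w + tot w' := by
  unfold tot
  rw [AddMonoidAlgebra.coeff_add]
  exact Finsupp.sum_add_index' (fun n => rfl) (fun n a b => rfl)

theorem tot_mul (w w' : Meas) : tot (w * w') = tot w * tot w' := by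
  classical
  unfold tot
  rw [AddMonoidAlgebra.mul_def]
  have h1 : ∀ (S : Ex →₀ ℕ) (F : Ex → ℕ → Meas), (S.sum F).coeff = S.sum (fun a b => (F a b).coeff) := by
    intro S F
    exact AddMonoidAlgebra.coeff_finsuppSum S F
  rw [h1, Finsupp.sum_sum_index (fun n => rfl) (fun n a b => rfl)]
  have hs : ∀ (a : Ex) (c : ℕ), (AddMonoidAlgebra.single a c : Meas).coeff.sum
      (fun _ (y : ℕ) => y) = c := by
    intro a c
    rw [AddMonoidAlgebra.coeff_single, Finsupp.sum_single_index rfl]
  have ht : ∀ n c, (w'.coeff.sum fun m₂ r₂ => AddMonoidAlgebra.single (n + m₂) (c * r₂) : Meas).coeff.sum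
      (fun _ (y : ℕ) => y) = c * w'.coeff.sum (fun _ (y : ℕ) => y) := by
    intro n c
    rw [h1, Finsupp.sum_sum_index (fun n => rfl) (fun n a b => rfl)]
    simp only [hs]
    unfold Finsupp.sum
    rw [Finset.mul_sum]
  simp only [ht]
  unfold Finsupp.sum
  rw [Finset.sum_mul]

theorem tot_tr_le (w : Meas) : 2 ^ bw * tot (tr bw w) ≤ tot w := by
  unfold tot tr
  rw [Finsupp.sum_mapRange_index (fun n => rfl)]
  unfold Finsupp.sum
  rw [Finset.mul_sum]
  exact Finset.sum_le_sum (fun n _ => Nat.mul_div_le _ _)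

/-- a coefficient is at most the total -/
theorem coeff_le_tot (w : Meas) (n : Ex) : w.coeff n ≤ tot w := by
  unfold tot Finsupp.sum
  by_cases hn : n ∈ w.coeff.support
  · exact Finset.single_le_sum (f := fun n => w.coeff n) (fun _ _ => Nat.zero_le _) hn
  · rw [Finsupp.notMem_support_iff.mp hn]
    exact Nat.zero_le _

/-! ### Masses -/

/-- the mass of a measure on coordinate `j`, with unit `2^(-bw)` -/
noncomputable def massV (bw : ℕ) (r : ℝ) (O k : ℕ) (w : Meas) (j : Fin 3) : ℝ :=
  ((2 : ℝ) ^ bw)⁻¹ * atomsVal w (fun n => ray r O k n j)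

theorem massV_nonneg (hr : 0 < r) (w : Meas) (j : Fin 3) : 0 ≤ massV bw r O k w j := by
  unfold massV
  exact mul_nonneg (by positivity) (atomsVal_nonneg _ (fun n => (ray_pos hr n j).le))

theorem massV_mul (w w' : Meas) (j : Fin 3) (hr : 0 < r) :
    massV bw r O (k + k') (w * w') j = 2 ^ bw * (massV bw r O k w j * massV bw r O k' w' j) := by
  unfold massV
  rw [atomsVal_mul]
  have h1 : ∀ n : Ex, atomsVal w' (fun n' => ray r O (k + k') (n + n') j) =
      ray r O k n j * atomsVal w' (fun n' => ray r O k' n' j) := by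
    intro n
    rw [← atomsVal_const_mul]
    refine atomsVal_congr _ (fun n' => ?_)
    rw [← ray_mul hr]
    rfl
  simp only [h1]
  rw [atomsVal_mul_const]
  have h2 : ((2 : ℝ) ^ bw) ≠ 0 := by positivity
  field_simp

theorem massV_add (w w' : Meas) (j : Fin 3) :
    massV bw r O k (w + w') j = massV bw r O k w j + massV bw r O k w' j := by
  unfold massV
  rw [atomsVal_add, mul_add]

theorem massV_tr_le (hr : 0 < r) (w : Meas) (j : Fin 3) :
    massV bw r O k (tr bw w) j ≤ ((2 : ℝ) ^ bw)⁻¹ * massV bw r O k w j := by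
  unfold massV
  refine mul_le_mul_of_nonneg_left ?_ (by positivity)
  exact atomsVal_tr_le _ _ (fun n => (ray_pos hr n j).le)

/-- the mass of an invariant measure does not depend on the coordinate -/
theorem massV_inv3 {w : Meas} (hw : Inv3 w) (j j' : Fin 3) :
    massV bw r O k w j = massV bw r O k w j' := by
  unfold massV
  congr 1
  have h1 := atomsVal_perm hw (Equiv.swap j j') (fun n => ray r O k n j')
  rw [← h1]
  refine atomsVal_congr _ (fun n => ?_)
  simp only [ray, Function.comp_apply, Equiv.swap_apply_right]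

end rules

end Vale.Agent.Lib.P154.Chain
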