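/-!
The arithmetic program of the finite chain for the three-state channel of negative eigenvalue.
All numbers are natural numbers; the kernel evaluates the program with its big number arithmetic.
The semantics is proved in `Kron`, `CheckSound` and `Step`.
-/

namespace Vale.Agent.Lib.P154.Chain

/-- assembly tree for the packed polynomial of a message -/
inductive PT where
  | nil : PT
  | lf (p o t q y0 y1 y2 : Nat) : PT
  | nd (k : Nat) (l r : PT) : PT

/-- traversal tree for the digits of the aggregated polynomial -/
inductive XT where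
  | nil : XT
  | lf (p1 M1 p2 M2 p3 M3 t1 q1 t2 q2 t3 q3 n0 n1 n2 : Nat) : XT
  | nd (k q1 q2 : Nat) (l r : XT) : XT

/-- list of the fields with their bounds for the total mass -/
inductive ZL where
  | nil : ZL
  | cons (p o Z : Nat) (tl : ZL) : ZL

/-- the list of operations of the truncated power -/
inductive Ops where
  | nil : Ops
  | sq (tl : Ops) : Ops
  | sqm (tl : Ops) : Ops

/-- sequencing: forces `v` and continues -/
noncomputable def seqN {b : Type} (v : Nat) (k : Nat → b) : b :=
  Bool.rec (k v) (k v) (Nat.ble 0 v)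

/-- the mass per image read from a field of the state -/
noncomputable def fieldC (mw u st p o : Nat) : Nat :=
  Nat.div (Nat.shiftRight (Nat.mod (Nat.shiftRight st p) mw) u) o

/-- assemble the packed polynomial from the state -/
noncomputable def asm (mw u st : Nat) (T : PT) : Nat :=
  PT.rec (motive := fun _ => Nat) 0
    (fun p o _ _ _ _ _ => fieldC mw u st p o)
    (fun k _ _ il ir => Nat.add il (Nat.shiftLeft ir k)) T

/-- the contribution of the digits under a tree -/
noncomputable def goX (mB : Nat) (T : XT) : Nat → Nat :=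
  XT.rec (motive := fun _ => Nat → Nat) (fun _ => 0)
    (fun p1 M1 p2 M2 p3 M3 _ _ _ _ _ _ _ _ _ w =>
      Nat.mul (Nat.mod w mB)
        (Nat.add (Nat.add (Nat.shiftLeft M1 p1) (Nat.shiftLeft M2 p2)) (Nat.shiftLeft M3 p3)))
    (fun k q1 q2 _ _ il ir w =>
      Nat.add (Nat.shiftLeft (il (Nat.mod w (Nat.shiftLeft 1 k))) q1)
        (Nat.shiftLeft (ir (Nat.shiftRight w k)) q2)) T

/-- the bound for the total mass -/
noncomputable def sumZ (mw u st : Nat) (T : ZL) : Nat → Nat :=
  ZL.rec (motive := fun _ => Nat → Nat) (fun acc => acc)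
    (fun p o Zv _ ih acc => seqN (Nat.add acc (Nat.mul Zv (fieldC mw u st p o))) (fun a => ih a)) T

/-- truncation of the digits -/
noncomputable def trunc (bw MASK x : Nat) : Nat :=
  Nat.land (Nat.shiftRight x bw) MASK

/-- the truncated power of a pair -/
noncomputable def goPow {β : Type} (bw MASK w1 e1 : Nat) (T : Ops) : Nat → Nat → (Nat → Nat → β) → β :=
  Ops.rec (motive := fun _ => Nat → Nat → (Nat → Nat → β) → β)
    (fun w e k => k w e)
    (fun _ ih w e k =>
      seqN (trunc bw MASK (Nat.mul w w)) (fun w2 =>
        seqN (trunc bw MASK (Nat.add (Nat.mul (Nat.mul 2 w) e) (Nat.mul e e))) (fun e2 =>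
          ih w2 e2 k)))
    (fun _ ih w e k =>
      seqN (trunc bw MASK (Nat.mul w w)) (fun w2 =>
        seqN (trunc bw MASK (Nat.add (Nat.mul (Nat.mul 2 w) e) (Nat.mul e e))) (fun e2 =>
          seqN (trunc bw MASK (Nat.mul w2 w1)) (fun w3 =>
            seqN (trunc bw MASK (Nat.add (Nat.add (Nat.mul w2 e1) (Nat.mul e2 w1)) (Nat.mul e2 e1)))
              (fun e3 => ih w3 e3 k))))) T

/-- the bound for the mass kept at the next level -/
noncomputable def keptOf (d Sh F : Nat) : Nat :=
  Nat.sub (Nat.mul 2 (Nat.pow (Nat.add Sh F) d)) (Nat.pow Sh d)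

/-- One generation: from the fields of the message to the fields of the next message.
Parameters: `d` children, `bw` bits of a weight, `u` fraction bits of a field, `H` bits of the
mass bounds, `mw = 2^wd`, `pf` the position of the special field, `eo` the position of the special
monomial, `mB = 2^B`, `MASK` the mask of the truncation, `MV` the packed image of a vertex, `ops`
the power, and the trees. A failed check returns the zero state, which is always sound. -/
noncomputable def stepGen (d bw u H mw pf eo mB MASK MV : Nat) (ops : Ops) (Tp : PT) (Tx Te : XT)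
    (Tz : ZL) (st : Nat) : Nat :=
  seqN (asm mw u st Tp) (fun Pw =>
    seqN (Nat.shiftRight (Nat.mod (Nat.shiftRight st pf) mw) u) (fun f =>
      seqN (sumZ mw u st Tz 0) (fun Sh =>
        seqN (Nat.shiftLeft f H) (fun F =>
          seqN (keptOf d Sh F) (fun K =>
            Bool.rec 0
              (Bool.rec 0
                (goPow bw MASK Pw (Nat.shiftLeft f eo) ops Pw (Nat.shiftLeft f eo) (fun W We =>
                  Nat.add (Nat.add
                    (Nat.mul (Nat.shiftRight (Nat.sub (Nat.shiftLeft 1 (Nat.mul d (Nat.add bw H))) K)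
                      (Nat.sub (Nat.mul d (Nat.add bw H)) bw)) MV)
                    (goX mB Tx W)) (goX mB Te We)))
                (Nat.ble K (Nat.shiftLeft 1 (Nat.mul d (Nat.add bw H)))))
              (Nat.ble (Nat.add Sh F) (Nat.shiftLeft 1 (Nat.add bw H))))))))

/-- several generations -/
noncomputable def runN (d bw u H mw pf eo mB MASK MV : Nat) (ops : Ops) (Tp : PT) (Tx Te : XT)
    (Tz : ZL) (n : Nat) : Nat → Nat :=
  Nat.rec (motive := fun _ => Nat → Nat) (fun st => st)
    (fun _ ih st => seqN (stepGen d bw u H mw pf eo mB MASK MV ops Tp Tx Te Tz st) (fun a => ih a)) n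

/-- the mask of the truncation: `N` digits of `B` bits, keeping `B - bw` bits in each -/
noncomputable def maskOf (B bw N : Nat) : Nat :=
  Nat.mul (Nat.div (Nat.sub (Nat.shiftLeft 1 (Nat.mul B N)) 1) (Nat.sub (Nat.shiftLeft 1 B) 1))
    (Nat.sub (Nat.shiftLeft 1 (Nat.sub B bw)) 1)

/-! ### Parameters -/

/-- the global parameters of a chain: `d` children, eigenvalue `-ln/ld`, bits -/
structure GP where
  d : Nat
  ln : Nat
  ld : Nat
  bw : Nat
  u : Nat
  H : Nat
  B : Nat
  wd : Nat

/-- a lattice: ratio `ra/rb`, exponent offset `O`, common exponent `K`, number of representatives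
`T` and their table `tbl` (fields `t = 1 .. T`, field `0` is the special one) -/
structure LP where
  ra : Nat
  rb : Nat
  O : Nat
  K : Nat
  T : Nat
  tbl : Nat

/-- the base of the index -/
def LP.L (g : GP) (l : LP) : Nat := 2 * g.d * l.O + 1

/-- the number of digits -/
def LP.N (g : GP) (l : LP) : Nat := 2 * g.d * l.O + LP.L g l * (2 * g.d * l.O) + 1

/-- the position of the special monomial -/
def LP.eo (g : GP) (l : LP) : Nat := g.B * (l.O + LP.L g l * l.O)

/-- coordinate `i` of representative `t`, shifted by `O` -/
def repCo (l : LP) (t i : Nat) : Nat :=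
  Nat.mod (Nat.shiftRight l.tbl (Nat.add (Nat.mul 48 t) (Nat.mul 16 i))) 65536

/-- the generation of the chain with the parameters spelled out. `V` is the packed image of a vertex. -/
noncomputable def stepG (g : GP) (l : LP) (V : Nat) (ops : Ops) (Tp : PT) (Tx Te : XT) (Tz : ZL)
    (st : Nat) : Nat :=
  stepGen g.d g.bw g.u g.H (2 ^ g.wd) 0 (LP.eo g l) (2 ^ g.B) (maskOf g.B g.bw (LP.N g l)) V ops
    Tp Tx Te Tz st

/-- several generations of the chain -/
noncomputable def runG (g : GP) (l : LP) (V : Nat) (ops : Ops) (Tp : PT) (Tx Te : XT) (Tz : ZL)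
    (n st : Nat) : Nat :=
  runN g.d g.bw g.u g.H (2 ^ g.wd) 0 (LP.eo g l) (2 ^ g.B) (maskOf g.B g.bw (LP.N g l)) V ops
    Tp Tx Te Tz n st

end Vale.Agent.Lib.P154.Chain
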