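import Vale.Agent.Lib.P154.Chain.CheckSound

/-!
The soundness of one generation of the chain.
-/

namespace Vale.Agent.Lib.P154.Chain

open scoped BigOperators

/-- the mass per image of representative `t` in a state -/
noncomputable def cT (g : GP) (l : LP) (st t : ℕ) : ℕ :=
  fieldC (2 ^ g.wd) g.u st (g.wd * t) (orbT l t)

/-- the special field of a state -/
noncomputable def fT (g : GP) (st : ℕ) : ℕ :=
  Nat.shiftRight (Nat.mod (Nat.shiftRight st 0) (2 ^ g.wd)) g.u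

/-- the value of a state on a symmetric test function, with unit `2^(-bw)` -/
noncomputable def PVal (g : GP) (l : LP) (st : ℕ) (G : Vec → ℝ) : ℝ :=
  ((2 : ℝ) ^ g.bw)⁻¹ * (∑ t ∈ Finset.Icc 1 l.T, ((cT g l st t * orbT l t : ℕ) : ℝ) * G (rhoT l t)
    + (fT g st : ℝ) * (3 * G (mask 0)))

/-- The invariant of the chain: the messages at depth `n` are dominated by the state `st`. -/
def Inv (g : GP) (l : LP) (n st : ℕ) : Prop :=
  ∀ G, NSub G → Symm G → val (Mv g.d (lamOf g) n) G ≤ PVal g l st G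

/-- the special measure of the level one -/
noncomputable def e1Meas (l : LP) (f : ℕ) : Meas := ⟨Finsupp.single (fun _ => l.O) f⟩

/-- the plain measure of a state -/
noncomputable def w1Meas (g : GP) (Tp : PT) (st : ℕ) : Meas :=
  ptMeas (fun p o => fieldC (2 ^ g.wd) g.u st p o) (PT.leaves Tp 0)

/-! ### Small facts -/

theorem atomsVal_single' (n : Ex) (c : ℕ) (f : Ex → ℝ) :
    atomsVal (⟨Finsupp.single n c⟩ : Meas) f = (c : ℝ) * f n := by
  unfold atomsVal
  exact Finsupp.sum_single_index (by simp)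

/-- the value of a pair does not see the symmetrization -/
theorem VP_symAvg {bw O k : ℕ} {r : ℝ} {w e : Meas} (hw : Inv3 w) (he : InvE e) (H : Vec → ℝ) :
    VP bw r O k w e (symAvg H) = VP bw r O k w e H := by
  have h1 : ∀ σ : Equiv.Perm (Fin 3), VP bw r O k w e (fun v => H (v ∘ σ)) = VP bw r O k w e H :=
    fun σ => VP_perm hw he σ H
  have h2 : VP bw r O k w e (symAvg H) =
      (1 / 6) * ∑ σ : Equiv.Perm (Fin 3), VP bw r O k w e (fun v => H (v ∘ σ)) := by
    unfold VP symAvg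
    simp only [atomsVal_const_mul, atomsVal_sum_fun]
    rw [← Finset.mul_sum, ← Finset.mul_sum, Finset.sum_add_distrib]
    rw [Finset.sum_comm]
    ring
  rw [h2]
  simp only [h1]
  simp [Finset.sum_const, Finset.card_univ, Fintype.card_perm, Nat.factorial]

/-- the sum over the listed fields bounds the sum over the interval -/
theorem sum_Icc_le_list (h : ℕ → ℝ) (hh : ∀ t, h t ≤ 0) (a b : ℕ) (L : List ℕ) (hnd : L.Nodup)
    (hL : ∀ t ∈ L, a ≤ t ∧ t ≤ b) :
    ∑ t ∈ Finset.Icc a b, h t ≤ (L.map h).sum := by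
  classical
  rw [← List.sum_toFinset h hnd]
  have hsub : L.toFinset ⊆ Finset.Icc a b := by
    intro t ht
    rw [List.mem_toFinset] at ht
    rw [Finset.mem_Icc]
    exact hL t ht
  rw [← Finset.sum_sdiff hsub]
  have : ∑ t ∈ Finset.Icc a b \ L.toFinset, h t ≤ 0 := Finset.sum_nonpos (fun t _ => hh t)
  linarith

theorem ray_const_one {r : ℝ} {O : ℕ} : ray r O 1 (fun _ => O) = 1 := by
  funext i
  simp [ray]

theorem e1_props (g : GP) (l : LP) (f : ℕ) :
    InvE (e1Meas l f) ∧ Supp l.O 1 (e1Meas l f) ∧ tot (e1Meas l f) = f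
      ∧ phi g.B (LP.L g l) (e1Meas l f) = f <<< (LP.eo g l)
      ∧ (∀ j, massV g.bw (rr l) l.O 1 (e1Meas l f) j = ((2 : ℝ) ^ g.bw)⁻¹ * f) := by
  classical
  refine ⟨?_, ?_, ?_, ?_, ?_⟩
  · intro n
    simp only [e1Meas, Finsupp.single_apply]
    have : (fun _ : Fin 3 => l.O) = n ∘ Equiv.swap 1 2 ↔ (fun _ : Fin 3 => l.O) = n := by
      constructor
      · intro h
        funext i
        have h2 : l.O = n i := by
          have := congrFun h (Equiv.swap 1 2 i)
          simpa [Function.comp_apply] using this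
        exact h2
      · intro h
        rw [← h]
        rfl
    by_cases hn : (fun _ : Fin 3 => l.O) = n
    · rw [if_pos hn, if_pos (this.2 hn)]
    · rw [if_neg hn, if_neg (fun h => hn (this.1 h))]
  · intro n hn
    simp only [e1Meas, Finsupp.single_apply] at hn
    have hn' : (fun _ : Fin 3 => l.O) = n := by
      by_contra hcon
      rw [if_neg hcon] at hn
      exact hn rfl
    subst hn'
    refine ⟨by simp; ring, fun i => by simp; omega⟩
  · unfold tot e1Meas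
    exact Finsupp.sum_single_index rfl
  · unfold e1Meas
    rw [phi_single, Nat.shiftLeft_eq]
    rfl
  · intro j
    unfold massV e1Meas
    rw [atomsVal_single', ray_const_one]
    simp

/-- `ptOK_props` for `w1Meas` -/
theorem ptOK_props' {g : GP} {l : LP} {Tp : PT} {Tz : ZL} (hg : gpOK g = true) (hl : latOK g l = true)
    (h : ptOK g l Tp Tz = true) (st : ℕ) :
    Inv3 (w1Meas g Tp st) ∧ Supp l.O 1 (w1Meas g Tp st)
      ∧ phi g.B (LP.L g l) (w1Meas g Tp st) = asm (2 ^ g.wd) g.u st Tp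
      ∧ (∀ f : Ex → ℝ, (∀ (σ : Equiv.Perm (Fin 3)) (n : Ex), f (n ∘ σ) = f n) →
          atomsVal (w1Meas g Tp st) f = ((ZL.toList Tz).map (fun z =>
            ((fieldC (2 ^ g.wd) g.u st z.1 z.2.1 * z.2.1 : ℕ) : ℝ) * f (repEx l (z.1 / g.wd)))).sum)
      ∧ 2 ^ g.H * tot (w1Meas g Tp st) ≤
          ((ZL.toList Tz).map (fun a => a.2.2 * fieldC (2 ^ g.wd) g.u st a.1 a.2.1)).sum
      ∧ (∀ j, (2 : ℝ) ^ g.H * atomsVal (w1Meas g Tp st) (fun n => ray (rr l) l.O 1 n j)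
          ≤ (((ZL.toList Tz).map (fun a => a.2.2 * fieldC (2 ^ g.wd) g.u st a.1 a.2.1)).sum : ℕ))
      ∧ (∀ z ∈ ZL.toList Tz, ∃ t, 1 ≤ t ∧ t ≤ l.T ∧ z.1 = g.wd * t ∧ z.2.1 = orbT l t)
      ∧ (ZL.toList Tz).Pairwise (fun a b => a.1 < b.1) :=
  ptOK_props hg hl h st

/-- The level one: domination of the messages by the pair of a state. -/
theorem dom_level_one {g : GP} {l : LP} {n st : ℕ} {Tp : PT} {Tz : ZL} (hg : gpOK g = true)
    (hl : latOK g l = true) (h : ptOK g l Tp Tz = true) (hinv : Inv g l n st) :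
    Dom (powFam (Mv g.d (lamOf g) n) 1)
      (VP g.bw (rr l) l.O 1 (w1Meas g Tp st) (e1Meas l (fT g st))) := by
  classical
  obtain ⟨hd, hld, hlam0, hlam1, hln, hB, hwd, hu, hbwH⟩ := gpOK_props hg
  obtain ⟨hra, hrb, hr, hdO, h2dO, hreps⟩ := latOK_props hl
  obtain ⟨hI, hSp, hphi, hval, htot, hmass, hz, hpw⟩ := ptOK_props' hg hl h st
  have hIe := (e1_props g l (fT g st)).1
  refine dom_of_symm (famInv_powFam (famInv_Mv n) 1) (fun H _ => VP_symAvg hI hIe H) ?_
  intro G hG hs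
  rw [val_powFam_one]
  refine (hinv G hG hs).trans ?_
  rw [VP_symm hs]
  unfold PVal
  refine mul_le_mul_of_nonneg_left ?_ (by positivity)
  have hwd0 : 0 < g.wd := by omega
  -- the special atoms
  have hE : atomsVal (e1Meas l (fT g st)) (fun n => G (ray (rr l) l.O 1 n * mask 0)) =
      (fT g st : ℝ) * G (mask 0) := by
    unfold e1Meas
    rw [atomsVal_single', ray_const_one, one_mul]
  rw [hE]
  -- the plain atoms
  have hf : ∀ (σ : Equiv.Perm (Fin 3)) (n : Ex),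
      G (ray (rr l) l.O 1 (n ∘ σ)) = G (ray (rr l) l.O 1 n) := by
    intro σ n
    rw [ray_perm, hs]
  rw [hval (fun n => G (ray (rr l) l.O 1 n)) hf]
  set hh : ℕ → ℝ := fun t => ((cT g l st t * orbT l t : ℕ) : ℝ) * G (rhoT l t) with hhh
  have hh0 : ∀ t, hh t ≤ 0 := fun t =>
    mul_nonpos_of_nonneg_of_nonpos (Nat.cast_nonneg _) (hG.nonpos (ray_nonneg hr _))
  have hterm : ∀ z ∈ ZL.toList Tz,
      (((fieldC (2 ^ g.wd) g.u st z.1 z.2.1 * z.2.1 : ℕ) : ℝ) * G (ray (rr l) l.O 1 (repEx l (z.1 / g.wd)))) =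
        hh (z.1 / g.wd) := by
    intro z hzm
    obtain ⟨t, _, _, h3, h4⟩ := hz z hzm
    have e1 : z.1 / g.wd = t := by
      rw [h3]
      exact Nat.mul_div_cancel_left t hwd0
    rw [e1, hhh]
    simp only [cT, rhoT]
    rw [h3, h4]
  have hsum : ((ZL.toList Tz).map (fun z => ((fieldC (2 ^ g.wd) g.u st z.1 z.2.1 * z.2.1 : ℕ) : ℝ) *
      G (ray (rr l) l.O 1 (repEx l (z.1 / g.wd))))).sum =
      (((ZL.toList Tz).map (fun z => z.1 / g.wd)).map hh).sum := by
    rw [List.map_map]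
    congr 1
    exact List.map_congr_left hterm
  rw [hsum]
  have hnd : ((ZL.toList Tz).map (fun z => z.1 / g.wd)).Nodup := by
    rw [List.Nodup, List.pairwise_map]
    refine hpw.imp_of_mem ?_
    intro a b ha hb hab heq
    obtain ⟨t, _, _, h3, _⟩ := hz a ha
    obtain ⟨t', _, _, h3', _⟩ := hz b hb
    rw [h3, h3', Nat.mul_div_cancel_left _ hwd0, Nat.mul_div_cancel_left _ hwd0] at heq
    rw [h3, h3', heq] at hab
    exact lt_irrefl _ hab
  have hrange : ∀ t ∈ (ZL.toList Tz).map (fun z => z.1 / g.wd), 1 ≤ t ∧ t ≤ l.T := by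
    intro t ht
    rw [List.mem_map] at ht
    obtain ⟨z, hzm, rfl⟩ := ht
    obtain ⟨t', h1, h2, h3, _⟩ := hz z hzm
    rw [h3, Nat.mul_div_cancel_left _ hwd0]
    exact ⟨h1, h2⟩
  have hmain := sum_Icc_le_list hh hh0 1 l.T _ hnd hrange
  have : (fT g st : ℝ) * (3 * G (mask 0)) = 3 * ((fT g st : ℝ) * G (mask 0)) := by ring
  rw [this]
  linarith

/-! ### Chamber representatives -/

/-- the union of a list of finite sets -/
def orbU (O : XL × ℕ → Finset Ex) : List (XL × ℕ) → Finset Ex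
  | [] => ∅
  | x :: tl => O x ∪ orbU O tl

theorem mem_orbU {O : XL × ℕ → Finset Ex} {ls : List (XL × ℕ)} {n : Ex} (h : n ∈ orbU O ls) :
    ∃ x ∈ ls, n ∈ O x := by
  induction ls with
  | nil => simp [orbU] at h
  | cons a tl ih =>
    simp only [orbU, Finset.mem_union] at h
    rcases h with h | h
    · exact ⟨a, List.mem_cons_self, h⟩
    · obtain ⟨x, hx, hn⟩ := ih h
      exact ⟨x, List.mem_cons_of_mem a hx, hn⟩

theorem sum_orbU_eq (O : XL × ℕ → Finset Ex) (ls : List (XL × ℕ))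
    (hdisj : ls.Pairwise (fun x y => Disjoint (O x) (O y))) (g : Ex → ℝ) :
    ∑ n ∈ orbU O ls, g n = (ls.map (fun x => ∑ n ∈ O x, g n)).sum := by
  induction ls with
  | nil => simp [orbU]
  | cons a tl ih =>
    rw [List.pairwise_cons] at hdisj
    have hd : Disjoint (O a) (orbU O tl) := by
      rw [Finset.disjoint_left]
      intro n hn hn'
      obtain ⟨x, hx, hnx⟩ := mem_orbU hn'
      exact (Finset.disjoint_left.1 (hdisj.1 x hx)) hn hnx
    simp only [orbU, List.map_cons, List.sum_cons]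
    rw [Finset.sum_union hd, ih hdisj.2]

theorem atomsVal_eq_sum (w : Meas) (f : Ex → ℝ) :
    atomsVal w f = ∑ n ∈ w.coeff.support, (w.coeff n : ℝ) * f n := rfl

/-- the sum over the orbits when the function is nonpositive -/
theorem orbits_nonpos {w : Meas} {f : Ex → ℝ} (hf0 : ∀ n, f n ≤ 0) (O : XL × ℕ → Finset Ex)
    (ls : List (XL × ℕ)) (hdisj : ls.Pairwise (fun x y => Disjoint (O x) (O y)))
    (hw : ∀ x ∈ ls, ∀ n ∈ O x, w.coeff n = w.coeff (xEx x.1))
    (hfo : ∀ x ∈ ls, ∀ n ∈ O x, f n = f (xEx x.1))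
    (hD : ∀ x ∈ ls, x.2 ≤ w.coeff (xEx x.1)) :
    atomsVal w f ≤ (ls.map (fun x => (((O x).card * x.2 : ℕ) : ℝ) * f (xEx x.1))).sum := by
  classical
  set U := orbU O ls with hU
  have h1 : atomsVal w f ≤ ∑ n ∈ U, (w.coeff n : ℝ) * f n := by
    rw [atomsVal_eq_sum, ← Finset.sum_sdiff (Finset.inter_subset_left : w.coeff.support ∩ U ⊆ w.coeff.support)]
    have h2 : ∑ n ∈ w.coeff.support \ (w.coeff.support ∩ U), (w.coeff n : ℝ) * f n ≤ 0 :=
      Finset.sum_nonpos (fun n _ => mul_nonpos_of_nonneg_of_nonpos (Nat.cast_nonneg _) (hf0 n))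
    have h3 : ∑ n ∈ w.coeff.support ∩ U, (w.coeff n : ℝ) * f n = ∑ n ∈ U, (w.coeff n : ℝ) * f n := by
      rw [Finset.inter_comm]
      refine Finset.sum_subset Finset.inter_subset_left (fun n hn hn' => ?_)
      have : w.coeff n = 0 := by
        by_contra hne
        exact hn' (Finset.mem_inter.2 ⟨hn, Finsupp.mem_support_iff.2 hne⟩)
      rw [this]
      simp
    linarith
  rw [hU, sum_orbU_eq O ls hdisj] at h1
  refine h1.trans (List.sum_le_sum (fun x hx => ?_))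
  have h2 : ∑ n ∈ O x, (w.coeff n : ℝ) * f n = (O x).card * ((w.coeff (xEx x.1) : ℝ) * f (xEx x.1)) := by
    rw [Finset.sum_congr rfl (fun n hn => by rw [hw x hx n hn, hfo x hx n hn]), Finset.sum_const,
      nsmul_eq_mul]
  rw [h2]
  push_cast
  have h3 : (x.2 : ℝ) ≤ w.coeff (xEx x.1) := by exact_mod_cast hD x hx
  have h4 := mul_le_mul_of_nonpos_right h3 (hf0 (xEx x.1))
  have h5 : (0 : ℝ) ≤ (O x).card := Nat.cast_nonneg _
  nlinarith [mul_le_mul_of_nonneg_left h4 h5]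

/-- the sum over the orbits when the function is nonnegative -/
theorem orbits_nonneg {w : Meas} {f : Ex → ℝ} (hf0 : ∀ n, 0 ≤ f n) (O : XL × ℕ → Finset Ex)
    (ls : List (XL × ℕ)) (hdisj : ls.Pairwise (fun x y => Disjoint (O x) (O y)))
    (hw : ∀ x ∈ ls, ∀ n ∈ O x, w.coeff n = w.coeff (xEx x.1))
    (hfo : ∀ x ∈ ls, ∀ n ∈ O x, f n = f (xEx x.1))
    (hD : ∀ x ∈ ls, x.2 ≤ w.coeff (xEx x.1)) :
    (ls.map (fun x => (((O x).card * x.2 : ℕ) : ℝ) * f (xEx x.1))).sum ≤ atomsVal w f := by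
  classical
  set U := orbU O ls with hU
  have h1 : ∑ n ∈ U, (w.coeff n : ℝ) * f n ≤ atomsVal w f := by
    rw [atomsVal_eq_sum, ← Finset.sum_sdiff (Finset.inter_subset_left : w.coeff.support ∩ U ⊆ w.coeff.support)]
    have h2 : 0 ≤ ∑ n ∈ w.coeff.support \ (w.coeff.support ∩ U), (w.coeff n : ℝ) * f n :=
      Finset.sum_nonneg (fun n _ => mul_nonneg (Nat.cast_nonneg _) (hf0 n))
    have h3 : ∑ n ∈ w.coeff.support ∩ U, (w.coeff n : ℝ) * f n = ∑ n ∈ U, (w.coeff n : ℝ) * f n := by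
      rw [Finset.inter_comm]
      refine Finset.sum_subset Finset.inter_subset_left (fun n hn hn' => ?_)
      have : w.coeff n = 0 := by
        by_contra hne
        exact hn' (Finset.mem_inter.2 ⟨hn, Finsupp.mem_support_iff.2 hne⟩)
      rw [this]
      simp
    linarith
  rw [hU, sum_orbU_eq O ls hdisj] at h1
  refine le_trans (List.sum_le_sum (fun x hx => ?_)) h1
  have h2 : ∑ n ∈ O x, (w.coeff n : ℝ) * f n = (O x).card * ((w.coeff (xEx x.1) : ℝ) * f (xEx x.1)) := by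
    rw [Finset.sum_congr rfl (fun n hn => by rw [hw x hx n hn, hfo x hx n hn]), Finset.sum_const,
      nsmul_eq_mul]
  rw [h2]
  push_cast
  have h3 : (x.2 : ℝ) ≤ w.coeff (xEx x.1) := by exact_mod_cast hD x hx
  have h4 := mul_le_mul_of_nonneg_right h3 (hf0 (xEx x.1))
  have h5 : (0 : ℝ) ≤ (O x).card := Nat.cast_nonneg _
  nlinarith [mul_le_mul_of_nonneg_left h4 h5]

/-- two sorted triples that are rearrangements of each other are equal -/
theorem sorted_unique {a b c a' b' c' : ℕ} (h1 : b ≤ a) (h2 : c ≤ b) (h3 : b' ≤ a') (h4 : c' ≤ b')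
    (σ : Equiv.Perm (Fin 3)) (h : (![a, b, c] : Ex) = (![a', b', c'] : Ex) ∘ σ) :
    a = a' ∧ b = b' ∧ c = c' := by
  have h01 : σ 0 ≠ σ 1 := fun e => absurd (σ.injective e) (by decide)
  have h02 : σ 0 ≠ σ 2 := fun e => absurd (σ.injective e) (by decide)
  have h12 : σ 1 ≠ σ 2 := fun e => absurd (σ.injective e) (by decide)
  have e0 := congrFun h 0
  have e1 := congrFun h 1
  have e2 := congrFun h 2
  change a = ![a', b', c'] (σ 0) at e0
  change b = ![a', b', c'] (σ 1) at e1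
  change c = ![a', b', c'] (σ 2) at e2
  generalize σ 0 = x at *
  generalize σ 1 = y at *
  generalize σ 2 = z at *
  have hall : ∀ x : Fin 3, x = 0 ∨ x = 1 ∨ x = 2 := by decide
  rcases hall x with rfl | rfl | rfl <;> rcases hall y with rfl | rfl | rfl <;>
    rcases hall z with rfl | rfl | rfl <;>
    first
    | exact absurd rfl h01
    | exact absurd rfl h02
    | exact absurd rfl h12
    | (simp only [Matrix.cons_val_zero, Matrix.cons_val_one, Matrix.cons_val] at e0 e1 e2; omega)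

theorem xEx_apply (a : XL) : xEx a = ![a.n0, a.n1, a.n2] := rfl

/-- the pairs of listed representatives have disjoint orbits -/
theorem images_disjoint {x y : XL × ℕ} (hx : x.1.n1 ≤ x.1.n0 ∧ x.1.n2 ≤ x.1.n1)
    (hy : y.1.n1 ≤ y.1.n0 ∧ y.1.n2 ≤ y.1.n1) (hne : xEx x.1 ≠ xEx y.1) :
    Disjoint (Finset.univ.image (fun σ : Equiv.Perm (Fin 3) => xEx x.1 ∘ σ))
      (Finset.univ.image (fun σ : Equiv.Perm (Fin 3) => xEx y.1 ∘ σ)) := by
  rw [Finset.disjoint_left]
  intro n hn hn'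
  rw [Finset.mem_image] at hn hn'
  obtain ⟨σ, _, rfl⟩ := hn
  obtain ⟨τ, _, he⟩ := hn'
  apply hne
  have h1 : (![x.1.n0, x.1.n1, x.1.n2] : Ex) = (![y.1.n0, y.1.n1, y.1.n2] : Ex) ∘ (τ * σ⁻¹) := by
    funext i
    have := congrFun he (σ⁻¹ i)
    have hs : σ (σ⁻¹ i) = i := by simp
    simp only [xEx_apply, Function.comp_apply, hs] at this
    simp only [Function.comp_apply, Equiv.Perm.mul_apply]
    exact this.symm
  obtain ⟨e0, e1, e2⟩ := sorted_unique hx.1 hx.2 hy.1 hy.2 _ h1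
  rw [xEx_apply, xEx_apply, e0, e1, e2]

/-- The sum over listed chamber representatives of a symmetric nonpositive function bounds the sum
over the measure from above, for digits below the coefficients. The exponent vectors are distinct. -/
theorem chamber_nonpos {w : Meas} (hw : Inv3 w) (f : Ex → ℝ)
    (hf : ∀ (σ : Equiv.Perm (Fin 3)) (n : Ex), f (n ∘ σ) = f n) (hf0 : ∀ n, f n ≤ 0)
    (ls : List (XL × ℕ)) (hnd : (ls.map (fun x => xEx x.1)).Nodup)
    (hex : ∀ x ∈ ls, x.1.n1 ≤ x.1.n0 ∧ x.1.n2 ≤ x.1.n1)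
    (hD : ∀ x ∈ ls, x.2 ≤ w.coeff (xEx x.1)) :
    atomsVal w f ≤ (ls.map (fun x => ((orbN x.1.n0 x.1.n1 x.1.n2 * x.2 : ℕ) : ℝ) * f (xEx x.1))).sum := by
  have h := orbits_nonpos hf0 (fun x => Finset.univ.image (fun σ : Equiv.Perm (Fin 3) => xEx x.1 ∘ σ)) ls
    (by
      rw [List.Nodup, List.pairwise_map] at hnd
      exact hnd.imp_of_mem (fun hx hy hne => images_disjoint (hex _ hx) (hex _ hy) hne))
    (by
      intro x _ n hn
      rw [Finset.mem_image] at hn
      obtain ⟨σ, _, rfl⟩ := hn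
      exact hw σ _)
    (by
      intro x _ n hn
      rw [Finset.mem_image] at hn
      obtain ⟨σ, _, rfl⟩ := hn
      exact hf σ _)
    hD
  refine h.trans (le_of_eq ?_)
  congr 1
  refine List.map_congr_left (fun x hx => ?_)
  have := card_images x.1.n0 x.1.n1 x.1.n2 (hex x hx).1 (hex x hx).2
  rw [xEx_apply, this]

/-- the same for nonnegative symmetric functions, in the other direction -/
theorem chamber_nonneg {w : Meas} (hw : Inv3 w) (f : Ex → ℝ)
    (hf : ∀ (σ : Equiv.Perm (Fin 3)) (n : Ex), f (n ∘ σ) = f n) (hf0 : ∀ n, 0 ≤ f n)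
    (ls : List (XL × ℕ)) (hnd : (ls.map (fun x => xEx x.1)).Nodup)
    (hex : ∀ x ∈ ls, x.1.n1 ≤ x.1.n0 ∧ x.1.n2 ≤ x.1.n1)
    (hD : ∀ x ∈ ls, x.2 ≤ w.coeff (xEx x.1)) :
    (ls.map (fun x => ((orbN x.1.n0 x.1.n1 x.1.n2 * x.2 : ℕ) : ℝ) * f (xEx x.1))).sum ≤ atomsVal w f := by
  have h := orbits_nonneg hf0 (fun x => Finset.univ.image (fun σ : Equiv.Perm (Fin 3) => xEx x.1 ∘ σ)) ls
    (by
      rw [List.Nodup, List.pairwise_map] at hnd
      exact hnd.imp_of_mem (fun hx hy hne => images_disjoint (hex _ hx) (hex _ hy) hne))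
    (by
      intro x _ n hn
      rw [Finset.mem_image] at hn
      obtain ⟨σ, _, rfl⟩ := hn
      exact hw σ _)
    (by
      intro x _ n hn
      rw [Finset.mem_image] at hn
      obtain ⟨σ, _, rfl⟩ := hn
      exact hf σ _)
    hD
  refine le_trans (le_of_eq ?_) h
  congr 1
  refine List.map_congr_left (fun x hx => ?_)
  have := card_images x.1.n0 x.1.n1 x.1.n2 (hex x hx).1 (hex x hx).2
  rw [xEx_apply, this]

/-- the orbit of an exponent under the exchange of the coordinates `1` and `2` -/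
def orbE2 (n : Ex) : Finset Ex := {n, n ∘ Equiv.swap 1 2}

theorem swap_xEx (a : XL) : xEx a ∘ Equiv.swap 1 2 = ![a.n0, a.n2, a.n1] := by
  funext i
  fin_cases i <;> rfl

theorem card_orbE2 (a : XL) : 3 * (orbE2 (xEx a)).card = orbE a.n1 a.n2 := by
  rw [orbE_eq]
  unfold orbE2
  by_cases h : a.n1 = a.n2
  · have : xEx a ∘ Equiv.swap 1 2 = xEx a := by
      rw [swap_xEx, xEx_apply, h]
    rw [this, if_pos h]
    simp
  · have : xEx a ≠ xEx a ∘ Equiv.swap 1 2 := by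
      intro he
      rw [swap_xEx, xEx_apply] at he
      have := congrFun he 1
      simp at this
      exact h this
    rw [if_neg h, Finset.card_pair this]

theorem orbE2_disjoint {x y : XL × ℕ} (hx : x.1.n2 ≤ x.1.n1) (hy : y.1.n2 ≤ y.1.n1)
    (hne : xEx x.1 ≠ xEx y.1) : Disjoint (orbE2 (xEx x.1)) (orbE2 (xEx y.1)) := by
  rw [Finset.disjoint_left]
  intro n hn hn'
  apply hne
  simp only [orbE2, Finset.mem_insert, Finset.mem_singleton] at hn hn'
  rw [swap_xEx] at hn hn'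
  rcases hn with rfl | rfl <;> rcases hn' with hn' | hn' <;>
  · have e0 := congrFun hn' 0
    have e1 := congrFun hn' 1
    have e2 := congrFun hn' 2
    simp [xEx_apply] at e0 e1 e2
    rw [xEx_apply, xEx_apply]
    have : x.1.n0 = y.1.n0 ∧ x.1.n1 = y.1.n1 ∧ x.1.n2 = y.1.n2 := by omega
    rw [this.1, this.2.1, this.2.2]

/-- for the special atoms: the group exchanges the coordinates `1` and `2`; the orbit size counts
three copies -/
theorem chamberE_nonpos {e : Meas} (he : InvE e) (f : Ex → ℝ)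
    (hf : ∀ n : Ex, f (n ∘ Equiv.swap 1 2) = f n) (hf0 : ∀ n, f n ≤ 0)
    (ls : List (XL × ℕ)) (hnd : (ls.map (fun x => xEx x.1)).Nodup)
    (hex : ∀ x ∈ ls, x.1.n2 ≤ x.1.n1)
    (hD : ∀ x ∈ ls, x.2 ≤ e.coeff (xEx x.1)) :
    3 * atomsVal e f ≤ (ls.map (fun x => ((orbE x.1.n1 x.1.n2 * x.2 : ℕ) : ℝ) * f (xEx x.1))).sum := by
  have h := orbits_nonpos hf0 (fun x => orbE2 (xEx x.1)) ls
    (by
      rw [List.Nodup, List.pairwise_map] at hnd
      exact hnd.imp_of_mem (fun hx hy hne => orbE2_disjoint (hex _ hx) (hex _ hy) hne))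
    (by
      intro x _ n hn
      simp only [orbE2, Finset.mem_insert, Finset.mem_singleton] at hn
      rcases hn with rfl | rfl
      · rfl
      · exact he _)
    (by
      intro x _ n hn
      simp only [orbE2, Finset.mem_insert, Finset.mem_singleton] at hn
      rcases hn with rfl | rfl
      · rfl
      · exact hf _)
    hD
  have h3 := mul_le_mul_of_nonneg_left h (by norm_num : (0 : ℝ) ≤ 3)
  refine h3.trans (le_of_eq ?_)
  rw [← List.sum_map_mul_left]
  congr 1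
  refine List.map_congr_left (fun x _ => ?_)
  rw [← card_orbE2]
  push_cast
  ring

theorem chamberE_nonneg {e : Meas} (he : InvE e) (f : Ex → ℝ)
    (hf : ∀ n : Ex, f (n ∘ Equiv.swap 1 2) = f n) (hf0 : ∀ n, 0 ≤ f n)
    (ls : List (XL × ℕ)) (hnd : (ls.map (fun x => xEx x.1)).Nodup)
    (hex : ∀ x ∈ ls, x.1.n2 ≤ x.1.n1)
    (hD : ∀ x ∈ ls, x.2 ≤ e.coeff (xEx x.1)) :
    (ls.map (fun x => ((orbE x.1.n1 x.1.n2 * x.2 : ℕ) : ℝ) * f (xEx x.1))).sum ≤ 3 * atomsVal e f := by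
  have h := orbits_nonneg hf0 (fun x => orbE2 (xEx x.1)) ls
    (by
      rw [List.Nodup, List.pairwise_map] at hnd
      exact hnd.imp_of_mem (fun hx hy hne => orbE2_disjoint (hex _ hx) (hex _ hy) hne))
    (by
      intro x _ n hn
      simp only [orbE2, Finset.mem_insert, Finset.mem_singleton] at hn
      rcases hn with rfl | rfl
      · rfl
      · exact he _)
    (by
      intro x _ n hn
      simp only [orbE2, Finset.mem_insert, Finset.mem_singleton] at hn
      rcases hn with rfl | rfl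
      · rfl
      · exact hf _)
    hD
  have h3 := mul_le_mul_of_nonneg_left h (by norm_num : (0 : ℝ) ≤ 3)
  refine le_trans (le_of_eq ?_) h3
  rw [← List.sum_map_mul_left]
  congr 1
  refine List.map_congr_left (fun x _ => ?_)
  rw [← card_orbE2]
  push_cast
  ring

/-- strictly increasing positions that determine the exponent give distinct exponents -/
theorem nodup_xEx {B L : ℕ} (ls : List (XL × ℕ)) (hB : 0 < B)
    (hpos : ∀ x ∈ ls, x.1.pos = B * (x.1.n0 + L * x.1.n1) ∧ x.1.n0 < L)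
    (hsum : ∀ x ∈ ls, ∀ y ∈ ls, x.1.n0 + x.1.n1 + x.1.n2 = y.1.n0 + y.1.n1 + y.1.n2)
    (hs : (ls.map Prod.fst).Pairwise (fun a c => a.pos < c.pos)) :
    (ls.map (fun x => xEx x.1)).Nodup := by
  rw [List.Nodup, List.pairwise_map]
  rw [List.pairwise_map] at hs
  refine hs.imp_of_mem (fun {x y} hx hy hlt he => ?_)
  have e0 : x.1.n0 = y.1.n0 := congrFun he 0
  have e1 : x.1.n1 = y.1.n1 := congrFun he 1
  rw [(hpos x hx).1, (hpos y hy).1, e0, e1] at hlt
  exact lt_irrefl _ hlt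

theorem lt_LP_L {g : GP} {l : LP} {a : ℕ} (h : a ≤ 2 * (g.d * l.O)) : a < LP.L g l := by
  unfold LP.L
  rw [Nat.mul_assoc]
  omega

/-! ### The level of the aggregated posteriors -/

/-- the numbers of a generation before the traversal -/
structure GenNums (g : GP) (l : LP) (ops : Ops) (Tp : PT) (st W We : ℕ) : Prop where
  pair : powN g.bw (maskOf g.B g.bw (LP.N g l)) (asm (2 ^ g.wd) g.u st Tp) (fT g st <<< LP.eo g l)
    ops (asm (2 ^ g.wd) g.u st Tp) (fT g st <<< LP.eo g l) = (W, We)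

/-- the sum over the leaves of a list, of the test function on the rays -/
noncomputable def ListVal (g : GP) (l : LP) (xs es : List (XL × ℕ)) (G : Vec → ℝ) : ℝ :=
  ((2 : ℝ) ^ g.bw)⁻¹ *
    ((xs.map (fun x => ((orbN x.1.n0 x.1.n1 x.1.n2 * x.2 : ℕ) : ℝ) * G (xRay g l x.1))).sum
      + (es.map (fun x => ((orbE x.1.n1 x.1.n2 * x.2 : ℕ) : ℝ) * G (eRay g l x.1))).sum)

/-- the mass of a list of leaves on one coordinate -/
noncomputable def ListMass (g : GP) (l : LP) (xs es : List (XL × ℕ)) : ℝ :=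
  ((2 : ℝ) ^ g.bw)⁻¹ *
    ((xs.map (fun x => ((orbN x.1.n0 x.1.n1 x.1.n2 * x.2 : ℕ) : ℝ)
        * ((xRay g l x.1 0 + xRay g l x.1 1 + xRay g l x.1 2) / 3))).sum
      + (es.map (fun x => ((orbE x.1.n1 x.1.n2 * x.2 : ℕ) : ℝ)
        * ((xRay g l x.1 1 + xRay g l x.1 2) / 3))).sum)

/-- The aggregated level: from the invariant and the passing checks of a generation we get the
domination of the next posteriors by the digits listed in the trees, and the bound for their mass. -/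
theorem xlevel {g : GP} {l : LP} {n st : ℕ} {ops : Ops} {Tp : PT} {Tx Te : XT} {Tz : ZL} {W We : ℕ}
    (hg : gpOK g = true) (hl : latOK g l = true) (hp : ptOK g l Tp Tz = true)
    (hops : Ops.expo ops 1 = g.d)
    (hinv : Inv g l n st)
    (hnums : GenNums g l ops Tp st W We)
    (hchk1 : sumZ (2 ^ g.wd) g.u st Tz 0 + fT g st <<< g.H ≤ 2 ^ (g.bw + g.H))
    (hsx : (XT.leaves Tx 0 0).Pairwise (fun a c => a.pos < c.pos))
    (hse : (XT.leaves Te 0 0).Pairwise (fun a c => a.pos < c.pos))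
    (hxl : ∀ a ∈ XT.leaves Tx 0 0, a.pos = g.B * (a.n0 + LP.L g l * a.n1)
      ∧ a.n0 + a.n1 + a.n2 = 3 * (g.d * l.O) ∧ a.n1 ≤ a.n0 ∧ a.n2 ≤ a.n1 ∧ a.n0 ≤ 2 * (g.d * l.O))
    (hel : ∀ a ∈ XT.leaves Te 0 0, a.pos = g.B * (a.n0 + LP.L g l * a.n1)
      ∧ a.n0 + a.n1 + a.n2 = 3 * (g.d * l.O) ∧ a.n2 ≤ a.n1 ∧ a.n1 ≤ 2 * (g.d * l.O)
      ∧ a.n0 ≤ 2 * (g.d * l.O)) :
    let xs := XT.pairs g.B Tx 0 0 W
    let es := XT.pairs g.B Te 0 0 We
    (∀ G, NSub G → Symm G → val (Xv g.d (lamOf g) (n + 1)) G ≤ ListVal g l xs es G)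
      ∧ ListMass g l xs es * (2 : ℝ) ^ (g.d * (g.bw + g.H))
          ≤ (keptOf g.d (sumZ (2 ^ g.wd) g.u st Tz 0) (fT g st <<< g.H) : ℕ) := by
  classical
  intro xs es
  obtain ⟨hd, hld, hlam0, hlam1, hln, hB, hwd, hu, hbwH⟩ := gpOK_props hg
  obtain ⟨hra, hrb, hr, hdO, h2dO, hreps⟩ := latOK_props hl
  obtain ⟨hI, hSp, hphi, hval, htot, hmass, hz, hpw⟩ := ptOK_props' hg hl hp st
  obtain ⟨heI, heS, het, hephi, hemass⟩ := e1_props g l (fT g st)
  set w1 : Meas := w1Meas g Tp st with hw1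
  set e1 : Meas := e1Meas l (fT g st) with he1
  set Sh : ℕ := sumZ (2 ^ g.wd) g.u st Tz 0 with hSh
  set F' : ℕ := fT g st <<< g.H with hF'
  have hShe : Sh = ((ZL.toList Tz).map (fun a => a.2.2 * fieldC (2 ^ g.wd) g.u st a.1 a.2.1)).sum := by
    rw [hSh, sumZ_eq]
    simp
  have hF'e : F' = fT g st * 2 ^ g.H := by
    rw [hF', Nat.shiftLeft_eq]
  have hpow : ((2 : ℝ) ^ (g.bw + g.H)) = 2 ^ g.bw * 2 ^ g.H := pow_add _ _ _
  have h2bw : (0 : ℝ) < 2 ^ g.bw := by positivity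
  have h2H : (0 : ℝ) < 2 ^ g.H := by positivity
  -- the total mass
  have htot1 : tot w1 + tot e1 ≤ 2 ^ g.bw := by
    have h1 : 2 ^ g.H * tot w1 ≤ Sh := by rw [hShe]; exact htot
    have h2 : Sh + fT g st * 2 ^ g.H ≤ 2 ^ g.bw * 2 ^ g.H := by
      rw [← hF'e, ← pow_add]
      exact hchk1
    rw [het]
    have h3 : (tot w1 + fT g st) * 2 ^ g.H ≤ 2 ^ g.bw * 2 ^ g.H := by nlinarith
    exact Nat.le_of_mul_le_mul_right h3 (by positivity)
  -- the real bounds at level one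
  set S : ℝ := (Sh : ℝ) / 2 ^ (g.bw + g.H) with hS
  set F : ℝ := (F' : ℝ) / 2 ^ (g.bw + g.H) with hF
  have hS0 : 0 ≤ S := by positivity
  have hF0 : 0 ≤ F := by positivity
  have hSj : ∀ j, massV g.bw (rr l) l.O 1 w1 j ≤ S := by
    intro j
    unfold massV
    have h1 := hmass j
    rw [← hShe] at h1
    rw [hS, hpow, inv_mul_eq_div, div_le_div_iff₀ h2bw (by positivity)]
    nlinarith
  have hFj : ∀ j, massV g.bw (rr l) l.O 1 e1 j ≤ F := by
    intro j
    rw [hemass j, hF, hF'e, hpow]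
    apply le_of_eq
    push_cast
    field_simp
  -- the power
  have hMnn : ∀ i, 0 ≤ Mv g.d (lamOf g) n i := Mv_nonneg hlam0 (by linarith) n
  have hdl := dom_level_one hg hl hp hinv
  have hpm := powM_props (B := g.B) (N := LP.N g l) (L := LP.L g l) (d := g.d) hr rfl rfl hB hMnn hI heI hSp heS htot1
    hdl ops 1 le_rfl (by rw [hops]) w1 e1 hI heI hSp heS htot1 hdl S F hSj hFj hS0 hF0
    (by simpa using hSj) (by simpa using hFj)
  set R := powM g.bw w1 e1 ops w1 e1 with hR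
  obtain ⟨hpN, hR1I, hR2E, hR1S, hR2S, hRtot, hRdom, hRm1, hRm2⟩ := hpm
  rw [hops] at hR1S hR2S hRdom
  simp only [hops] at hRm1 hRm2
  -- the numbers
  have hnumsE : (W, We) = (phi g.B (LP.L g l) R.1, phi g.B (LP.L g l) R.2) := by
    rw [← hpN, ← hnums.pair, hphi, hephi]
  have hW : W = phi g.B (LP.L g l) R.1 := congrArg Prod.fst hnumsE
  have hWe : We = phi g.B (LP.L g l) R.2 := congrArg Prod.snd hnumsE
  -- the lists
  have hxsf : xs.map Prod.fst = XT.leaves Tx 0 0 := XT.pairs_fst g.B Tx 0 0 W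
  have hesf : es.map Prod.fst = XT.leaves Te 0 0 := XT.pairs_fst g.B Te 0 0 We
  have hxmem : ∀ x ∈ xs, x.1 ∈ XT.leaves Tx 0 0 := fun x hx => by
    rw [← hxsf]
    exact List.mem_map_of_mem hx
  have hemem : ∀ x ∈ es, x.1 ∈ XT.leaves Te 0 0 := fun x hx => by
    rw [← hesf]
    exact List.mem_map_of_mem hx
  have hBpos : 0 < g.B := by omega
  have hxnd : (xs.map (fun x => xEx x.1)).Nodup := by
    refine nodup_xEx (B := g.B) (L := LP.L g l) xs hBpos ?_ ?_ ?_
    · intro x hx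
      obtain ⟨h1, h2, h3, h4, h5⟩ := hxl x.1 (hxmem x hx)
      exact ⟨h1, lt_LP_L h5⟩
    · intro x hx y hy
      rw [(hxl x.1 (hxmem x hx)).2.1, (hxl y.1 (hxmem y hy)).2.1]
    · rw [hxsf]
      exact hsx
  have henf : (es.map (fun x => xEx x.1)).Nodup := by
    refine nodup_xEx (B := g.B) (L := LP.L g l) es hBpos ?_ ?_ ?_
    · intro x hx
      obtain ⟨h1, h2, h3, h4, h5⟩ := hel x.1 (hemem x hx)
      exact ⟨h1, lt_LP_L h5⟩
    · intro x hx y hy
      rw [(hel x.1 (hemem x hx)).2.1, (hel y.1 (hemem y hy)).2.1]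
    · rw [hesf]
      exact hse
  have hBlt : ∀ a : ℕ, a ≤ 2 ^ g.bw → a < 2 ^ g.B := by
    intro a ha
    refine lt_of_le_of_lt ha (Nat.pow_lt_pow_right (by norm_num) (by omega))
  have hDx : ∀ x ∈ xs, x.2 ≤ R.1.coeff (xEx x.1) := by
    intro x hx
    obtain ⟨h1, h2, h3, h4, h5⟩ := hxl x.1 (hxmem x hx)
    have hd1 := pairs_digit_le g.B Tx W x hx
    have hd2 := phi_digit (B := g.B) (L := LP.L g l) (O := l.O) (k := g.d) (d := g.d) (w := R.1) hR1S le_rfl rfl
      (hBlt _ (le_trans (Nat.le_add_right _ _) hRtot)) (xEx x.1) h2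
      (lt_LP_L h5)
    rw [hW, h1] at hd1
    change (phi g.B (LP.L g l) R.1 >>> (g.B * (x.1.n0 + LP.L g l * x.1.n1))) % 2 ^ g.B = _ at hd2
    rw [hd2] at hd1
    exact hd1
  have hDe : ∀ x ∈ es, x.2 ≤ R.2.coeff (xEx x.1) := by
    intro x hx
    obtain ⟨h1, h2, h3, h4, h5⟩ := hel x.1 (hemem x hx)
    have hd1 := pairs_digit_le g.B Te We x hx
    have hd2 := phi_digit (B := g.B) (L := LP.L g l) (O := l.O) (k := g.d) (d := g.d) (w := R.2) hR2S le_rfl rfl
      (hBlt _ (le_trans (Nat.le_add_left _ _) hRtot)) (xEx x.1) h2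
      (lt_LP_L h5)
    rw [hWe, h1] at hd1
    change (phi g.B (LP.L g l) R.2 >>> (g.B * (x.1.n0 + LP.L g l * x.1.n1))) % 2 ^ g.B = _ at hd2
    rw [hd2] at hd1
    exact hd1
  have hexx : ∀ x ∈ xs, x.1.n1 ≤ x.1.n0 ∧ x.1.n2 ≤ x.1.n1 := fun x hx => by
    obtain ⟨_, _, h3, h4, _⟩ := hxl x.1 (hxmem x hx)
    exact ⟨h3, h4⟩
  have hexe : ∀ x ∈ es, x.1.n2 ≤ x.1.n1 := fun x hx => (hel x.1 (hemem x hx)).2.2.1
  have hmask : mask 0 ∘ (Equiv.swap (1 : Fin 3) 2) = mask 0 := by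
    rw [mask_perm]
    congr 1
  refine ⟨?_, ?_⟩
  · -- the bound by the list
    intro G hG hs
    rw [val_Xv_succ]
    refine (hRdom G hG).trans ?_
    rw [VP_symm hs]
    unfold ListVal
    refine mul_le_mul_of_nonneg_left ?_ (by positivity)
    refine add_le_add ?_ ?_
    · refine chamber_nonpos hR1I (fun n => G (ray (rr l) l.O g.d n)) ?_ ?_ xs hxnd hexx hDx
      · intro σ n
        rw [ray_perm, hs]
      · intro n
        exact hG.nonpos (ray_nonneg hr n)
    · refine chamberE_nonpos hR2E (fun n => G (ray (rr l) l.O g.d n * mask 0)) ?_ ?_ es henf hexe hDe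
      · intro n
        have : ray (rr l) l.O g.d (n ∘ Equiv.swap 1 2) * mask 0 =
            (ray (rr l) l.O g.d n * mask 0) ∘ Equiv.swap 1 2 := by
          rw [ray_perm]
          conv_lhs => rw [← hmask]
          rfl
        rw [this, hs]
      · intro n
        exact hG.nonpos (ray_mask_nonneg hr n 0)
  · -- the mass
    set c : ℝ := ((2 : ℝ) ^ g.bw)⁻¹ with hc
    have hc0 : 0 ≤ c := by positivity
    have hX : (xs.map (fun x => ((orbN x.1.n0 x.1.n1 x.1.n2 * x.2 : ℕ) : ℝ)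
        * ((xRay g l x.1 0 + xRay g l x.1 1 + xRay g l x.1 2) / 3))).sum ≤
        atomsVal R.1 (fun n => (ray (rr l) l.O g.d n 0 + ray (rr l) l.O g.d n 1 + ray (rr l) l.O g.d n 2) / 3) := by
      refine chamber_nonneg hR1I (fun n => (ray (rr l) l.O g.d n 0 + ray (rr l) l.O g.d n 1 + ray (rr l) l.O g.d n 2) / 3)
        ?_ ?_ xs hxnd hexx hDx
      · intro σ n
        simp only [ray, Function.comp_apply]
        have hall : ∀ (h : Fin 3 → ℝ), h (σ 0) + h (σ 1) + h (σ 2) = h 0 + h 1 + h 2 := by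
          intro h
          have := Equiv.sum_comp σ h
          simpa [Fin.sum_univ_three] using this
        rw [hall (fun i => rr l ^ ((n i : ℤ) - ((g.d * l.O : ℕ) : ℤ)))]
      · intro n
        have := ray_nonneg (O := l.O) (k := g.d) hr n
        have h0 := this 0
        have h1 := this 1
        have h2 := this 2
        simp only [Pi.zero_apply] at h0 h1 h2
        positivity
    have hY : (es.map (fun x => ((orbE x.1.n1 x.1.n2 * x.2 : ℕ) : ℝ)
        * ((xRay g l x.1 1 + xRay g l x.1 2) / 3))).sum ≤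
        3 * atomsVal R.2 (fun n => (ray (rr l) l.O g.d n 1 + ray (rr l) l.O g.d n 2) / 3) := by
      refine chamberE_nonneg hR2E (fun n => (ray (rr l) l.O g.d n 1 + ray (rr l) l.O g.d n 2) / 3)
        ?_ ?_ es henf hexe hDe
      · intro n
        simp only [ray, Function.comp_apply]
        have e1 : (Equiv.swap (1 : Fin 3) 2) 1 = 2 := by decide
        have e2 : (Equiv.swap (1 : Fin 3) 2) 2 = 1 := by decide
        rw [e1, e2, add_comm]
      · intro n
        have := ray_nonneg (O := l.O) (k := g.d) hr n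
        have h1 := this 1
        have h2 := this 2
        simp only [Pi.zero_apply] at h1 h2
        positivity
    have hA : atomsVal R.1 (fun n => (ray (rr l) l.O g.d n 0 + ray (rr l) l.O g.d n 1 + ray (rr l) l.O g.d n 2) / 3) =
        (atomsVal R.1 (fun n => ray (rr l) l.O g.d n 0) + atomsVal R.1 (fun n => ray (rr l) l.O g.d n 1)
          + atomsVal R.1 (fun n => ray (rr l) l.O g.d n 2)) / 3 := by
      have : (fun n => (ray (rr l) l.O g.d n 0 + ray (rr l) l.O g.d n 1 + ray (rr l) l.O g.d n 2) / 3) =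
          fun n => (1 / 3 : ℝ) * (ray (rr l) l.O g.d n 0 + ray (rr l) l.O g.d n 1 + ray (rr l) l.O g.d n 2) := by
        funext n
        ring
      rw [this, atomsVal_const_mul, atomsVal_add_fun, atomsVal_add_fun]
      ring
    have hB' : 3 * atomsVal R.2 (fun n => (ray (rr l) l.O g.d n 1 + ray (rr l) l.O g.d n 2) / 3) =
        atomsVal R.2 (fun n => ray (rr l) l.O g.d n 1) + atomsVal R.2 (fun n => ray (rr l) l.O g.d n 2) := by
      have : (fun n => (ray (rr l) l.O g.d n 1 + ray (rr l) l.O g.d n 2) / 3) =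
          fun n => (1 / 3 : ℝ) * (ray (rr l) l.O g.d n 1 + ray (rr l) l.O g.d n 2) := by
        funext n
        ring
      rw [this, atomsVal_const_mul, atomsVal_add_fun]
      ring
    have hm1 : ∀ j, c * atomsVal R.1 (fun n => ray (rr l) l.O g.d n j) ≤ S ^ g.d := hRm1
    have hm2 : ∀ j, c * atomsVal R.2 (fun n => ray (rr l) l.O g.d n j) ≤ (S + F) ^ g.d - S ^ g.d := hRm2
    have hL : ListMass g l xs es ≤ 2 * (S + F) ^ g.d - S ^ g.d := by
      unfold ListMass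
      rw [← hc]
      have h1 := mul_le_mul_of_nonneg_left hX hc0
      have h2 := mul_le_mul_of_nonneg_left hY hc0
      rw [hA] at h1
      rw [hB'] at h2
      have a0 := hm1 0
      have a1 := hm1 1
      have a2 := hm1 2
      have b1 := hm2 1
      have b2 := hm2 2
      rw [mul_add]
      nlinarith
    have hE : (2 : ℝ) ^ (g.d * (g.bw + g.H)) = ((2 : ℝ) ^ (g.bw + g.H)) ^ g.d := by
      rw [mul_comm, pow_mul]
    have hE0 : (0 : ℝ) < (2 : ℝ) ^ (g.bw + g.H) := by positivity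
    have hS2 : S ^ g.d * (2 : ℝ) ^ (g.d * (g.bw + g.H)) = (Sh : ℝ) ^ g.d := by
      rw [hE, hS, div_pow, div_mul_cancel₀]
      positivity
    have hSF : (S + F) ^ g.d * (2 : ℝ) ^ (g.d * (g.bw + g.H)) = ((Sh : ℝ) + F') ^ g.d := by
      rw [hE, hS, hF, ← add_div, div_pow, div_mul_cancel₀]
      positivity
    have hkept : ((keptOf g.d Sh F' : ℕ) : ℝ) = 2 * ((Sh : ℝ) + F') ^ g.d - (Sh : ℝ) ^ g.d := by
      unfold keptOf
      have hle : Nat.pow Sh g.d ≤ Nat.mul 2 (Nat.pow (Nat.add Sh F') g.d) := by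
        change Sh ^ g.d ≤ 2 * (Sh + F') ^ g.d
        have : Sh ^ g.d ≤ (Sh + F') ^ g.d := Nat.pow_le_pow_left (Nat.le_add_right _ _) _
        omega
      have e1 : ((Nat.sub (Nat.mul 2 (Nat.pow (Nat.add Sh F') g.d)) (Nat.pow Sh g.d) : ℕ) : ℝ) =
          ((Nat.mul 2 (Nat.pow (Nat.add Sh F') g.d) : ℕ) : ℝ) - ((Nat.pow Sh g.d : ℕ) : ℝ) :=
        Nat.cast_sub hle
      rw [e1]
      change (((2 * (Sh + F') ^ g.d : ℕ)) : ℝ) - ((Sh ^ g.d : ℕ) : ℝ) = _
      push_cast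
      ring
    rw [hkept]
    have hmul := mul_le_mul_of_nonneg_right hL (by positivity : (0 : ℝ) ≤ (2 : ℝ) ^ (g.d * (g.bw + g.H)))
    refine hmul.trans (le_of_eq ?_)
    rw [sub_mul, mul_assoc, hSF, hS2]

/-- From normalized to all symmetric sublinear test functions. -/
theorem xlevel_sublin {g : GP} {l : LP} {n : ℕ} {xs es : List (XL × ℕ)}
    (hg : gpOK g = true) (hl : latOK g l = true)
    (h : ∀ G, NSub G → Symm G → val (Xv g.d (lamOf g) (n + 1)) G ≤ ListVal g l xs es G)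
    (G : Vec → ℝ) (hG : Sublin G) (hs : Symm G) :
    val (Xv g.d (lamOf g) (n + 1)) G
      ≤ ListVal g l xs es G + 3 * (1 - ListMass g l xs es) * G (Pi.single 0 1) := by
  classical
  -- the vertices have the same value
  have hv : ∀ i : Fin 3, G (Pi.single i 1) = G (Pi.single 0 1) := by
    intro i
    have e : (Pi.single (0 : Fin 3) 1 : Vec) ∘ (Equiv.swap 0 i) = Pi.single i 1 := by
      funext j
      simp only [Function.comp_apply, Pi.single_apply]
      by_cases hj : j = i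
      · subst hj
        simp
      · rw [if_neg hj, if_neg]
        intro h0
        apply hj
        have := congrArg (Equiv.swap 0 i) h0
        simpa using this
    rw [← e, hs]
  set g0 := G (Pi.single 0 1) with hg0
  have hN := hG.normalize
  simp only [hv 1, hv 2, ← hg0] at hN
  have hS : Symm (fun v : Vec => G v - (v 0 * g0 + v 1 * g0 + v 2 * g0)) := by
    intro σ v
    simp only [Function.comp_apply]
    rw [hs]
    have hall : v (σ 0) + v (σ 1) + v (σ 2) = v 0 + v 1 + v 2 := by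
      have := Equiv.sum_comp σ v
      simpa [Fin.sum_univ_three] using this
    have e1 : v (σ 0) * g0 + v (σ 1) * g0 + v (σ 2) * g0 = (v (σ 0) + v (σ 1) + v (σ 2)) * g0 := by ring
    have e2 : v 0 * g0 + v 1 * g0 + v 2 * g0 = (v 0 + v 1 + v 2) * g0 := by ring
    rw [e1, e2, hall]
  have hmain := h _ hN hS
  -- the value on the linear part
  have hval : val (Xv g.d (lamOf g) (n + 1)) (fun v : Vec => G v - (v 0 * g0 + v 1 * g0 + v 2 * g0)) =
      val (Xv g.d (lamOf g) (n + 1)) G - 3 * g0 := by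
    unfold val
    rw [Finset.sum_sub_distrib]
    congr 1
    have hsum := Xv_sum (d := g.d) (lam := lamOf g) (n + 1)
    have e0 : ∀ i : Fin 3, ∑ s, Xv g.d (lamOf g) (n + 1) s i = 1 := by
      intro i
      have := congrFun hsum i
      simpa [Finset.sum_apply] using this
    have : ∀ s, (Xv g.d (lamOf g) (n + 1) s 0 * g0 + Xv g.d (lamOf g) (n + 1) s 1 * g0
        + Xv g.d (lamOf g) (n + 1) s 2 * g0) =
        (Xv g.d (lamOf g) (n + 1) s 0 + Xv g.d (lamOf g) (n + 1) s 1 + Xv g.d (lamOf g) (n + 1) s 2) * g0 := by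
      intro s
      ring
    simp only [this]
    rw [← Finset.sum_mul, Finset.sum_add_distrib, Finset.sum_add_distrib, e0, e0, e0]
    ring
  -- the list on the linear part
  have hlist : ListVal g l xs es (fun v : Vec => G v - (v 0 * g0 + v 1 * g0 + v 2 * g0)) =
      ListVal g l xs es G - 3 * ListMass g l xs es * g0 := by
    unfold ListVal ListMass
    have aux : ∀ (L : List (XL × ℕ)) (a u v : XL × ℕ → ℝ),
        (L.map (fun x => a x * (u x - 3 * g0 * v x))).sum =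
          (L.map (fun x => a x * u x)).sum - 3 * g0 * (L.map (fun x => a x * v x)).sum := by
      intro L a u v
      induction L with
      | nil => simp
      | cons y tl ih =>
        simp only [List.map_cons, List.sum_cons, ih]
        ring
    have e1 : ∀ x : XL × ℕ, ((orbN x.1.n0 x.1.n1 x.1.n2 * x.2 : ℕ) : ℝ) *
        (G (xRay g l x.1) - (xRay g l x.1 0 * g0 + xRay g l x.1 1 * g0 + xRay g l x.1 2 * g0)) =
        ((orbN x.1.n0 x.1.n1 x.1.n2 * x.2 : ℕ) : ℝ) *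
        (G (xRay g l x.1) - 3 * g0 * ((xRay g l x.1 0 + xRay g l x.1 1 + xRay g l x.1 2) / 3)) := by
      intro x
      congr 2
      ring
    have e2 : ∀ x : XL × ℕ, ((orbE x.1.n1 x.1.n2 * x.2 : ℕ) : ℝ) *
        (G (eRay g l x.1) - (eRay g l x.1 0 * g0 + eRay g l x.1 1 * g0 + eRay g l x.1 2 * g0)) =
        ((orbE x.1.n1 x.1.n2 * x.2 : ℕ) : ℝ) *
        (G (eRay g l x.1) - 3 * g0 * ((xRay g l x.1 1 + xRay g l x.1 2) / 3)) := by
      intro x
      congr 2
      have a0 : eRay g l x.1 0 = 0 := by simp [eRay, mask]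
      have a1 : eRay g l x.1 1 = xRay g l x.1 1 := by simp [eRay, mask]
      have a2 : eRay g l x.1 2 = xRay g l x.1 2 := by simp [eRay, mask]
      rw [a0, a1, a2]
      ring
    simp only [e1, e2]
    rw [aux, aux]
    ring
  rw [hval, hlist] at hmain
  linarith

/-! ### One generation -/

/-- the parts of the check of a segment -/
theorem checkSeg_props {g : GP} {li lo : LP} {D1 D2 : ℕ} {vl : XL} {Tp : PT} {Tx Te : XT} {Tz : ZL}
    (h : checkSeg g li lo D1 D2 vl Tp Tx Te Tz = true) :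
    gpOK g = true ∧ latOK g li = true ∧ latOK g lo = true ∧ pairOK li lo D1 D2 = true
      ∧ ptOK g li Tp Tz = true ∧ chkX g li lo D1 D2 Tx 0 0 (Nat.mul g.B (LP.N g li)) = true
      ∧ chkE g li lo D1 D2 Te 0 0 (Nat.mul g.B (LP.N g li)) = true ∧ vLeafOK g li lo D1 D2 vl = true := by
  simpa [checkSeg, band_eq_true] using h

/-- the zero state is always sound -/
theorem inv_of_zero (g : GP) (l : LP) (n : ℕ) (h0 : -(1 / 2) ≤ lamOf g) (h1 : lamOf g ≤ 1) :
    Inv g l n 0 := by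
  intro G hG _
  have h2 : val (Mv g.d (lamOf g) n) G ≤ 0 :=
    Finset.sum_nonpos (fun s _ => hG.nonpos (Mv_nonneg h0 h1 n s))
  have e : ∀ t, cT g l 0 t = 0 := by
    intro t
    show ((0 >>> (g.wd * t)) % 2 ^ g.wd) >>> g.u / orbT l t = 0
    simp
  have f : fT g 0 = 0 := by
    show ((0 >>> 0) % 2 ^ g.wd) >>> g.u = 0
    simp
  have h3 : PVal g l 0 G = 0 := by
    simp [PVal, e, f]
  linarith

/-- the coefficient on field `t` of a list of leaves with digits -/
def coefL (wd : ℕ) (xs : List (XL × ℕ)) (t : ℕ) : ℕ := (xs.map (fun x => x.2 * coefAt wd x.1 t)).sum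

@[simp] theorem coefL_nil (wd t : ℕ) : coefL wd [] t = 0 := rfl

@[simp] theorem coefL_cons (wd t : ℕ) (x : XL × ℕ) (xs : List (XL × ℕ)) :
    coefL wd (x :: xs) t = x.2 * coefAt wd x.1 t + coefL wd xs t := by
  simp [coefL]

theorem sum_term_eq_fields {g : GP} {lo : LP} (hw : 0 < g.wd) (xs : List (XL × ℕ))
    (h : ∀ x ∈ xs, (x.1.M1 = 0 ∨ ∃ t ≤ lo.T, x.1.P1 = g.wd * t)
      ∧ (x.1.M2 = 0 ∨ ∃ t ≤ lo.T, x.1.P2 = g.wd * t) ∧ (x.1.M3 = 0 ∨ ∃ t ≤ lo.T, x.1.P3 = g.wd * t)) :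
    (xs.map (fun x => x.2 * x.1.term)).sum
      = ∑ t ∈ Finset.range (lo.T + 1), coefL g.wd xs t * 2 ^ (g.wd * t) := by
  induction xs with
  | nil => simp
  | cons x xs ih =>
    have hx := h x (by simp)
    have e1 := term_eq_fields (g := g) (lo := lo) hw hx.1 hx.2.1 hx.2.2
    simp only [List.map_cons, List.sum_cons, coefL_cons]
    rw [ih (fun y hy => h y (by simp [hy])), e1, Finset.mul_sum, ← Finset.sum_add_distrib]
    refine Finset.sum_congr rfl (fun t _ => ?_)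
    ring

theorem sum_leafRHS (g : GP) (lo : LP) (G : Vec → ℝ) (xs : List (XL × ℕ)) :
    (xs.map (fun x => (x.2 : ℝ) * leafRHS g lo x.1 G)).sum
      = ((2 : ℝ) ^ g.u)⁻¹ * (∑ t ∈ Finset.Icc 1 lo.T, (coefL g.wd xs t : ℝ) * G (rhoT lo t)
        + (coefL g.wd xs 0 : ℝ) * (3 * G (mask 0))) := by
  induction xs with
  | nil => simp
  | cons x xs ih =>
    rw [List.map_cons, List.sum_cons, ih]
    have hs : ∑ t ∈ Finset.Icc 1 lo.T, (coefL g.wd (x :: xs) t : ℝ) * G (rhoT lo t)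
        = (x.2 : ℝ) * ∑ t ∈ Finset.Icc 1 lo.T, (coefAt g.wd x.1 t : ℝ) * G (rhoT lo t)
          + ∑ t ∈ Finset.Icc 1 lo.T, (coefL g.wd xs t : ℝ) * G (rhoT lo t) := by
      rw [Finset.mul_sum, ← Finset.sum_add_distrib]
      refine Finset.sum_congr rfl (fun t _ => ?_)
      rw [coefL_cons]
      push_cast
      ring
    rw [hs, coefL_cons]
    unfold leafRHS
    push_cast
    ring

theorem coefL_le {wd : ℕ} (hw : 0 < wd) (xs : List (XL × ℕ)) (t : ℕ) :
    coefL wd xs t ≤ (xs.map (fun x => x.2 * (x.1.M1 + x.1.M2 + x.1.M3))).sum := by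
  induction xs with
  | nil => simp
  | cons x xs ih =>
    simp only [coefL_cons, List.map_cons, List.sum_cons]
    exact Nat.add_le_add (Nat.mul_le_mul_left _ (coefAt_le_sum hw x.1 t)) ih

/-- the values of the fields of a state bound the value of the state -/
theorem pval_of_fields {g : GP} {lo : LP} {st' : ℕ} {Ft : ℕ → ℕ} {G : Vec → ℝ} (hG : NSub G)
    (hlo : latOK g lo = true) (hF : ∀ t ≤ lo.T, (st' >>> (g.wd * t)) % 2 ^ g.wd = Ft t) :
    ((2 : ℝ) ^ g.bw)⁻¹ * (((2 : ℝ) ^ g.u)⁻¹ * (∑ t ∈ Finset.Icc 1 lo.T, (Ft t : ℝ) * G (rhoT lo t)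
        + (Ft 0 : ℝ) * (3 * G (mask 0)))) ≤ PVal g lo st' G := by
  have hr : 0 < rr lo := (latOK_props hlo).2.2.1
  have hu : (0 : ℝ) < (2 : ℝ) ^ g.u := by positivity
  have hb : (0 : ℝ) ≤ ((2 : ℝ) ^ g.bw)⁻¹ := by positivity
  unfold PVal
  refine mul_le_mul_of_nonneg_left ?_ hb
  rw [mul_add, Finset.mul_sum]
  refine add_le_add (Finset.sum_le_sum fun t ht => ?_) ?_
  · have ht' := (Finset.mem_Icc.mp ht).2
    have hneg : G (rhoT lo t) ≤ 0 := hG.nonpos (ray_nonneg hr _)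
    have e1 : fieldC (2 ^ g.wd) g.u st' (g.wd * t) (orbT lo t) = (Ft t / 2 ^ g.u) / orbT lo t := by
      show Nat.div (Nat.shiftRight (Nat.mod (Nat.shiftRight st' (g.wd * t)) (2 ^ g.wd)) g.u) (orbT lo t) = _
      have := hF t ht'
      show ((st' >>> (g.wd * t)) % 2 ^ g.wd) >>> g.u / orbT lo t = _
      rw [this, Nat.shiftRight_eq_div_pow]
    have e2 : ((cT g lo st' t * orbT lo t : ℕ) : ℝ) ≤ ((2 : ℝ) ^ g.u)⁻¹ * (Ft t : ℝ) := by
      unfold cT
      rw [e1]
      have h1 : (Ft t / 2 ^ g.u) / orbT lo t * orbT lo t ≤ Ft t / 2 ^ g.u := Nat.div_mul_le_self _ _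
      have h2 : ((Ft t / 2 ^ g.u : ℕ) : ℝ) ≤ (Ft t : ℝ) / ((2 ^ g.u : ℕ) : ℝ) := Nat.cast_div_le
      have h3 : (((Ft t / 2 ^ g.u) / orbT lo t * orbT lo t : ℕ) : ℝ) ≤ ((Ft t / 2 ^ g.u : ℕ) : ℝ) := by
        exact_mod_cast h1
      push_cast at h2
      calc _ ≤ (Ft t : ℝ) / (2 : ℝ) ^ g.u := h3.trans h2
        _ = _ := by rw [div_eq_inv_mul]
    calc ((2 : ℝ) ^ g.u)⁻¹ * ((Ft t : ℝ) * G (rhoT lo t))
        = (((2 : ℝ) ^ g.u)⁻¹ * (Ft t : ℝ)) * G (rhoT lo t) := by ring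
      _ ≤ _ := mul_le_mul_of_nonpos_right e2 hneg
  · have hneg : 3 * G (mask 0) ≤ 0 := by
      have := hG.nonpos (mask_nonneg 0)
      linarith
    have e1 : fT g st' = Ft 0 / 2 ^ g.u := by
      have := hF 0 (Nat.zero_le _)
      simp only [Nat.mul_zero, Nat.shiftRight_zero] at this
      show ((st' >>> 0) % 2 ^ g.wd) >>> g.u = _
      rw [Nat.shiftRight_zero, this, Nat.shiftRight_eq_div_pow]
    have e2 : (fT g st' : ℝ) ≤ ((2 : ℝ) ^ g.u)⁻¹ * (Ft 0 : ℝ) := by
      rw [e1]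
      have h2 : ((Ft 0 / 2 ^ g.u : ℕ) : ℝ) ≤ (Ft 0 : ℝ) / ((2 ^ g.u : ℕ) : ℝ) := Nat.cast_div_le
      push_cast at h2
      calc _ ≤ (Ft 0 : ℝ) / (2 : ℝ) ^ g.u := h2
        _ = _ := by rw [div_eq_inv_mul]
    calc ((2 : ℝ) ^ g.u)⁻¹ * ((Ft 0 : ℝ) * (3 * G (mask 0)))
        = (((2 : ℝ) ^ g.u)⁻¹ * (Ft 0 : ℝ)) * (3 * G (mask 0)) := by ring
      _ ≤ _ := mul_le_mul_of_nonpos_right e2 hneg

/-- the channel composed with a test function -/
theorem chan_sublin {G : Vec → ℝ} {lam : ℝ} (h0 : -(1 / 2) ≤ lam) (h1 : lam ≤ 1) (hG : Sublin G) :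
    Sublin (fun v => G (chanV lam v)) :=
  Sublin.comp_linear hG (chanL lam) (fun _ hv => chanV_nonneg h0 h1 hv)

theorem chan_symm {G : Vec → ℝ} {lam : ℝ} (hs : Symm G) : Symm (fun v => G (chanV lam v)) := by
  intro σ v
  show G (chanV lam (v ∘ σ)) = G (chanV lam v)
  rw [chanV_perm, hs]

/-- the mass of the leaves bounds the coefficients of the fields -/
theorem mass_leaves {g : GP} {li lo : LP} {D1 D2 : ℕ} {xs es : List (XL × ℕ)} (hg : gpOK g = true)
    (hli : latOK g li = true)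
    (hx : ∀ x ∈ xs, xLeafOK g li lo D1 D2 x.1 = true) (he : ∀ x ∈ es, eLeafOK g li lo D1 D2 x.1 = true) :
    (((xs.map (fun x => x.2 * (x.1.M1 + x.1.M2 + x.1.M3))).sum : ℕ) : ℝ)
      + (((es.map (fun x => x.2 * (x.1.M1 + x.1.M2 + x.1.M3))).sum : ℕ) : ℝ)
      ≤ (2 : ℝ) ^ g.u * ((2 : ℝ) ^ g.bw * ListMass g li xs es) := by
  have hb : (2 : ℝ) ^ g.bw ≠ 0 := by positivity
  have e0 : (2 : ℝ) ^ g.bw * ListMass g li xs es
      = (xs.map (fun x => ((orbN x.1.n0 x.1.n1 x.1.n2 * x.2 : ℕ) : ℝ)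
        * ((xRay g li x.1 0 + xRay g li x.1 1 + xRay g li x.1 2) / 3))).sum
      + (es.map (fun x => ((orbE x.1.n1 x.1.n2 * x.2 : ℕ) : ℝ)
        * ((xRay g li x.1 1 + xRay g li x.1 2) / 3))).sum := by
    unfold ListMass
    field_simp
  rw [e0, mul_add]
  have h1 : ∀ ys : List (XL × ℕ), (∀ x ∈ ys, xLeafOK g li lo D1 D2 x.1 = true) →
      (((ys.map (fun x => x.2 * (x.1.M1 + x.1.M2 + x.1.M3))).sum : ℕ) : ℝ)
      ≤ (2 : ℝ) ^ g.u * (ys.map (fun x => ((orbN x.1.n0 x.1.n1 x.1.n2 * x.2 : ℕ) : ℝ)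
        * ((xRay g li x.1 0 + xRay g li x.1 1 + xRay g li x.1 2) / 3))).sum := by
    intro ys
    induction ys with
    | nil => simp
    | cons y ys ih =>
      intro hy
      have hy0 := xLeaf_mass hg hli (hy y (by simp))
      have ih' := ih (fun x hx => hy x (by simp [hx]))
      simp only [List.map_cons, List.sum_cons]
      push_cast at ih' hy0 ⊢
      have hD : (0 : ℝ) ≤ (y.2 : ℝ) := Nat.cast_nonneg _
      nlinarith [mul_le_mul_of_nonneg_left hy0 hD]
  have h2 : ∀ ys : List (XL × ℕ), (∀ x ∈ ys, eLeafOK g li lo D1 D2 x.1 = true) →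
      (((ys.map (fun x => x.2 * (x.1.M1 + x.1.M2 + x.1.M3))).sum : ℕ) : ℝ)
      ≤ (2 : ℝ) ^ g.u * (ys.map (fun x => ((orbE x.1.n1 x.1.n2 * x.2 : ℕ) : ℝ)
        * ((xRay g li x.1 1 + xRay g li x.1 2) / 3))).sum := by
    intro ys
    induction ys with
    | nil => simp
    | cons y ys ih =>
      intro hy
      have hy0 := eLeaf_mass hg hli (hy y (by simp))
      have ih' := ih (fun x hx => hy x (by simp [hx]))
      simp only [List.map_cons, List.sum_cons]
      push_cast at ih' hy0 ⊢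
      have hD : (0 : ℝ) ≤ (y.2 : ℝ) := Nat.cast_nonneg _
      nlinarith [mul_le_mul_of_nonneg_left hy0 hD]
  exact add_le_add (h1 xs hx) (h2 es he)

/-- the main inequality of a generation, with the digits given -/
theorem step_value {g : GP} {li lo : LP} {D1 D2 : ℕ} {vl : XL} {n : ℕ} {xs es : List (XL × ℕ)} {V : ℕ}
    (hg : gpOK g = true) (hli : latOK g li = true) (hlo : latOK g lo = true)
    (hp : pairOK li lo D1 D2 = true) (hv : vLeafOK g li lo D1 D2 vl = true)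
    (hx : ∀ x ∈ xs, xLeafOK g li lo D1 D2 x.1 = true) (he : ∀ x ∈ es, eLeafOK g li lo D1 D2 x.1 = true)
    (h1 : ∀ G, NSub G → Symm G → val (Xv g.d (lamOf g) (n + 1)) G ≤ ListVal g li xs es G)
    (hV : (V : ℝ) * ((2 : ℝ) ^ g.bw)⁻¹ ≤ 1 - ListMass g li xs es)
    {G : Vec → ℝ} (hG : NSub G) (hs : Symm G) :
    val (Mv g.d (lamOf g) (n + 1)) G
      ≤ ((2 : ℝ) ^ g.bw)⁻¹ * (((2 : ℝ) ^ g.u)⁻¹ *
        (∑ t ∈ Finset.Icc 1 lo.T, (((V * coefAt g.wd vl t + coefL g.wd xs t + coefL g.wd es t : ℕ) : ℝ))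
            * G (rhoT lo t)
          + ((V * coefAt g.wd vl 0 + coefL g.wd xs 0 + coefL g.wd es 0 : ℕ) : ℝ) * (3 * G (mask 0)))) := by
  obtain ⟨-, -, hlam0, hlam1, -⟩ := gpOK_props hg
  have hlam1' : lamOf g ≤ 1 := by linarith
  have hs' := chan_symm (lam := lamOf g) hs
  have hG' := chan_sublin hlam0 hlam1' hG.toSublin
  have hz := xlevel_sublin hg hli h1 _ hG' hs'
  have e0 : val (Mv g.d (lamOf g) (n + 1)) G
      = val (Xv g.d (lamOf g) (n + 1)) (fun v => G (chanV (lamOf g) v)) := rfl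
  rw [e0]
  refine hz.trans ?_
  -- the vertex
  have hb : (0 : ℝ) ≤ ((2 : ℝ) ^ g.bw)⁻¹ := by positivity
  have hvs := vLeaf_sound hg hli hlo hp hv hG hs
  have hneg : G (chanV (lamOf g) (Pi.single 0 1)) ≤ 0 :=
    hG.nonpos (chanV_nonneg hlam0 hlam1' (by intro i; by_cases h : i = 0 <;> simp [h]))
  have hvert : 3 * (1 - ListMass g li xs es) * G (chanV (lamOf g) (Pi.single 0 1))
      ≤ ((2 : ℝ) ^ g.bw)⁻¹ * ((V : ℝ) * leafRHS g lo vl G) := by
    have hV0 : (0 : ℝ) ≤ (V : ℝ) := Nat.cast_nonneg _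
    calc 3 * (1 - ListMass g li xs es) * G (chanV (lamOf g) (Pi.single 0 1))
        ≤ 3 * ((V : ℝ) * ((2 : ℝ) ^ g.bw)⁻¹) * G (chanV (lamOf g) (Pi.single 0 1)) := by
          have := mul_le_mul_of_nonpos_right hV hneg
          linarith
      _ = ((2 : ℝ) ^ g.bw)⁻¹ * ((V : ℝ) * (3 * G (chanV (lamOf g) (Pi.single 0 1)))) := by ring
      _ ≤ _ := mul_le_mul_of_nonneg_left (mul_le_mul_of_nonneg_left hvs hV0) hb
  -- the leaves
  have hl1 : (xs.map (fun x => ((orbN x.1.n0 x.1.n1 x.1.n2 * x.2 : ℕ) : ℝ)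
      * G (chanV (lamOf g) (xRay g li x.1)))).sum
      ≤ (xs.map (fun x => (x.2 : ℝ) * leafRHS g lo x.1 G)).sum := by
    refine List.sum_le_sum (fun x hxm => ?_)
    have := xLeaf_sound hg hli hlo hp (hx x hxm) hG hs
    have hD : (0 : ℝ) ≤ (x.2 : ℝ) := Nat.cast_nonneg _
    have := mul_le_mul_of_nonneg_left this hD
    push_cast
    linarith
  have hl2 : (es.map (fun x => ((orbE x.1.n1 x.1.n2 * x.2 : ℕ) : ℝ)
      * G (chanV (lamOf g) (eRay g li x.1)))).sum
      ≤ (es.map (fun x => (x.2 : ℝ) * leafRHS g lo x.1 G)).sum := by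
    refine List.sum_le_sum (fun x hxm => ?_)
    have := eLeaf_sound hg hli hlo hp (he x hxm) hG hs
    have hD : (0 : ℝ) ≤ (x.2 : ℝ) := Nat.cast_nonneg _
    have := mul_le_mul_of_nonneg_left this hD
    push_cast
    linarith
  have hlist : ListVal g li xs es (fun v => G (chanV (lamOf g) v))
      ≤ ((2 : ℝ) ^ g.bw)⁻¹ * ((xs.map (fun x => (x.2 : ℝ) * leafRHS g lo x.1 G)).sum
        + (es.map (fun x => (x.2 : ℝ) * leafRHS g lo x.1 G)).sum) :=
    mul_le_mul_of_nonneg_left (add_le_add hl1 hl2) hb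
  rw [sum_leafRHS, sum_leafRHS] at hlist
  have hrhs : ((2 : ℝ) ^ g.bw)⁻¹ * ((V : ℝ) * leafRHS g lo vl G) = ((2 : ℝ) ^ g.bw)⁻¹ *
      (((2 : ℝ) ^ g.u)⁻¹ * (∑ t ∈ Finset.Icc 1 lo.T, ((V : ℝ) * (coefAt g.wd vl t : ℝ)) * G (rhoT lo t)
        + ((V : ℝ) * (coefAt g.wd vl 0 : ℝ)) * (3 * G (mask 0)))) := by
    have hs : ∑ t ∈ Finset.Icc 1 lo.T, ((V : ℝ) * (coefAt g.wd vl t : ℝ)) * G (rhoT lo t)
        = (V : ℝ) * ∑ t ∈ Finset.Icc 1 lo.T, (coefAt g.wd vl t : ℝ) * G (rhoT lo t) := by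
      rw [Finset.mul_sum]
      exact Finset.sum_congr rfl (fun t _ => by ring)
    rw [hs]
    unfold leafRHS
    ring
  rw [hrhs] at hvert
  have hs : ∀ t, (((V * coefAt g.wd vl t + coefL g.wd xs t + coefL g.wd es t : ℕ) : ℝ))
      = (V : ℝ) * (coefAt g.wd vl t : ℝ) + (coefL g.wd xs t : ℝ) + (coefL g.wd es t : ℝ) := by
    intro t
    push_cast
    ring
  have hsum : ∑ t ∈ Finset.Icc 1 lo.T, (((V * coefAt g.wd vl t + coefL g.wd xs t + coefL g.wd es t : ℕ) : ℝ))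
        * G (rhoT lo t)
      = ∑ t ∈ Finset.Icc 1 lo.T, ((V : ℝ) * (coefAt g.wd vl t : ℝ)) * G (rhoT lo t)
        + ∑ t ∈ Finset.Icc 1 lo.T, (coefL g.wd xs t : ℝ) * G (rhoT lo t)
        + ∑ t ∈ Finset.Icc 1 lo.T, (coefL g.wd es t : ℝ) * G (rhoT lo t) := by
    rw [← Finset.sum_add_distrib, ← Finset.sum_add_distrib]
    refine Finset.sum_congr rfl (fun t _ => ?_)
    rw [hs]
    ring
  rw [hsum, hs]
  have key := add_le_add hlist hvert
  refine key.trans (le_of_eq ?_)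
  ring

/-- the numbers of a successful generation: the new state has the fields expected -/
theorem step_fields {g : GP} {lo : LP} {vl : XL} {xs es : List (XL × ℕ)} {V st' : ℕ}
    (hg : gpOK g = true)
    (hvt : (vl.M1 = 0 ∨ ∃ t ≤ lo.T, vl.P1 = g.wd * t) ∧ (vl.M2 = 0 ∨ ∃ t ≤ lo.T, vl.P2 = g.wd * t)
      ∧ (vl.M3 = 0 ∨ ∃ t ≤ lo.T, vl.P3 = g.wd * t))
    (hxt : ∀ x ∈ xs, (x.1.M1 = 0 ∨ ∃ t ≤ lo.T, x.1.P1 = g.wd * t)
      ∧ (x.1.M2 = 0 ∨ ∃ t ≤ lo.T, x.1.P2 = g.wd * t) ∧ (x.1.M3 = 0 ∨ ∃ t ≤ lo.T, x.1.P3 = g.wd * t))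
    (het : ∀ x ∈ es, (x.1.M1 = 0 ∨ ∃ t ≤ lo.T, x.1.P1 = g.wd * t)
      ∧ (x.1.M2 = 0 ∨ ∃ t ≤ lo.T, x.1.P2 = g.wd * t) ∧ (x.1.M3 = 0 ∨ ∃ t ≤ lo.T, x.1.P3 = g.wd * t))
    (hst : st' = V * vl.term + (xs.map (fun x => x.2 * x.1.term)).sum
      + (es.map (fun x => x.2 * x.1.term)).sum)
    (hbig : ∀ t, V * coefAt g.wd vl t + coefL g.wd xs t + coefL g.wd es t < 2 ^ g.wd) :
    ∀ t ≤ lo.T, (st' >>> (g.wd * t)) % 2 ^ g.wd
      = V * coefAt g.wd vl t + coefL g.wd xs t + coefL g.wd es t := by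
  obtain ⟨-, -, -, -, -, -, hwd, -, -⟩ := gpOK_props hg
  have hw : 0 < g.wd := by omega
  have e1 := term_eq_fields (g := g) (lo := lo) hw hvt.1 hvt.2.1 hvt.2.2
  have e2 := sum_term_eq_fields (lo := lo) hw xs hxt
  have e3 := sum_term_eq_fields (lo := lo) hw es het
  have e4 : st' = ∑ i ∈ Finset.range (lo.T + 1),
      (V * coefAt g.wd vl i + coefL g.wd xs i + coefL g.wd es i) * 2 ^ (g.wd * i) := by
    rw [hst, e1, e2, e3, Finset.mul_sum, ← Finset.sum_add_distrib, ← Finset.sum_add_distrib]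
    refine Finset.sum_congr rfl (fun t _ => ?_)
    ring
  intro t ht
  rw [e4]
  exact packed_field (fun i => V * coefAt g.wd vl i + coefL g.wd xs i + coefL g.wd es i)
    (fun i _ => hbig i) ht

theorem boolRec_ble {α : Sort _} (x y : α) (a b : ℕ) :
    @Bool.rec (fun _ => α) x y (Nat.ble a b) = if a ≤ b then y else x := by
  by_cases h : a ≤ b
  · rw [if_pos h, Nat.ble_eq_true_of_le h]
  · rw [if_neg h]
    have : Nat.ble a b = false := by
      rw [Bool.eq_false_iff]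
      intro h2
      exact h (Nat.le_of_ble_eq_true h2)
    rw [this]

/-- the generation as a function of the numbers -/
theorem stepG_eq (g : GP) (l : LP) (V : ℕ) (ops : Ops) (Tp : PT) (Tx Te : XT) (Tz : ZL) (st : ℕ) :
    stepG g l V ops Tp Tx Te Tz st =
      if sumZ (2 ^ g.wd) g.u st Tz 0 + fT g st <<< g.H ≤ 2 ^ (g.bw + g.H)
        ∧ keptOf g.d (sumZ (2 ^ g.wd) g.u st Tz 0) (fT g st <<< g.H) ≤ 2 ^ (g.d * (g.bw + g.H)) then
        ((2 ^ (g.d * (g.bw + g.H)) - keptOf g.d (sumZ (2 ^ g.wd) g.u st Tz 0) (fT g st <<< g.H))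
            >>> (g.d * (g.bw + g.H) - g.bw)) * V
          + goX (2 ^ g.B) Tx (powN g.bw (maskOf g.B g.bw (LP.N g l)) (asm (2 ^ g.wd) g.u st Tp)
              (fT g st <<< LP.eo g l) ops (asm (2 ^ g.wd) g.u st Tp) (fT g st <<< LP.eo g l)).1
          + goX (2 ^ g.B) Te (powN g.bw (maskOf g.B g.bw (LP.N g l)) (asm (2 ^ g.wd) g.u st Tp)
              (fT g st <<< LP.eo g l) ops (asm (2 ^ g.wd) g.u st Tp) (fT g st <<< LP.eo g l)).2
      else 0 := by
  unfold stepG stepGen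
  simp only [seqN_eq, boolRec_ble, goPow_eq]
  have e1 : Nat.shiftLeft 1 (g.bw.add g.H) = 2 ^ (g.bw + g.H) := by
    show 1 <<< (g.bw + g.H) = _
    rw [Nat.shiftLeft_eq, one_mul]
  have e2 : Nat.shiftLeft 1 (g.d.mul (g.bw.add g.H)) = 2 ^ (g.d * (g.bw + g.H)) := by
    show 1 <<< (g.d * (g.bw + g.H)) = _
    rw [Nat.shiftLeft_eq, one_mul]
  rw [e1, e2, ite_and]
  rfl

theorem vPacked_eq_term (a : XL) : vPacked a = a.term := by
  show (a.M1 <<< a.P1 + a.M2 <<< a.P2) + a.M3 <<< a.P3 = _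
  simp [Nat.shiftLeft_eq, XL.term]

/-- The invariant after one generation. -/
theorem inv_step {g : GP} {li lo : LP} {D1 D2 : ℕ} {vl : XL} {ops : Ops} {Tp : PT} {Tx Te : XT} {Tz : ZL}
    {n st : ℕ} (hchk : checkSeg g li lo D1 D2 vl Tp Tx Te Tz = true) (hops : Ops.expo ops 1 = g.d)
    (hinv : Inv g li n st) :
    Inv g lo (n + 1) (stepG g li (vPacked vl) ops Tp Tx Te Tz st) := by
  obtain ⟨hg, hli, hlo, hp, hpt, hcx, hce, hv⟩ := checkSeg_props hchk
  obtain ⟨hd, hld, hlam0, hlam1, hln, hB, hwd, hu, hE⟩ := gpOK_props hg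
  have hlam1' : lamOf g ≤ 1 := by linarith
  intro G hG hs
  rw [stepG_eq]
  split_ifs with hok
  swap
  · exact inv_of_zero g lo (n + 1) hlam0 hlam1' G hG hs
  obtain ⟨hok1, hok2⟩ := hok
  set E := g.d * (g.bw + g.H) with hEdef
  set K := keptOf g.d (sumZ (2 ^ g.wd) g.u st Tz 0) (fT g st <<< g.H) with hK
  set R := powN g.bw (maskOf g.B g.bw (LP.N g li)) (asm (2 ^ g.wd) g.u st Tp) (fT g st <<< LP.eo g li) ops
    (asm (2 ^ g.wd) g.u st Tp) (fT g st <<< LP.eo g li) with hR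
  set V := (2 ^ E - K) >>> (E - g.bw) with hVdef
  have hnums : GenNums g li ops Tp st R.1 R.2 := ⟨rfl⟩
  obtain ⟨hxL, hxS⟩ := chkX_sound Tx 0 0 _ hcx
  obtain ⟨heL, heS⟩ := chkE_sound Te 0 0 _ hce
  have hxl := fun a ha => xLeaf_ex (hxL a ha).1
  have hel := fun a ha => eLeaf_ex (heL a ha).1
  have hlevel := xlevel hg hli hpt hops hinv hnums hok1 hxS heS hxl hel
  simp only at hlevel
  obtain ⟨h1, hm⟩ := hlevel
  set xs := XT.pairs g.B Tx 0 0 R.1 with hxs
  set es := XT.pairs g.B Te 0 0 R.2 with hes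
  have hxmem : ∀ x ∈ xs, x.1 ∈ XT.leaves Tx 0 0 := by
    intro x hx
    rw [← XT.pairs_fst g.B Tx 0 0 R.1]
    exact List.mem_map_of_mem hx
  have hemem : ∀ x ∈ es, x.1 ∈ XT.leaves Te 0 0 := by
    intro x hx
    rw [← XT.pairs_fst g.B Te 0 0 R.2]
    exact List.mem_map_of_mem hx
  have hxok : ∀ x ∈ xs, xLeafOK g li lo D1 D2 x.1 = true := fun x hx => (hxL _ (hxmem x hx)).1
  have heok : ∀ x ∈ es, eLeafOK g li lo D1 D2 x.1 = true := fun x hx => (heL _ (hemem x hx)).1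
  -- the bound for `V`
  have hEpos : (0 : ℝ) < (2 : ℝ) ^ E := by positivity
  have hbpos : (0 : ℝ) < (2 : ℝ) ^ g.bw := by positivity
  have hpow : (2 : ℝ) ^ E = (2 : ℝ) ^ g.bw * (2 : ℝ) ^ (E - g.bw) := by
    rw [← pow_add]
    congr 1
    omega
  have hV1 : V * 2 ^ (E - g.bw) ≤ 2 ^ E - K := by
    rw [hVdef, Nat.shiftRight_eq_div_pow]
    exact Nat.div_mul_le_self _ _
  have hV2 : (V : ℝ) * (2 : ℝ) ^ (E - g.bw) ≤ (2 : ℝ) ^ E - (K : ℝ) := by
    have := (Nat.cast_le (α := ℝ)).mpr hV1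
    rw [Nat.cast_sub hok2] at this
    push_cast at this
    exact this
  have hVm : (V : ℝ) * ((2 : ℝ) ^ g.bw)⁻¹ ≤ 1 - ListMass g li xs es := by
    have h3 : (V : ℝ) * ((2 : ℝ) ^ g.bw)⁻¹ * (2 : ℝ) ^ E = (V : ℝ) * (2 : ℝ) ^ (E - g.bw) := by
      rw [hpow]
      field_simp
    have h4 : ((V : ℝ) * ((2 : ℝ) ^ g.bw)⁻¹ + ListMass g li xs es) * (2 : ℝ) ^ E ≤ 1 * (2 : ℝ) ^ E := by
      rw [add_mul, h3, one_mul]
      linarith
    have := le_of_mul_le_mul_right h4 hEpos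
    linarith
  have hm1 : ListMass g li xs es ≤ 1 := by
    have h4 : ListMass g li xs es * (2 : ℝ) ^ E ≤ 1 * (2 : ℝ) ^ E := by
      rw [one_mul]
      refine hm.trans ?_
      exact_mod_cast hok2
    exact le_of_mul_le_mul_right h4 hEpos
  -- no overflow
  have hw : 0 < g.wd := by omega
  have hVle : V ≤ 2 ^ g.bw := by
    have h5 : V * 2 ^ (E - g.bw) ≤ 2 ^ g.bw * 2 ^ (E - g.bw) := by
      rw [← pow_add, show g.bw + (E - g.bw) = E by omega]
      exact hV1.trans (Nat.sub_le _ _)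
    exact Nat.le_of_mul_le_mul_right h5 (by positivity)
  have hbig : ∀ t, V * coefAt g.wd vl t + coefL g.wd xs t + coefL g.wd es t < 2 ^ g.wd := by
    intro t
    have hc : coefAt g.wd vl t ≤ 2 ^ g.u := (coefAt_le_sum hw vl t).trans (vLeaf_mass hg hli hv)
    have h6 : V * coefAt g.wd vl t ≤ 2 ^ g.bw * 2 ^ g.u := Nat.mul_le_mul hVle hc
    have h7 := mass_leaves hg hli hxok heok
    have h8 : (((xs.map (fun x => x.2 * (x.1.M1 + x.1.M2 + x.1.M3))).sum : ℕ) : ℝ)
        + (((es.map (fun x => x.2 * (x.1.M1 + x.1.M2 + x.1.M3))).sum : ℕ) : ℝ)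
        ≤ (2 : ℝ) ^ g.bw * (2 : ℝ) ^ g.u := by
      refine h7.trans ?_
      have : (2 : ℝ) ^ g.bw * ListMass g li xs es ≤ (2 : ℝ) ^ g.bw * 1 :=
        mul_le_mul_of_nonneg_left hm1 hbpos.le
      have hu0 : (0 : ℝ) < (2 : ℝ) ^ g.u := by positivity
      nlinarith
    have h9 : (xs.map (fun x => x.2 * (x.1.M1 + x.1.M2 + x.1.M3))).sum
        + (es.map (fun x => x.2 * (x.1.M1 + x.1.M2 + x.1.M3))).sum ≤ 2 ^ g.bw * 2 ^ g.u := by
      exact_mod_cast h8
    have h10 := coefL_le hw xs t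
    have h11 := coefL_le hw es t
    have h12 : 2 ^ g.wd = 2 ^ (g.wd - (g.bw + g.u)) * (2 ^ g.bw * 2 ^ g.u) := by
      rw [← pow_add, ← pow_add]
      congr 1
      omega
    have h13 : 2 ≤ 2 ^ (g.wd - (g.bw + g.u)) := by
      calc 2 = 2 ^ 1 := by norm_num
        _ ≤ _ := Nat.pow_le_pow_right (by norm_num) (by omega)
    have h14 : 0 < 2 ^ g.bw * 2 ^ g.u := by positivity
    have h15 : 2 * (2 ^ g.bw * 2 ^ g.u) < 2 ^ g.wd := by
      have h16 : 4 ≤ 2 ^ (g.wd - (g.bw + g.u)) := by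
        calc 4 = 2 ^ 2 := by norm_num
          _ ≤ _ := Nat.pow_le_pow_right (by norm_num) (by omega)
      rw [h12]
      nlinarith
    omega
  -- the fields
  have hst : ((2 ^ E - K) >>> (E - g.bw)) * vPacked vl + goX (2 ^ g.B) Tx R.1 + goX (2 ^ g.B) Te R.2
      = V * vl.term + (xs.map (fun x => x.2 * x.1.term)).sum + (es.map (fun x => x.2 * x.1.term)).sum := by
    have e1 := goX_eq g.B Tx 0 0 R.1
    have e2 := goX_eq g.B Te 0 0 R.2
    simp only [pow_zero, mul_one] at e1 e2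
    rw [e1, e2, vPacked_eq_term]
  have hfields := step_fields (lo := lo) (vl := vl) (xs := xs) (es := es) (V := V) hg (vLeaf_targets hv)
    (fun x hx => xLeaf_targets (hxok x hx)) (fun x hx => eLeaf_targets (heok x hx)) hst hbig
  exact (step_value hg hli hlo hp hv hxok heok h1 hVm hG hs).trans (pval_of_fields hG hlo hfields)

theorem runG_succ (g : GP) (l : LP) (V : ℕ) (ops : Ops) (Tp : PT) (Tx Te : XT) (Tz : ZL) (k st : ℕ) :
    runG g l V ops Tp Tx Te Tz (k + 1) st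
      = runG g l V ops Tp Tx Te Tz k (stepG g l V ops Tp Tx Te Tz st) := by
  show seqN (stepG g l V ops Tp Tx Te Tz st) (fun a => runG g l V ops Tp Tx Te Tz k a) = _
  rw [seqN_eq]

/-- The invariant after several generations in one lattice. -/
theorem inv_run {g : GP} {l : LP} {D1 D2 : ℕ} {vl : XL} {ops : Ops} {Tp : PT} {Tx Te : XT} {Tz : ZL}
    {n k st : ℕ} (hchk : checkSeg g l l D1 D2 vl Tp Tx Te Tz = true) (hops : Ops.expo ops 1 = g.d)
    (hinv : Inv g l n st) :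
    Inv g l (n + k) (runG g l (vPacked vl) ops Tp Tx Te Tz k st) := by
  induction k generalizing n st with
  | zero => exact hinv
  | succ k ih =>
    rw [runG_succ, show n + (k + 1) = (n + 1) + k by omega]
    exact ih (inv_step hchk hops hinv)

/-- A transition generation. -/
theorem inv_run1 {g : GP} {li lo : LP} {D1 D2 : ℕ} {vl : XL} {ops : Ops} {Tp : PT} {Tx Te : XT} {Tz : ZL}
    {n st : ℕ} (hchk : checkSeg g li lo D1 D2 vl Tp Tx Te Tz = true) (hops : Ops.expo ops 1 = g.d)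
    (hinv : Inv g li n st) :
    Inv g lo (n + 1) (runG g li (vPacked vl) ops Tp Tx Te Tz 1 st) := by
  rw [runG_succ]
  exact inv_step hchk hops hinv

/-- The start of the chain: the vertices at depth zero. -/
theorem inv_zero {g : GP} {li lo : LP} {D1 D2 : ℕ} {vl : XL} (hg : gpOK g = true) (hli : latOK g li = true)
    (hlo : latOK g lo = true) (hp : pairOK li lo D1 D2 = true) (hv : vLeafOK g li lo D1 D2 vl = true) :
    Inv g lo 0 (2 ^ g.bw * vPacked vl) := by
  obtain ⟨hd, hld, hlam0, hlam1, hln, hB, hwd, hu, hE⟩ := gpOK_props hg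
  have hw : 0 < g.wd := by omega
  intro G hG hs
  have hbig : ∀ t, 2 ^ g.bw * coefAt g.wd vl t + coefL g.wd [] t + coefL g.wd [] t < 2 ^ g.wd := by
    intro t
    have hc : coefAt g.wd vl t ≤ 2 ^ g.u := (coefAt_le_sum hw vl t).trans (vLeaf_mass hg hli hv)
    have h6 : 2 ^ g.bw * coefAt g.wd vl t ≤ 2 ^ g.bw * 2 ^ g.u := Nat.mul_le_mul_left _ hc
    have h7 : 2 ^ g.bw * 2 ^ g.u < 2 ^ g.wd := by
      rw [← pow_add]
      exact Nat.pow_lt_pow_right (by norm_num) (by omega)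
    simp only [coefL_nil, add_zero]
    omega
  have hfields := step_fields (lo := lo) (vl := vl) (xs := []) (es := []) (V := 2 ^ g.bw)
    (st' := 2 ^ g.bw * vPacked vl) hg (vLeaf_targets hv)
    (by simp) (by simp) (by simp [vPacked_eq_term]) hbig
  refine le_trans ?_ (pval_of_fields hG hlo hfields)
  have hvs := vLeaf_sound hg hli hlo hp hv hG hs
  have e1 : val (Mv g.d (lamOf g) 0) G = 3 * G (chanV (lamOf g) (Pi.single 0 1)) := by
    rw [val_Mv_zero, Fin.sum_univ_three]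
    have e2 : ∀ j : Fin 3, G (chanV (lamOf g) (Pi.single j 1)) = G (chanV (lamOf g) (Pi.single 0 1)) := by
      intro j
      have : (Pi.single j (1 : ℝ) : Vec) = (Pi.single 0 (1 : ℝ) : Vec) ∘ Equiv.swap 0 j := by
        funext i
        by_cases h : i = j
        · subst h; simp
        · by_cases h0 : i = 0
          · subst h0; simp [Pi.single_apply, h, Ne.symm h]
          · simp [Pi.single_apply, h, Equiv.swap_apply_of_ne_of_ne h0 h, h0]
      rw [this, chanV_perm, hs]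
    rw [e2 1, e2 2]
    ring
  rw [e1]
  refine hvs.trans (le_of_eq ?_)
  unfold leafRHS
  have hbne : (2 : ℝ) ^ g.bw ≠ 0 := by positivity
  have hs2 : ∑ t ∈ Finset.Icc 1 lo.T, (((2 ^ g.bw * coefAt g.wd vl t + coefL g.wd [] t + coefL g.wd [] t : ℕ) : ℝ))
        * G (rhoT lo t)
      = (2 : ℝ) ^ g.bw * ∑ t ∈ Finset.Icc 1 lo.T, (coefAt g.wd vl t : ℝ) * G (rhoT lo t) := by
    rw [Finset.mul_sum]
    refine Finset.sum_congr rfl (fun t _ => ?_)
    simp only [coefL_nil, add_zero]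
    push_cast
    ring
  rw [hs2]
  simp only [coefL_nil, add_zero]
  push_cast
  field_simp

/-- The start of a chain from the check of its first segment. -/
theorem inv_start {g : GP} {l : LP} {D1 D2 : ℕ} {vl : XL} {Tp : PT} {Tx Te : XT} {Tz : ZL}
    (h : checkSeg g l l D1 D2 vl Tp Tx Te Tz = true) : Inv g l 0 (2 ^ g.bw * vPacked vl) := by
  obtain ⟨hg, hl, -, hp, -, -, -, hv⟩ := checkSeg_props h
  exact inv_zero hg hl hl hp hv

end Vale.Agent.Lib.P154.Chain
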